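import Vale.Agent.P065.H819.RowSum

/-!
# P065, package ROWS, part 7: the entropy of one row digit under the law `Q`, main inequality
-/

set_option autoImplicit false
set_option linter.unusedSectionVars false

open Finset Real

noncomputable section

namespace Vale.Agent.P065.H819

open Vale.Agent.P065.Ent
open Vale.Agent.P065.H700 (KL AC)

variable {Ω : Type*} [Fintype Ω] {κ : Type*} [Fintype κ] {σ : Type*}

/-- the parameters -/
structure Par where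
  /-- height of the boxes -/
  a : ℕ
  /-- height of the line cells -/
  a2 : ℕ
  /-- smallest cell -/
  lam0 : ℕ
  /-- depth of the slope splits -/
  P0 : ℕ
  /-- guard in time -/
  g : ℕ
  /-- number of digits -/
  P : ℕ
  /-- height of the rows -/
  gam : ℕ
  h1 : 2 ≤ lam0
  h2 : a + 2 * P0 + 2 * g + 10 ≤ P
  h3 : a + P ≤ gam

/-- the line cell of a row -/
def jL (a a2 : ℕ) (j : ℤ) : ℤ := j / 2 ^ (a2 - a)

section
variable (p : Par) (Q : κ × Ω → ℝ) (μ : Ω → ℝ) (S : κ → Ω → σ) (x : Ω → ℝ) (h f : κ → Ω → ℝ)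
  (E : κ → Ω → Option Bool) (s₀ s₁ : κ → ℕ)

/-- a good box -/
structure GB (ps : ℝ) (v : ℕ) (k : κ) (r : σ × ℤ × ℤ) : Prop where
  pos : 0 < mB Q S x h f p.a v k r
  lab : ∀ b, 0 < PE μ (fun ω => E k ω = some b ∧ Bx S x h f p.a v k r ω)
  thick : ∀ b, ps ≤ PE (qB Q S x h f p.a v k r) (fun ω => inh (Tv x v) r.2.1 b ω ∧
    inn (Tv x v) (f k) (cv x (h k) (f k) v) p.a (p.a - 5) r.2.2 ω)
  pos0 : jL p.a p.a2 r.2.2 * 2 ^ p.a2 + 1 ≤ r.2.2 * 2 ^ p.a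
  pos1 : (r.2.2 + 1) * 2 ^ p.a ≤ (jL p.a p.a2 r.2.2 + 1) * 2 ^ p.a2

/-- the hypotheses on the columns -/
structure ColH : Prop where
  prob : IsProb μ
  probQ : IsProb Q
  ac : ∀ k ω, 0 < Q (k, ω) → 0 < μ ω
  f0 : ∀ k ω, 0 ≤ f k ω
  f1 : ∀ k ω, f k ω < 1
  hE : ∀ k ω b, E k ω = some b → (blk (s₀ k) (s₁ k) b : ℝ) / 2 ^ p.P ≤ f k ω ∧
    f k ω < (blk (s₀ k) (s₁ k) b : ℝ) / 2 ^ p.P + 1 / 2 ^ p.P
  hs0 : ∀ k, s₀ k ≤ 2 ^ p.P
  hs1 : ∀ k, s₁ k ≤ 2 ^ p.P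
  hs : ∀ k, (1 : ℝ) / 2 ^ p.P0 ≤ |(s₀ k : ℝ) / 2 ^ p.P - s₁ k / 2 ^ p.P|

/-- the information of one box, rows of `2 ^ lam` units -/
def Info (v lam : ℕ) (k : κ) (r : σ × ℤ × ℤ) : ℝ :=
  SQ μ (qB Q S x h f p.a v k r) (Tv x v) (f k) (cv x (h k) (f k) v) (fun ω => S k ω = r.1) (E k)
    (p.gam - lam) p.P p.P p.P p.a p.a2 lam (s₀ k) (s₁ k) r.2.1 r.2.2 (jL p.a p.a2 r.2.2)

end

variable {p : Par} {Q : κ × Ω → ℝ} {μ : Ω → ℝ} {S : κ → Ω → σ} {x : Ω → ℝ} {h f : κ → Ω → ℝ}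
  {E : κ → Ω → Option Bool} {s₀ s₁ : κ → ℕ}

lemma inn_mono {T f c : Ω → ℝ} {a lam lam' : ℕ} (h1 : lam ≤ lam') (h2 : lam' ≤ a) {j : ℤ} {ω : Ω}
    (hi : inn T f c a lam' j ω) : inn T f c a lam j ω := by
  obtain ⟨i1, i2⟩ := hi
  have hl : (0 : ℝ) < 2 ^ lam := by positivity
  have hl' : (0 : ℝ) < 2 ^ lam' := by positivity
  have e1 : ((j * 2 ^ (a - lam') + 4 : ℤ) : ℝ) ≤ yy T f c ω / 2 ^ lam' := Int.le_floor.mp i1
  have e2 : yy T f c ω / 2 ^ lam' < (((j + 1) * 2 ^ (a - lam') - 4 : ℤ) : ℝ) := Int.floor_lt.mp i2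
  rw [le_div_iff₀ hl'] at e1
  rw [div_lt_iff₀ hl'] at e2
  push_cast at e1 e2
  have p1 : (2 : ℝ) ^ (a - lam') * 2 ^ lam' = 2 ^ (a - lam) * 2 ^ lam := by
    rw [← pow_add, ← pow_add]; congr 1; omega
  have p2 : (2 : ℝ) ^ lam ≤ 2 ^ lam' := pow_le_pow_right₀ (by norm_num) h1
  have e1' : (j : ℝ) * (2 ^ (a - lam) * 2 ^ lam) + 4 * 2 ^ lam' ≤ yy T f c ω := by
    rw [← p1]; linarith
  have e2' : yy T f c ω < ((j : ℝ) + 1) * (2 ^ (a - lam) * 2 ^ lam) - 4 * 2 ^ lam' := by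
    rw [← p1]; linarith
  constructor
  · apply Int.le_floor.mpr
    rw [le_div_iff₀ hl]
    push_cast
    linarith
  · apply Int.floor_lt.mpr
    rw [div_lt_iff₀ hl]
    push_cast
    linarith

/-- **one good box** -/
theorem box_le (H : ColH p Q μ f E s₀ s₁) {ps : ℝ} (hps : 0 < ps) (hps1 : ps ≤ 1)
    {κ' e' : ℝ} (hκ : 0 < κ') (hκ1 : κ' < 1) (he' : 0 < e') {v lam : ℕ} (hlam : p.lam0 ≤ lam)
    (hla : lam + 5 ≤ p.a) {k : κ} {r : σ × ℤ × ℤ} (hr : GB p Q μ S x h f E ps v k r) :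
    ∑ dx ∈ Xn (p.gam - lam) (Tv x v) p.g r.2.1, ∑ i ∈ In p.a lam r.2.2,
      cq (qB Q S x h f p.a v k r) (Tv x v) (f k) (cv x (h k) (f k) v) (p.gam - lam) lam dx i ≤
      2 * eB κ' p.a lam p.P0 p.g + e' + CQ κ' ps e' * Info p Q μ S x h f E s₀ s₁ v lam k r := by
  have h1 := p.h1
  have h2 := p.h2
  have h3 := p.h3
  refine rowboxQ H.prob (H.f0 k) (H.f1 k) (p.gam - lam) p.P p.P p.P p.a p.a2 lam p.P0 p.g (s₀ k)
    (s₁ k) (H.hE k) (H.hs0 k) (H.hs1 k) (H.hs k) r.2.1 r.2.2 (jL p.a p.a2 r.2.2) hr.pos0 hr.pos1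
    hr.lab (qB_prob H.probQ k r hr.pos) (qB_ac H.prob H.ac H.probQ k r) hps hps1 ?_ hκ hκ1 he'
    (by omega) (by omega) (by omega) h2 h2 h2
  intro b
  refine (hr.thick b).trans (PE_mono (qB_prob H.probQ k r hr.pos) fun ω hω => ⟨hω.1, ?_⟩)
  exact inn_mono (by omega) (by omega) hω.2

/-- the conditioning variable: column, slope cell, time digit, row -/
def Zt (S : κ → Ω → σ) (x : Ω → ℝ) (h : κ → Ω → ℝ) (gam t : ℕ) (q : κ × Ω) : κ × σ × ℤ × ℤ :=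
  (q.1, S q.1 q.2, Dt x (t + 1) q.2, Nt (h q.1) gam t q.2)

/-- the row digit -/
def Dg (h : κ → Ω → ℝ) (gam t : ℕ) (q : κ × Ω) : Prop :=
  Nt (h q.1) gam (t + 1) q.2 = 2 * Nt (h q.1) gam t q.2

open Classical in
/-- the mass of one value in one column -/
lemma PE_Zt (hQ : IsProb Q) (gam t : ℕ) (k : κ) (s : σ) (dx i : ℤ) :
    PE Q (fun q => Zt S x h gam t q = (k, s, dx, i) ∧ Dg h gam t q) =
      (∑ ω, if S k ω = s ∧ Dt x (t + 1) ω = dx ∧ Nt (h k) gam (t + 1) ω = 2 * i then Q (k, ω)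
        else 0) ∧
    PE Q (fun q => Zt S x h gam t q = (k, s, dx, i) ∧ ¬ Dg h gam t q) =
      (∑ ω, if S k ω = s ∧ Dt x (t + 1) ω = dx ∧ Nt (h k) gam (t + 1) ω = 2 * i + 1 then Q (k, ω)
        else 0) := by
  have key : ∀ (P : κ × Ω → Prop) (P' : Ω → Prop) (i1 : DecidablePred P'),
      (∀ ω, P (k, ω) ↔ P' ω) →
      (∀ k' ω, P (k', ω) → k' = k) → PE Q P = ∑ ω, if P' ω then Q (k, ω) else 0 := by
    intro P P' i1 h1 h2
    rw [PE_def, Fintype.sum_prod_type, sum_eq_single k]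
    · refine sum_congr rfl fun ω _ => ?_
      by_cases hp : P' ω
      · rw [if_pos hp, if_pos ((h1 ω).mpr hp)]
      · rw [if_neg hp, if_neg fun hh => hp ((h1 ω).mp hh)]
    · intro k' _ hk'
      exact sum_eq_zero fun ω _ => if_neg fun hh => hk' (h2 k' ω hh)
    · intro hk
      exact absurd (mem_univ k) hk
  constructor
  · refine key (fun q => Zt S x h gam t q = (k, s, dx, i) ∧ Dg h gam t q) _ _ (fun ω => ?_)
      (fun k' ω hh => congrArg Prod.fst hh.1)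
    have h3 := Nt_succ (h k) gam t ω
    unfold Zt Dg
    simp only [Prod.mk.injEq, true_and]
    constructor
    · rintro ⟨⟨a1, a2, a3⟩, a4⟩
      exact ⟨a1, a2, by omega⟩
    · rintro ⟨a1, a2, a3⟩
      exact ⟨⟨a1, a2, by omega⟩, by omega⟩
  · refine key (fun q => Zt S x h gam t q = (k, s, dx, i) ∧ ¬ Dg h gam t q) _ _ (fun ω => ?_)
      (fun k' ω hh => congrArg Prod.fst hh.1)
    have h3 := Nt_succ (h k) gam t ω
    unfold Zt Dg
    simp only [Prod.mk.injEq, true_and]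
    constructor
    · rintro ⟨⟨a1, a2, a3⟩, a4⟩
      exact ⟨a1, a2, by omega⟩
    · rintro ⟨a1, a2, a3⟩
      exact ⟨⟨a1, a2, by omega⟩, by omega⟩

/-- values of `(Dₜ₊₁, Nₜ₊₁)` determine the box -/
lemma box_iff {v dX lam gam t a : ℕ} (h1 : v + dX = t + 1) (h2 : dX + lam = gam)
    (hla : lam + 5 ≤ a) (k : κ) (r : σ × ℤ × ℤ) {dx i : ℤ}
    (hdx : 0 ≤ xhh dX r.2.1 dx ∧ xhh dX r.2.1 dx < 1) (hi : i ∈ In a lam r.2.2) (i' : ℤ)
    (hi' : i' = 2 * i ∨ i' = 2 * i + 1) (ω : Ω) :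
    Bx S x h f a v k r ω ∧ YY (Tv x v) (f k) (cv x (h k) (f k) v) dX lam ω = (dx, i') ↔
      (S k ω = r.1 ∧ Dt x (t + 1) ω = dx ∧ Nt (h k) gam (t + 1) ω = i') := by
  rw [YY_eq x (h k) (f k) v dX lam (t + 1) gam h1 h2 ω, Prod.mk.injEq]
  constructor
  · rintro ⟨⟨a1, -, -⟩, a2, a3⟩
    exact ⟨a1, a2, a3⟩
  · rintro ⟨a1, a2, a3⟩
    refine ⟨⟨a1, ?_, ?_⟩, a2, a3⟩
    · have e : Dt x (t + 1) ω = dg dX (Tv x v) ω := by
        unfold Dt dg Tv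
        rw [← h1, pow_add]; congr 1; ring
      rw [← a2, e] at hdx
      unfold xhh at hdx
      have g1 := dg_Ico dX (Tv x v) ω r.2.1
      have g2 := dg_Ico dX (Tv x v) ω (r.2.1 + 1)
      push_cast at g2
      rw [Int.floor_eq_iff]
      refine ⟨g1.mp (by linarith), ?_⟩
      by_contra hcon
      push Not at hcon
      have := g2.mpr hcon
      linarith
    · rw [yy_eq]
      have hpow : (2 : ℤ) ^ (a - lam) = 2 * 2 ^ (a - lam - 1) := by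
        obtain ⟨n, hn⟩ : ∃ n, a - lam = n + 1 := ⟨a - lam - 1, by omega⟩
        rw [hn]; simp [pow_succ]; ring
      obtain ⟨b1, b2⟩ := Finset.mem_Ico.mp hi
      have c1 : r.2.2 * 2 ^ (a - lam) ≤ i' := by
        rw [hpow]; rcases hi' with h' | h' <;> nlinarith
      have c2 : i' + 1 ≤ (r.2.2 + 1) * 2 ^ (a - lam) := by
        rw [hpow]; rcases hi' with h' | h' <;> nlinarith
      have hgl : (0 : ℝ) < 2 ^ gam := by positivity
      have ha : (0 : ℝ) < 2 ^ a := by positivity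
      have hl : (0 : ℝ) < 2 ^ lam := by positivity
      unfold Nt at a3
      have d1 := Int.floor_eq_iff.mp a3
      -- `2 ^ (t + 1) h / 2 ^ gam = 2 ^ v h / 2 ^ lam`
      have e1 : (2 : ℝ) ^ (t + 1) * h k ω / 2 ^ gam = 2 ^ v * h k ω / 2 ^ lam := by
        rw [← h1, ← h2, pow_add, pow_add]; field_simp
      rw [e1, le_div_iff₀ hl, div_lt_iff₀ hl] at d1
      have e2 : (2 : ℝ) ^ a = 2 ^ (a - lam) * 2 ^ lam := by
        rw [← pow_add]; congr 1; omega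
      rw [Int.floor_eq_iff, le_div_iff₀ ha, div_lt_iff₀ ha, e2]
      have c1' : (r.2.2 : ℝ) * 2 ^ (a - lam) ≤ i' := by exact_mod_cast c1
      have c2' : (i' : ℝ) + 1 ≤ (r.2.2 + 1) * 2 ^ (a - lam) := by exact_mod_cast c2
      constructor
      · nlinarith
      · nlinarith

end Vale.Agent.P065.H819
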