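import Vale.Agent.P065.H587.Fill

/-!
# P065, package FAIR, part 1: the generalised divergence integrand

`gk a b = a log (a / b) - a + b ≥ (√a - √b) ^ 2 ≥ 0`.  Mutual informations are sums of such terms
over all pairs of values, so restricting the sum to any set of pairs only decreases it.
-/

set_option autoImplicit false

open Finset Real

noncomputable section

namespace Vale.Agent.P065.H819

open Vale.Agent.P065.Ent

/-- the integrand of the generalised Kullback-Leibler divergence -/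
def gk (a b : ℝ) : ℝ := a * log (a / b) - a + b

lemma gk_ge {a b : ℝ} (ha : 0 ≤ a) (hb : 0 ≤ b) (hab : 0 < a → 0 < b) :
    (√ a - √ b) ^ 2 ≤ gk a b := by
  unfold gk
  have e1 := sq_sqrt ha
  have e2 := sq_sqrt hb
  rcases ha.eq_or_lt with h0 | h0
  · rw [← h0]; simp [e2]
  · have h3 := hab h0
    have h4 : log (√ b / √ a) ≤ √ b / √ a - 1 :=
      log_le_sub_one_of_pos (div_pos (sqrt_pos.mpr h3) (sqrt_pos.mpr h0))
    have h5 : log (√ b / √ a) = - (1 / 2) * log (a / b) := by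
      rw [log_div (sqrt_pos.mpr h3).ne' (sqrt_pos.mpr h0).ne', log_sqrt h3.le,
        log_sqrt h0.le, log_div h0.ne' h3.ne']
      ring
    rw [h5] at h4
    have h6 : a * (√ b / √ a) = √ a * √ b := by
      have h7 : √ a ≠ 0 := (sqrt_pos.mpr h0).ne'
      field_simp
      rw [sq_sqrt h0.le]
    have h8 : a * (- (1 / 2) * log (a / b)) ≤ a * (√ b / √ a - 1) :=
      mul_le_mul_of_nonneg_left h4 h0.le
    have h9 : a * (√ b / √ a - 1) = √ a * √ b - a := by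
      rw [mul_sub, h6, mul_one]
    rw [h9] at h8
    nlinarith

lemma gk_nonneg {a b : ℝ} (ha : 0 ≤ a) (hb : 0 ≤ b) (hab : 0 < a → 0 < b) : 0 ≤ gk a b :=
  (sq_nonneg _).trans (gk_ge ha hb hab)

lemma gk_mul {t : ℝ} (ht : 0 ≤ t) (a b : ℝ) : gk (t * a) (t * b) = t * gk a b := by
  unfold gk
  rcases ht.eq_or_lt with h0 | h0
  · rw [← h0]; simp
  · rw [mul_div_mul_left _ _ h0.ne']; ring

section hell
variable {ι : Type*}

/-- Hellinger form of the Pinsker inequality, unnormalised -/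
theorem sum_abs_sq_le (T : Finset ι) (a b : ι → ℝ) (ha : ∀ i ∈ T, 0 ≤ a i) (hb : ∀ i ∈ T, 0 ≤ b i)
    (hab : ∀ i ∈ T, 0 < a i → 0 < b i) :
    (∑ i ∈ T, |a i - b i|) ^ 2 ≤ 2 * (∑ i ∈ T, gk (a i) (b i)) * ∑ i ∈ T, (a i + b i) := by
  have h1 : (∑ i ∈ T, |a i - b i|) ^ 2 ≤
      (∑ i ∈ T, (√ (a i) - √ (b i)) ^ 2) * ∑ i ∈ T, (√ (a i) + √ (b i)) ^ 2 := by
    have h3 : ∀ i ∈ T, |a i - b i| = |√ (a i) - √ (b i)| * (√ (a i) + √ (b i)) := by
      intro i hi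
      rw [← abs_of_nonneg (show 0 ≤ √ (a i) + √ (b i) by positivity), ← abs_mul]
      congr 1
      have e1 := sq_sqrt (ha i hi)
      have e2 := sq_sqrt (hb i hi)
      nlinarith
    rw [sum_congr rfl h3]
    have h4 := sum_mul_sq_le_sq_mul_sq T (fun i => |√ (a i) - √ (b i)|)
      (fun i => √ (a i) + √ (b i))
    simpa only [sq_abs] using h4
  have h2 : ∑ i ∈ T, (√ (a i) - √ (b i)) ^ 2 ≤ ∑ i ∈ T, gk (a i) (b i) :=
    sum_le_sum fun i hi => gk_ge (ha i hi) (hb i hi) (hab i hi)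
  have h3 : ∑ i ∈ T, (√ (a i) + √ (b i)) ^ 2 ≤ 2 * ∑ i ∈ T, (a i + b i) := by
    rw [mul_sum]
    refine sum_le_sum fun i hi => ?_
    have e1 := sq_sqrt (ha i hi)
    have e2 := sq_sqrt (hb i hi)
    nlinarith [sq_nonneg (√ (a i) - √ (b i))]
  calc (∑ i ∈ T, |a i - b i|) ^ 2 ≤ _ := h1
    _ ≤ (∑ i ∈ T, gk (a i) (b i)) * (2 * ∑ i ∈ T, (a i + b i)) :=
      mul_le_mul h2 h3 (sum_nonneg fun _ _ => sq_nonneg _)
        (sum_nonneg fun i hi => gk_nonneg (ha i hi) (hb i hi) (hab i hi))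
    _ = _ := by ring

/-- the same, relative to a bound for one of the two total masses -/
theorem hell (T : Finset ι) (a b : ι → ℝ) (ha : ∀ i ∈ T, 0 ≤ a i) (hb : ∀ i ∈ T, 0 ≤ b i)
    (hab : ∀ i ∈ T, 0 < a i → 0 < b i) {η S : ℝ} (hη : 0 ≤ η) (hη4 : η ≤ 1 / 4)
    (hS : ∑ i ∈ T, a i ≤ S ∨ ∑ i ∈ T, b i ≤ S) (hgk : ∑ i ∈ T, gk (a i) (b i) ≤ η ^ 2 * S) :
    ∑ i ∈ T, |a i - b i| ≤ 3 * η * S := by
  set Δ := ∑ i ∈ T, |a i - b i| with hΔ
  have hΔ0 : 0 ≤ Δ := sum_nonneg fun _ _ => abs_nonneg _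
  have hsq := sum_abs_sq_le T a b ha hb hab
  rw [← hΔ] at hsq
  have hA0 : 0 ≤ ∑ i ∈ T, a i := sum_nonneg ha
  have hB0 : 0 ≤ ∑ i ∈ T, b i := sum_nonneg hb
  have hS0 : 0 ≤ S := by rcases hS with h | h <;> linarith
  have hab1 : ∑ i ∈ T, (a i + b i) ≤ 2 * S + Δ := by
    rw [sum_add_distrib]
    have h1 : ∑ i ∈ T, a i - ∑ i ∈ T, b i ≤ Δ := by
      rw [← sum_sub_distrib]
      exact sum_le_sum fun i _ => le_abs_self _
    have h2 : ∑ i ∈ T, b i - ∑ i ∈ T, a i ≤ Δ := by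
      rw [← sum_sub_distrib]
      exact sum_le_sum fun i _ => by rw [abs_sub_comm]; exact le_abs_self _
    rcases hS with h | h <;> linarith
  have hg0 : 0 ≤ ∑ i ∈ T, gk (a i) (b i) :=
    sum_nonneg fun i hi => gk_nonneg (ha i hi) (hb i hi) (hab i hi)
  have h1 : Δ ^ 2 ≤ 2 * (η ^ 2 * S) * (2 * S + Δ) := by
    refine hsq.trans (mul_le_mul (by linarith) hab1 ?_ (by positivity))
    exact sum_nonneg fun i hi => add_nonneg (ha i hi) (hb i hi)
  by_contra hcon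
  push Not at hcon
  have hηS : 0 ≤ η * S := mul_nonneg hη hS0
  have h2 : 2 * (η ^ 2 * S) * (2 * S + Δ) = 4 * (η * S) ^ 2 + 2 * η * (η * S) * Δ := by ring
  rw [h2] at h1
  have h3 : (3 * (η * S)) ^ 2 ≤ 3 * (η * S) * Δ := by nlinarith
  have h4 : 3 * (η * S) * Δ ≤ Δ ^ 2 := by nlinarith
  have h5 : 2 * η * (η * S) * Δ ≤ 1 / 2 * ((η * S) * Δ) := by
    have : 0 ≤ (η * S) * Δ := mul_nonneg hηS hΔ0
    nlinarith
  have h6 : Δ * Δ > 3 * (η * S) * Δ ∨ Δ = 0 := by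
    rcases hΔ0.eq_or_lt with h | h
    · right; exact h.symm
    · left; nlinarith
  rcases h6 with h6 | h6
  · nlinarith
  · rw [h6] at hcon; nlinarith

end hell

/-! ## Mutual information as a sum of generalised divergence terms -/

section info
variable {Ω : Type*} [Fintype Ω] {α β : Type*} {μ ν : Ω → ℝ}

theorem I_eq_gk [DecidableEq α] [DecidableEq β] (hν : IsProb ν) (X : Ω → α) (Y : Ω → β) :
    I ν X Y (fun _ => ()) = ∑ t ∈ univ.image X ×ˢ univ.image Y,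
      gk (Pr ν (fun ω => (X ω, Y ω)) t) (Pr ν X t.1 * Pr ν Y t.2) := by
  classical
  set V : Ω → α × β := fun ω => (X ω, Y ω) with hV
  set s := univ.image X ×ˢ univ.image Y with hs
  have hVs : univ.image V ⊆ s := by
    intro t ht
    obtain ⟨ω, -, rfl⟩ := mem_image.mp ht
    exact mem_product.mpr ⟨mem_image_of_mem X (mem_univ ω), mem_image_of_mem Y (mem_univ ω)⟩
  have hout : ∀ t ∈ s, t ∉ univ.image V → Pr ν V t = 0 := fun t _ ht =>
    Pr_eq_zero V fun ω h => ht (h ▸ mem_image_of_mem V (mem_univ ω))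
  have hp1 : ∑ t ∈ s, Pr ν V t = 1 := by
    rw [← sum_subset hVs hout]
    exact sum_Pr hν V
  have hq1 : ∑ t ∈ s, Pr ν X t.1 * Pr ν Y t.2 = 1 := by
    rw [hs, sum_product]
    have e : ∀ x ∈ univ.image X, ∑ y ∈ univ.image Y, Pr ν X (x, y).1 * Pr ν Y (x, y).2 =
        Pr ν X x := by
      intro x _
      show ∑ y ∈ univ.image Y, Pr ν X x * Pr ν Y y = Pr ν X x
      rw [← mul_sum, sum_Pr hν Y, mul_one]
    rw [sum_congr rfl e, sum_Pr hν X]
  have hD : ∑ t ∈ s, Pr ν V t * log (Pr ν V t / (Pr ν X t.1 * Pr ν Y t.2)) =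
      I ν X Y (fun _ => ()) := by
    rw [← sum_subset hVs fun t ht ht' => by rw [hout t ht ht', zero_mul]]
    rw [← sum_fiber ν V (fun t => log (Pr ν V t / (Pr ν X t.1 * Pr ν Y t.2)))]
    unfold I
    rw [Hc_const hν, Hc_congr (Det.refl X) (Det.refl X) (det_fst Y (fun _ : Ω => ()))
      ((Det.refl Y).pair (det_const Y ())), Hc_eq_sum hν]
    unfold H
    rw [← sum_sub_distrib]
    refine sum_congr rfl fun ω _ => ?_
    rcases (hν.nonneg ω).eq_or_lt with h0 | h0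
    · rw [← h0]; simp
    · have p1 := Pr_pos hν X h0
      have p2 := Pr_pos hν Y h0
      have p4 := Pr_pos hν V h0
      have e1 : Pr ν (fun ω => (X ω, Y ω)) (X ω, Y ω) = Pr ν V (V ω) := rfl
      rw [e1]
      show ν ω * log (Pr ν V (V ω) / (Pr ν X (X ω) * Pr ν Y (Y ω))) = _
      rw [log_div p4.ne' (by positivity), log_mul p1.ne' p2.ne', log_div p4.ne' p2.ne']
      ring
  unfold gk
  rw [sum_add_distrib, sum_sub_distrib, hp1, hq1, hD]
  ring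

lemma Pr_cE (μ : Ω → ℝ) (Q : Ω → Prop) (X : Ω → α) (x : α) :
    Pr (cE μ Q) X x = PE μ (fun ω => X ω = x ∧ Q ω) / PE μ Q := by
  classical
  have h := Pr_cnd μ X Q x True
  have h2 : Pr μ (fun ω => (X ω, Q ω)) (x, True) = PE μ (fun ω => X ω = x ∧ Q ω) := by
    unfold PE Pr
    refine sum_congr rfl fun ω _ => ?_
    by_cases ha : X ω = x <;> by_cases hq : Q ω <;> simp [ha, hq]
  rw [h2] at h
  exact h

/-- the unnormalised form on an event -/
theorem PE_mul_I_eq_gk [DecidableEq α] [DecidableEq β] (hμ : IsProb μ) {Q : Ω → Prop}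
    (hQ : 0 < PE μ Q) (X : Ω → α) (Y : Ω → β) :
    PE μ Q * I (cE μ Q) X Y (fun _ => ()) = ∑ t ∈ univ.image X ×ˢ univ.image Y,
      gk (PE μ (fun ω => X ω = t.1 ∧ Y ω = t.2 ∧ Q ω))
        (PE μ (fun ω => X ω = t.1 ∧ Q ω) * PE μ (fun ω => Y ω = t.2 ∧ Q ω) / PE μ Q) := by
  classical
  rw [I_eq_gk (cnd_isProb hμ hQ), mul_sum]
  refine sum_congr rfl fun t _ => ?_
  rw [← gk_mul hQ.le, Pr_cE, Pr_cE, Pr_cE]
  congr 1
  · rw [mul_div_cancel₀ _ hQ.ne']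
    refine PE_congr fun ω => ?_
    constructor
    · rintro ⟨h1, h2⟩
      have h3 := Prod.ext_iff.mp h1
      exact ⟨h3.1, h3.2, h2⟩
    · rintro ⟨h1, h2, h3⟩
      exact ⟨Prod.ext h1 h2, h3⟩
  · field_simp

/-- positivity of the product term -/
lemma gk_term_pos (hμ : IsProb μ) (Q : Ω → Prop) (X : Ω → α) (Y : Ω → β) (t : α × β)
    (h : 0 < PE μ (fun ω => X ω = t.1 ∧ Y ω = t.2 ∧ Q ω)) :
    0 < PE μ (fun ω => X ω = t.1 ∧ Q ω) * PE μ (fun ω => Y ω = t.2 ∧ Q ω) / PE μ Q := by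
  have h1 : PE μ (fun ω => X ω = t.1 ∧ Y ω = t.2 ∧ Q ω) ≤ PE μ (fun ω => X ω = t.1 ∧ Q ω) :=
    PE_mono hμ fun ω h => ⟨h.1, h.2.2⟩
  have h2 : PE μ (fun ω => X ω = t.1 ∧ Y ω = t.2 ∧ Q ω) ≤ PE μ (fun ω => Y ω = t.2 ∧ Q ω) :=
    PE_mono hμ fun ω h => ⟨h.2.1, h.2.2⟩
  have h3 : PE μ (fun ω => X ω = t.1 ∧ Y ω = t.2 ∧ Q ω) ≤ PE μ Q :=
    PE_mono hμ fun ω h => h.2.2
  exact div_pos (mul_pos (h.trans_le h1) (h.trans_le h2)) (h.trans_le h3)

/-- **restriction**: any set of pairs of values carries at most the whole information -/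
theorem gk_restrict [DecidableEq α] [DecidableEq β] (hμ : IsProb μ) {Q : Ω → Prop}
    (hQ : 0 < PE μ Q) (X : Ω → α) (Y : Ω → β) (T : Finset (α × β))
    (hT : T ⊆ univ.image X ×ˢ univ.image Y) :
    ∑ t ∈ T, gk (PE μ (fun ω => X ω = t.1 ∧ Y ω = t.2 ∧ Q ω))
        (PE μ (fun ω => X ω = t.1 ∧ Q ω) * PE μ (fun ω => Y ω = t.2 ∧ Q ω) / PE μ Q) ≤
      PE μ Q * I (cE μ Q) X Y (fun _ => ()) := by
  rw [PE_mul_I_eq_gk hμ hQ X Y]
  refine sum_le_sum_of_subset_of_nonneg hT fun t _ _ => ?_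
  exact gk_nonneg (PE_nonneg hμ _) (div_nonneg (mul_nonneg (PE_nonneg hμ _) (PE_nonneg hμ _))
    (PE_nonneg hμ _)) (gk_term_pos hμ Q X Y t)

end info

end Vale.Agent.P065.H819
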