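import Vale.Agent.P065.H819.RowBox

/-!
# P065, package ROWS, part 2: the box inequality in normalised coordinates, final form
-/

set_option autoImplicit false
set_option linter.unusedSectionVars false

open Finset Real

noncomputable section

namespace Vale.Agent.P065.H819

open Vale.Agent.P065.Ent

variable {Ω : Type*} [Fintype Ω] {μ : Ω → ℝ} {T f c : Ω → ℝ} {G : Ω → Prop}
  {E : Ω → Option Bool}

lemma px_nonneg (hμ : IsProb μ) (dX a2 : ℕ) (d jl x : ℤ) : 0 ≤ px μ T c G dX a2 d jl x :=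
  div_nonneg (PE_nonneg hμ _) (PE_nonneg hμ _)

lemma xhh_mem (dX : ℕ) (d : ℤ) (ω : Ω) (h : ⌊T ω⌋ = d) :
    0 ≤ xhh dX d (dg dX T ω) ∧ xhh dX d (dg dX T ω) < 1 := by
  have h1 := Int.floor_eq_iff.mp h
  have h2 := (dg_Ico dX T ω d).mpr h1.1
  have h3 := (dg_bounds dX T ω).1
  unfold xhh
  constructor
  · linarith
  · linarith [h1.2]

lemma sum_px_le_one (hμ : IsProb μ) (dX a2 : ℕ) (d jl : ℤ) (hL : 0 < PE μ (LL G T c a2 d jl))
    (A : Finset ℤ) : ∑ x ∈ A, px μ T c G dX a2 d jl x ≤ 1 := by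
  unfold px
  rw [← sum_div, div_le_one hL]
  exact sum_PE_le hμ A (fun x ω => dg dX T ω = x ∧ LL G T c a2 d jl ω) _ (fun x _ ω h => h.2)
    fun x _ y _ hne ω h h' => hne (h.1.symm.trans h'.1)

/-- the divergences of the box -/
def DD (μ : Ω → ℝ) (T f c : Ω → ℝ) (G : Ω → Prop) (E : Ω → Option Bool) (dX P PC PB a a2 : ℕ)
    (s₀ s₁ : ℕ) (d j jl : ℤ) : ℝ :=
  DL μ (dg dX T) E (dg PC c) (xhh dX d) (ehh P s₀ s₁) (fun n => (n : ℝ) / 2 ^ PC)
    (LL G T c a2 d jl) (RR G T f c a d j) (j * 2 ^ a) ((j + 1) * 2 ^ a - 1 / 2 ^ PB)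
    (px μ T c G dX a2 d jl) (some false) +
  DL μ (dg dX T) E (dg PC c) (xhh dX d) (ehh P s₀ s₁) (fun n => (n : ℝ) / 2 ^ PC)
    (LL G T c a2 d jl) (RR G T f c a d j) (j * 2 ^ a) ((j + 1) * 2 ^ a - 1 / 2 ^ PB)
    (px μ T c G dX a2 d jl) (some true) +
  DP μ (dg dX T) E (dg PB (yy T f c)) (RR G T f c a d j) (some false) +
  DP μ (dg dX T) E (dg PB (yy T f c)) (RR G T f c a d j) (some true)

/-- the constant in front of the divergences -/
def cB (κ ps : ℝ) : ℝ := 2 / ((κ ^ 2 / 18) ^ 2 * ps)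

/-- the error constant -/
def eB (κ : ℝ) (a lam P0 g : ℕ) : ℝ := 96 / 2 ^ lam + κ * 2 ^ (a + P0 + g + 7)

lemma const_le {κ : ℝ} (hκ : 0 < κ) {a lam P0 g : ℕ} (hla : lam + 4 ≤ a) (hlam : 2 ≤ lam) :
    24 / ((2 ^ (lam - 2) : ℕ) : ℝ) + (24 * ((((2 ^ (a - lam) - 10 : ℕ) : ℕ) : ℝ) + 3) *
      ((2 ^ (lam - 2) : ℕ) : ℝ) ^ 2 + ((((2 ^ (a - lam) - 10 : ℕ) : ℕ) : ℝ) + 1) *
      ((2 ^ (lam - 2) : ℕ) : ℝ) * (2 ^ lam / (1 / 2 ^ (P0 + g)))) / ((2 ^ (lam - 2) : ℕ) : ℝ) *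
      (8 * κ) + 4 * κ ≤ eB κ a lam P0 g := by
  have hpa : (2 : ℝ) ^ a = 2 ^ (a - lam) * 2 ^ lam := by
    rw [← pow_add]; congr 1; omega
  have hbig : (16 : ℕ) ≤ 2 ^ (a - lam) := by
    have : (2 : ℕ) ^ 4 ≤ 2 ^ (a - lam) := Nat.pow_le_pow_right (by norm_num) (by omega)
    linarith
  have hm : (((2 ^ (a - lam) - 10 : ℕ) : ℕ) : ℝ) = 2 ^ (a - lam) - 10 := by
    rw [Nat.cast_sub (by omega)]; push_cast; ring
  have hN : (((2 ^ (lam - 2) : ℕ) : ℕ) : ℝ) * 4 = 2 ^ lam := by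
    push_cast
    rw [show (4 : ℝ) = 2 ^ 2 by norm_num, ← pow_add]; congr 1; omega
  have hlam0 : (0 : ℝ) < 2 ^ lam := by positivity
  have hN0 : (0 : ℝ) < ((2 ^ (lam - 2) : ℕ) : ℝ) := by positivity
  rw [hm]
  generalize ((2 ^ (lam - 2) : ℕ) : ℝ) = N at hN hN0 ⊢
  have hbig' : (16 : ℝ) ≤ 2 ^ (a - lam) := by exact_mod_cast hbig
  have c3 : (2 : ℝ) ^ (a + P0 + g + 7) = 2 ^ a * 2 ^ (P0 + g) * 128 := by
    rw [show (128 : ℝ) = 2 ^ 7 by norm_num, ← pow_add, ← pow_add]; congr 1; ring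
  have h1a : (1 : ℝ) ≤ 2 ^ a := one_le_pow₀ (by norm_num)
  have h1g : (1 : ℝ) ≤ 2 ^ (P0 + g) := one_le_pow₀ (by norm_num)
  unfold eB
  rw [c3]
  generalize (2 : ℝ) ^ (P0 + g) = q at h1g ⊢
  generalize (2 : ℝ) ^ (a - lam) = r at hpa hbig' ⊢
  generalize (2 : ℝ) ^ lam = l at hpa hN hlam0 ⊢
  generalize (2 : ℝ) ^ a = A at hpa h1a ⊢
  have hNl : N = l / 4 := by linarith
  have hq0 : 0 < q := by linarith
  have c1 : 24 / N = 96 / l := by
    rw [hNl]; field_simp; norm_num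
  have e : (24 * ((r - 10) + 3) * N ^ 2 + ((r - 10) + 1) * N * (l / (1 / q))) / N =
      24 * ((r - 10) + 3) * N + ((r - 10) + 1) * (l * q) := by
    field_simp
  have h2 : 24 * ((r - 10) + 3) * N ≤ 6 * (r * l) := by rw [hNl]; nlinarith
  have h3 : ((r - 10) + 1) * (l * q) ≤ (r * l) * q := by
    have : 0 < l * q := by positivity
    nlinarith
  rw [c1, e]
  rw [← hpa] at h2 h3
  have h4 : A ≤ A * q := by nlinarith
  have h5 : 24 * ((r - 10) + 3) * N + ((r - 10) + 1) * (l * q) ≤ 8 * (A * q) := by linarith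
  have h6 := mul_le_mul_of_nonneg_right h5 (show 0 ≤ 8 * κ by positivity)
  have h7 : 1 ≤ A * q := by nlinarith
  have h8 : κ * 1 ≤ κ * (A * q) := mul_le_mul_of_nonneg_left h7 hκ.le
  nlinarith

open Classical in
/-- **ROWBOX**: one half of one box -/
theorem rowbox (hμ : IsProb μ) (hf0 : ∀ ω, 0 ≤ f ω) (hf1 : ∀ ω, f ω < 1)
    (dX P PC PB a a2 lam P0 g : ℕ) (s₀ s₁ : ℕ)
    (hE : ∀ ω b, E ω = some b →
      (blk s₀ s₁ b : ℝ) / 2 ^ P ≤ f ω ∧ f ω < (blk s₀ s₁ b : ℝ) / 2 ^ P + 1 / 2 ^ P)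
    (hs0 : s₀ ≤ 2 ^ P) (hs1 : s₁ ≤ 2 ^ P)
    (hs : (1 : ℝ) / 2 ^ P0 ≤ |(s₀ : ℝ) / 2 ^ P - s₁ / 2 ^ P|)
    (d j jl : ℤ) (hj0 : jl * 2 ^ a2 + 1 ≤ j * 2 ^ a) (hj1 : (j + 1) * 2 ^ a ≤ (jl + 1) * 2 ^ a2)
    (hF : ∀ b, 0 < PE μ (fun ω => E ω = some b ∧ RR G T f c a d j ω))
    {ps : ℝ} (hps : 0 < ps) (hth : ∀ b, ps ≤ ∑ x ∈ half dX T d b, px μ T c G dX a2 d jl x)
    {κ : ℝ} (hκ : 0 < κ) (hκ1 : κ < 1)
    (hlam : 2 ≤ lam) (hla : lam + 4 ≤ a) (hdX : a + 2 * P0 + 2 * g + 10 ≤ dX)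
    (hP : a + 2 * P0 + 2 * g + 10 ≤ P) (hPC : a + 2 * P0 + 2 * g + 10 ≤ PC)
    (hPB : a + 2 * P0 + 2 * g + 10 ≤ PB) (b : Bool) :
    ∑ x ∈ (half dX T d b).filter (nn dX g d), ∑ i ∈ In a lam j, cs μ T f c G dX a lam d j x i ≤
      PE μ (RR G T f c a d j) * (eB κ a lam P0 g +
        cB κ ps * DD μ T f c G E dX P PC PB a a2 s₀ s₁ d j jl) := by
  have hRpos : 0 < PE μ (RR G T f c a d j) :=
    (hF false).trans_le (PE_mono hμ fun ω h => h.2)
  have D := fbox hμ hf0 hf1 dX P PC PB a a2 s₀ s₁ hE d j jl hj0 hj1 hRpos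
  have hLpos : 0 < PE μ (LL G T c a2 d jl) := hRpos.trans_le (PE_mono hμ D.RL)
  -- numbers
  have hPpos : (0 : ℝ) < 2 ^ P := by positivity
  have he0 : ∀ e, (e = some false ∨ e = some true) → 0 ≤ ehh P s₀ s₁ e ∧ ehh P s₀ s₁ e ≤ 1 := by
    have hs0' : (s₀ : ℝ) ≤ 2 ^ P := by exact_mod_cast hs0
    have hs1' : (s₁ : ℝ) ≤ 2 ^ P := by exact_mod_cast hs1
    rintro e (rfl | rfl)
    · exact ⟨by unfold ehh; positivity, (div_le_one hPpos).mpr hs0'⟩
    · exact ⟨by unfold ehh; positivity, (div_le_one hPpos).mpr hs1'⟩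
  have habs1 : ∀ (e x y : ℝ), 0 ≤ e → e ≤ 1 → 0 ≤ x → x ≤ 1 → 0 ≤ y → y ≤ 1 →
      |e * (x - y)| ≤ 1 := by
    intro e x y h1 h2 h3 h4 h5 h6
    rw [abs_mul, abs_of_nonneg h1]
    have : |x - y| ≤ 1 := abs_le.mpr ⟨by linarith, by linarith⟩
    calc e * |x - y| ≤ 1 * 1 := mul_le_mul h2 this (abs_nonneg _) (by norm_num)
      _ = 1 := by ring
  have hhalf : ∀ b, ∀ x ∈ half dX T d b, 0 ≤ xhh dX d x ∧ xhh dX d x < 1 := by
    intro b x hx
    have h := (mem_filter.mp hx).2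
    cases b
    · simp only [Bool.false_eq_true, if_false] at h
      exact ⟨h.1, by linarith [h.2]⟩
    · simp only [if_true] at h
      exact ⟨by linarith [h.1], h.2⟩
  have hhimg : ∀ b, ∀ x ∈ half dX T d b, ∃ ω, dg dX T ω = x := by
    intro b x hx
    obtain ⟨ω, -, h⟩ := Finset.mem_image.mp (mem_filter.mp hx).1
    exact ⟨ω, h⟩
  have hp0 := fun x => px_nonneg (T := T) (c := c) (G := G) hμ dX a2 d jl x
  have hp : ∀ x, 0 < PE μ (fun ω => dg dX T ω = x ∧ LL G T c a2 d jl ω) →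
      0 < px μ T c G dX a2 d jl x := fun x hx => div_pos hx hLpos
  have hbb : (!b) = b → False := by cases b <;> simp
  -- the filter
  have hsub : (half dX T d b).filter (nn dX g d) ⊆ (half dX T d b).filter
      (fun x => κ * ∑ x ∈ half dX T d (!b), px μ T c G dX a2 d jl x <
        ∑ x' ∈ (half dX T d (!b)).filter (fun x' => (1 : ℝ) / 2 ^ (P0 + g) ≤
          |(ehh P s₀ s₁ (some false) - ehh P s₀ s₁ (some true)) * (xhh dX d x' - xhh dX d x)| ∧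
          |(ehh P s₀ s₁ (some false) - ehh P s₀ s₁ (some true)) * (xhh dX d x' - xhh dX d x)| ≤
          1), px μ T c G dX a2 d jl x') := by
    intro x hx
    obtain ⟨hx1, hx2⟩ := mem_filter.mp hx
    refine mem_filter.mpr ⟨hx1, ?_⟩
    have hall : (half dX T d (!b)).filter (fun x' => (1 : ℝ) / 2 ^ (P0 + g) ≤
          |(ehh P s₀ s₁ (some false) - ehh P s₀ s₁ (some true)) * (xhh dX d x' - xhh dX d x)| ∧
          |(ehh P s₀ s₁ (some false) - ehh P s₀ s₁ (some true)) * (xhh dX d x' - xhh dX d x)| ≤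
          1) = half dX T d (!b) := by
      refine filter_true_of_mem fun x' hx' => ?_
      have r1 := hhalf b x hx1
      have r2 := hhalf (!b) x' hx'
      rw [abs_mul]
      have hdist : (1 : ℝ) / 2 ^ g ≤ |xhh dX d x' - xhh dX d x| := by
        unfold nn at hx2
        have g1 := (mem_filter.mp hx1).2
        have g2 := (mem_filter.mp hx').2
        cases b
        · simp only [Bool.false_eq_true, if_false] at g1
          simp only [Bool.not_false, if_true] at g2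
          rw [abs_of_nonpos (by linarith)] at hx2
          rw [abs_of_nonneg (by linarith)]
          linarith
        · simp only [if_true] at g1
          simp only [Bool.not_true, Bool.false_eq_true, if_false] at g2
          rw [abs_of_nonneg (by linarith)] at hx2
          rw [abs_of_nonpos (by linarith)]
          linarith
      constructor
      · have e1 : (1 : ℝ) / 2 ^ (P0 + g) = 1 / 2 ^ P0 * (1 / 2 ^ g) := by
          rw [pow_add]; field_simp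
        rw [e1]
        exact mul_le_mul hs hdist (by positivity) (abs_nonneg _)
      · have c1 := he0 (some false) (Or.inl rfl)
        have c2 := he0 (some true) (Or.inr rfl)
        have k1 : |ehh P s₀ s₁ (some false) - ehh P s₀ s₁ (some true)| ≤ 1 :=
          abs_le.mpr ⟨by linarith, by linarith⟩
        have k2 : |xhh dX d x' - xhh dX d x| ≤ 1 := abs_le.mpr ⟨by linarith, by linarith⟩
        calc _ ≤ (1 : ℝ) * 1 := mul_le_mul k1 k2 (abs_nonneg _) (by norm_num)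
          _ = 1 := by ring
    rw [hall]
    have h1 := hth (!b)
    nlinarith
  have hlam0 : (0 : ℝ) < 2 ^ lam := by positivity
  have h4lam : (4 : ℝ) ≤ 2 ^ lam := by
    have : (2 : ℝ) ^ 2 ≤ 2 ^ lam := pow_le_pow_right₀ (by norm_num) hlam
    linarith
  -- small numbers
  set s : ℝ := 1 / 2 ^ PB + 1 / 2 ^ PC + 1 / 2 ^ P + 1 / 2 ^ dX with hsd
  have hsmall : ∀ n, a + 2 * P0 + 2 * g + 10 ≤ n →
      (1 : ℝ) / 2 ^ n ≤ 1 / 2 ^ (a + 2 * P0 + 2 * g + 10) := fun n hn =>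
    div_le_div_of_nonneg_left zero_le_one (by positivity)
      (pow_le_pow_right₀ (by norm_num) hn)
  have hs4 : s ≤ 4 * (1 / 2 ^ (a + 2 * P0 + 2 * g + 10)) := by
    have := hsmall PB hPB
    have := hsmall PC hPC
    have := hsmall P hP
    have := hsmall dX hdX
    linarith
  have hpowa : (2 : ℝ) ^ lam ≤ 2 ^ a := pow_le_pow_right₀ (by norm_num) (by omega)
  have hpw : (2 : ℝ) ^ (a + 2 * P0 + 2 * g + 10) = 2 ^ a * (2 ^ (P0 + g)) ^ 2 * 1024 := by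
    rw [← pow_mul, show (1024 : ℝ) = 2 ^ 10 by norm_num, ← pow_add, ← pow_add]
    congr 1; ring
  have hs1' : s ≤ 1 / 256 := by
    refine hs4.trans ?_
    have h1 : (1 : ℝ) ≤ 2 ^ a := one_le_pow₀ (by norm_num)
    have h2 : (1 : ℝ) ≤ (2 ^ (P0 + g)) ^ 2 := one_le_pow₀ (one_le_pow₀ (by norm_num))
    rw [hpw]
    have h3 : (1024 : ℝ) ≤ 2 ^ a * (2 ^ (P0 + g)) ^ 2 * 1024 := by nlinarith
    have h4 : (1 : ℝ) / (2 ^ a * (2 ^ (P0 + g)) ^ 2 * 1024) ≤ 1 / 1024 :=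
      div_le_div_of_nonneg_left zero_le_one (by norm_num) h3
    linarith
  have hPB1 : (1 : ℝ) / 2 ^ PB ≤ 1 / 256 := by
    have h1 : (1 : ℝ) / 2 ^ PB ≤ s := by
      rw [hsd]
      have : (0 : ℝ) ≤ 1 / 2 ^ PC := by positivity
      have : (0 : ℝ) ≤ 1 / 2 ^ P := by positivity
      have : (0 : ℝ) ≤ 1 / 2 ^ dX := by positivity
      linarith
    linarith
  have hs0' : 0 ≤ s := by positivity
  have hsl : 16 * (2 : ℝ) ^ lam * s ≤ (1 / 2 ^ (P0 + g)) ^ 2 := by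
    have h1 : 16 * (2 : ℝ) ^ lam * s ≤ 16 * 2 ^ a * (4 * (1 / 2 ^ (a + 2 * P0 + 2 * g + 10))) :=
      mul_le_mul (by linarith) hs4 hs0' (by positivity)
    refine h1.trans ?_
    rw [hpw]
    have ha0 : (0 : ℝ) < 2 ^ a := by positivity
    have hq0 : (0 : ℝ) < 2 ^ (P0 + g) := by positivity
    rw [div_pow, one_pow]
    have e : 16 * (2 : ℝ) ^ a * (4 * (1 / (2 ^ a * (2 ^ (P0 + g)) ^ 2 * 1024))) =
        (1 / 16) * (1 / (2 ^ (P0 + g)) ^ 2) := by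
      field_simp; norm_num
    rw [e]
    have : (0 : ℝ) ≤ 1 / (2 ^ (P0 + g)) ^ 2 := by positivity
    linarith
  have hpa : (2 : ℝ) ^ a = 2 ^ (a - lam) * 2 ^ lam := by
    rw [← pow_add]; congr 1; omega
  have hbig : (16 : ℕ) ≤ 2 ^ (a - lam) := by
    have : (2 : ℕ) ^ 4 ≤ 2 ^ (a - lam) := Nat.pow_le_pow_right (by norm_num) (by omega)
    linarith
  have hm : (((2 ^ (a - lam) - 10 : ℕ) : ℕ) : ℝ) = 2 ^ (a - lam) - 10 := by
    rw [Nat.cast_sub (by omega)]; push_cast; ring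
  have hN : (((2 ^ (lam - 2) : ℕ) : ℕ) : ℝ) * 4 = 2 ^ lam := by
    push_cast
    rw [show (4 : ℝ) = 2 ^ 2 by norm_num, ← pow_add]; congr 1; omega
  have key := D.box hp0 hp (hF false) (hF true) (half dX T d b) (half dX T d (!b))
    (hhimg b) (hhimg (!b)) hps (hth b) (hth (!b))
    (sum_px_le_one hμ dX a2 d jl hLpos _) hκ hκ1.le (w := 1)
    (by
      intro e he x hx ω hω
      have r1 : 0 ≤ xhh dX d x ∧ xhh dX d x < 1 := by
        rcases hx with h | h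
        · exact hhalf b x h
        · exact hhalf (!b) x h
      have r2 := xhh_mem (T := T) dX d ω hω.2.1
      exact habs1 _ _ _ (he0 e he).1 (he0 e he).2 r2.1 r2.2.le r1.1 r1.2.le)
    (by
      intro e he x hx x' hx'
      have r1 := hhalf b x hx
      have r2 := hhalf (!b) x' hx'
      exact habs1 _ _ _ (he0 e he).1 (he0 e he).2 r2.1 r2.2.le r1.1 r1.2.le)
    (h0 := 1 / 2 ^ (P0 + g)) (h1 := 1) (by positivity) (2 ^ lam) (j * 2 ^ a + 4 * 2 ^ lam)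
    (2 ^ (a - lam) - 10) (2 ^ (lam - 2)) (by positivity) (by positivity) (by linarith) hsl
    (by linarith) (by linarith) (by
      rw [hm]
      have e1 : (j : ℝ) * 2 ^ a + 4 * 2 ^ lam + ((2 ^ (a - lam) - 10) + 2) * 2 ^ lam + 2 ^ lam =
          (j + 1) * 2 ^ a - 3 * 2 ^ lam := by rw [hpa]; ring
      have e2 : (j : ℝ) * 2 ^ a + 4 * 2 ^ lam + ((2 ^ (a - lam) - 10) + 2) * 2 ^ lam + 2 ^ lam +
          5 * s + 2 * 1 = ((j + 1) * 2 ^ a - 3 * 2 ^ lam) + 5 * s + 2 * 1 := by rw [e1]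
      rw [e2]
      linarith) (by norm_num)
  -- compare the two sides
  have hlhs : ∑ x ∈ (half dX T d b).filter (nn dX g d), ∑ i ∈ In a lam j,
      cs μ T f c G dX a lam d j x i ≤ _ :=
    (sum_le_sum fun x _ => sum_cs_le μ T f c G dX PB a lam hla d j x).trans
      (sum_le_sum_of_subset_of_nonneg hsub fun x _ _ => sum_nonneg fun _ _ => abs_nonneg _)
  refine hlhs.trans (key.trans ?_)
  refine mul_le_mul_of_nonneg_left ?_ hRpos.le
  exact add_le_add (const_le hκ hla hlam) le_rfl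

end Vale.Agent.P065.H819
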