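import Vale.Agent.P065.H819.Loc2
import Vale.Agent.P065.H819.RowBox2

/-!
# P065, package ROWS, version 2, part 1: the normalised box in general variables

`L` is any event containing the box `R`, `X` any variable refining the time digits, `C` any variable
giving the height of the line up to `2 ^ (- PC)`.
-/

set_option autoImplicit false
set_option linter.unusedSectionVars false

open Finset Real

noncomputable section

namespace Vale.Agent.P065.H819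

open Vale.Agent.P065.Ent

variable {Ω : Type*} [Fintype Ω] {ξ η : Type*}

/-- the normalised box, general variables -/
structure NBox (μ : Ω → ℝ) (T f c : Ω → ℝ) (G L : Ω → Prop) (E : Ω → Option Bool) (X : Ω → ξ)
    (xd : ξ → ℤ) (C : Ω → η) (ch : η → ℝ) (dX P PC a : ℕ) (s₀ s₁ : ℕ) (d j : ℤ) : Prop where
  prob : IsProb μ
  f0 : ∀ ω, L ω → 0 ≤ f ω
  f1 : ∀ ω, L ω → f ω < 1
  hE : ∀ ω b, L ω → E ω = some b →
    (blk s₀ s₁ b : ℝ) / 2 ^ P ≤ f ω ∧ f ω < (blk s₀ s₁ b : ℝ) / 2 ^ P + 1 / 2 ^ P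
  hs0 : s₀ ≤ 2 ^ P
  hs1 : s₁ ≤ 2 ^ P
  RL : ∀ ω, RR G T f c a d j ω → L ω
  LG : ∀ ω, L ω → G ω ∧ ⌊T ω⌋ = d
  hX : ∀ ω, L ω → xd (X ω) = dg dX T ω
  hC : ∀ ω, L ω → ch (C ω) ≤ c ω ∧ c ω < ch (C ω) + 1 / 2 ^ PC
  hF : ∀ b, 0 < PE μ (fun ω => E ω = some b ∧ RR G T f c a d j ω)

variable {μ : Ω → ℝ} {T f c : Ω → ℝ} {G L : Ω → Prop} {E : Ω → Option Bool} {X : Ω → ξ}
  {xd : ξ → ℤ} {C : Ω → η} {ch : η → ℝ} {dX P PC a : ℕ} {s₀ s₁ : ℕ} {d j : ℤ}

/-- conditional probability of the time variable in the line cell -/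
def pX (μ : Ω → ℝ) (X : Ω → ξ) (L : Ω → Prop) (x : ξ) : ℝ :=
  PE μ (fun ω => X ω = x ∧ L ω) / PE μ L

open Classical in
/-- the two halves of the time cell -/
def hfX (X : Ω → ξ) (xd : ξ → ℤ) (dX : ℕ) (d : ℤ) (b : Bool) : Finset ξ :=
  (univ.image X).filter fun x => if b then (1 : ℝ) / 2 ≤ xhh dX d (xd x) ∧ xhh dX d (xd x) < 1
    else 0 ≤ xhh dX d (xd x) ∧ xhh dX d (xd x) < 1 / 2

namespace NBox

lemma posR (D : NBox μ T f c G L E X xd C ch dX P PC a s₀ s₁ d j) :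
    0 < PE μ (RR G T f c a d j) :=
  (D.hF false).trans_le (PE_mono D.prob fun _ h => h.2)

lemma posL (D : NBox μ T f c G L E X xd C ch dX P PC a s₀ s₁ d j) : 0 < PE μ L :=
  D.posR.trans_le (PE_mono D.prob D.RL)

lemma xmem (D : NBox μ T f c G L E X xd C ch dX P PC a s₀ s₁ d j) (ω : Ω) (h : L ω) :
    0 ≤ xhh dX d (xd (X ω)) ∧ xhh dX d (xd (X ω)) < 1 := by
  rw [D.hX ω h]
  exact xhh_mem dX d ω (D.LG ω h).2

/-- the geometric data of a normalised box -/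
theorem fbox (D : NBox μ T f c G L E X xd C ch dX P PC a s₀ s₁ d j) (PB : ℕ) :
    FBox μ X E C (dg PB (yy T f c)) (fun x => xhh dX d (xd x)) (ehh P s₀ s₁)
      ch (fun n => (n : ℝ) / 2 ^ PB) L (RR G T f c a d j) (j * 2 ^ a)
      ((j + 1) * 2 ^ a - 1 / 2 ^ PB)
      (1 / 2 ^ PB + 1 / 2 ^ PC + 1 / 2 ^ P + 1 / 2 ^ dX) (some false) (some true) := by
  have ha : (0 : ℝ) < 2 ^ a := by positivity
  refine ⟨D.prob, by positivity, ?_, D.RL, ?_, D.posR⟩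
  · intro ω hL hE'
    obtain ⟨-, hT⟩ := D.LG ω hL
    obtain ⟨b, hb⟩ : ∃ b, E ω = some b := by
      rcases hE' with h | h
      · exact ⟨_, h⟩
      · exact ⟨_, h⟩
    rw [hb, ehh_some]
    obtain ⟨f1, f2⟩ := D.hE ω b hL hb
    have hf1 := D.f1 ω hL
    have t1 := dg_bounds dX T ω
    have c1 := D.hC ω hL
    have y1 := dg_bounds PB (yy T f c) ω
    simp only [D.hX ω hL]
    set fb : ℝ := (blk s₀ s₁ b : ℝ) / 2 ^ P with hfb
    have hfb0 : 0 ≤ fb := by positivity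
    have hfb1 : fb ≤ 1 := f1.trans hf1.le
    have hu : Int.fract (T ω) = T ω - d := by
      rw [← hT]; rfl
    have hu0 := Int.fract_nonneg (T ω)
    have hu1 := Int.fract_lt_one (T ω)
    set u := Int.fract (T ω) with hud
    have hx1 : xhh dX d (dg dX T ω) ≤ u := by
      unfold xhh; linarith
    have hx2 : u < xhh dX d (dg dX T ω) + 1 / 2 ^ dX := by
      unfold xhh; linarith
    set x := xhh dX d (dg dX T ω) with hx
    have hyy : yy T f c ω = c ω + f ω * u := rfl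
    have hP : (0 : ℝ) < 1 / 2 ^ P := by positivity
    have hX : (0 : ℝ) < 1 / 2 ^ dX := by positivity
    -- the product
    have e1 : f ω * u ≤ fb * x + 1 / 2 ^ P + 1 / 2 ^ dX := by
      have g1 : f ω * u ≤ fb * u + 1 / 2 ^ P := by nlinarith
      have g2 : fb * u ≤ fb * x + 1 / 2 ^ dX := by nlinarith
      linarith
    have e2 : fb * x ≤ f ω * u := by
      have g1 : fb * u ≤ f ω * u := by nlinarith
      have g2 : fb * x ≤ fb * u := mul_le_mul_of_nonneg_left hx1 hfb0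
      linarith
    rw [abs_le]
    constructor
    · linarith [c1.1, c1.2, y1.1, y1.2]
    · linarith [c1.1, c1.2, y1.1, y1.2]
  · -- `L ∧ range → R`
    rintro ω hL - hb
    obtain ⟨hG, hT⟩ := D.LG ω hL
    refine ⟨hG, hT, ?_⟩
    have y1 := dg_bounds PB (yy T f c) ω
    rw [Int.floor_eq_iff, le_div_iff₀ ha, div_lt_iff₀ ha]
    constructor
    · linarith [hb.1]
    · linarith [hb.2]

lemma pX_nonneg (hμ : IsProb μ) (x : ξ) : 0 ≤ pX μ X L x :=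
  div_nonneg (PE_nonneg hμ _) (PE_nonneg hμ _)

lemma pX_pos (D : NBox μ T f c G L E X xd C ch dX P PC a s₀ s₁ d j) (x : ξ)
    (h : 0 < PE μ (fun ω => X ω = x ∧ L ω)) : 0 < pX μ X L x := div_pos h D.posL

lemma sum_pX_le_one (D : NBox μ T f c G L E X xd C ch dX P PC a s₀ s₁ d j) (A : Finset ξ) :
    ∑ x ∈ A, pX μ X L x ≤ 1 := by
  unfold pX
  rw [← sum_div, div_le_one D.posL]
  exact sum_PE_le D.prob A (fun x ω => X ω = x ∧ L ω) _ (fun x _ ω h => h.2)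
    fun x _ y _ hne ω h h' => hne (h.1.symm.trans h'.1)

lemma one_le_sum_pX [DecidableEq ξ] (D : NBox μ T f c G L E X xd C ch dX P PC a s₀ s₁ d j) :
    1 ≤ ∑ x ∈ univ.image X, pX μ X L x := by
  unfold pX
  rw [← sum_div, le_div_iff₀ D.posL, one_mul]
  exact PE_le_sum D.prob _ (fun x ω => X ω = x ∧ L ω) _ fun ω h =>
    ⟨X ω, mem_image_of_mem _ (mem_univ ω), rfl, h⟩

lemma eh01 (D : NBox μ T f c G L E X xd C ch dX P PC a s₀ s₁ d j) :
    ∀ e, (e = some false ∨ e = some true) → 0 ≤ ehh P s₀ s₁ e ∧ ehh P s₀ s₁ e ≤ 1 := by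
  have hPpos : (0 : ℝ) < 2 ^ P := by positivity
  have hs0' : (s₀ : ℝ) ≤ 2 ^ P := by exact_mod_cast D.hs0
  have hs1' : (s₁ : ℝ) ≤ 2 ^ P := by exact_mod_cast D.hs1
  rintro e (rfl | rfl)
  · exact ⟨by unfold ehh; positivity, (div_le_one hPpos).mpr hs0'⟩
  · exact ⟨by unfold ehh; positivity, (div_le_one hPpos).mpr hs1'⟩

end NBox

lemma abs_mul_sub_le_one {e x y : ℝ} (h1 : 0 ≤ e) (h2 : e ≤ 1) (h3 : 0 ≤ x) (h4 : x ≤ 1)
    (h5 : 0 ≤ y) (h6 : y ≤ 1) : |e * (x - y)| ≤ 1 := by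
  rw [abs_mul, abs_of_nonneg h1]
  have : |x - y| ≤ 1 := abs_le.mpr ⟨by linarith, by linarith⟩
  calc e * |x - y| ≤ 1 * 1 := mul_le_mul h2 this (abs_nonneg _) (by norm_num)
    _ = 1 := by ring

lemma hfX_mem {b : Bool} {x : ξ} (hx : x ∈ hfX X xd dX d b) :
    0 ≤ xhh dX d (xd x) ∧ xhh dX d (xd x) < 1 := by
  classical
  have h := (mem_filter.mp hx).2
  cases b
  · simp only [Bool.false_eq_true, if_false] at h
    exact ⟨h.1, by linarith [h.2]⟩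
  · simp only [if_true] at h
    exact ⟨by linarith [h.1], h.2⟩

lemma hfX_img {b : Bool} {x : ξ} (hx : x ∈ hfX X xd dX d b) : ∃ ω, X ω = x := by
  classical
  obtain ⟨ω, -, h⟩ := Finset.mem_image.mp (mem_filter.mp hx).1
  exact ⟨ω, h⟩

/-- distance of the digits of the two halves -/
lemma hfX_dist {b : Bool} {x x' : ξ} {g : ℕ} (hx : x ∈ hfX X xd dX d b)
    (hx' : x' ∈ hfX X xd dX d (!b)) (hn : nn dX g d (xd x)) :
    (1 : ℝ) / 2 ^ g ≤ |xhh dX d (xd x') - xhh dX d (xd x)| := by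
  classical
  unfold nn at hn
  have g1 := (mem_filter.mp hx).2
  have g2 := (mem_filter.mp hx').2
  cases b
  · simp only [Bool.false_eq_true, if_false] at g1
    simp only [Bool.not_false, if_true] at g2
    rw [abs_of_nonpos (by linarith)] at hn
    rw [abs_of_nonneg (by linarith)]
    linarith
  · simp only [if_true] at g1
    simp only [Bool.not_true, Bool.false_eq_true, if_false] at g2
    rw [abs_of_nonneg (by linarith)] at hn
    rw [abs_of_nonpos (by linarith)]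
    linarith

/-- the set function of the cells -/
lemma Mx_cell (PB lam : ℕ) (R : Ω → Prop) (x : ξ) (i : ℤ) :
    Mx μ X (dg PB (yy T f c)) (fun n => (n : ℝ) / 2 ^ PB) R x
      (Set.Ico ((i : ℝ) * 2 ^ lam) ((i + 1) * 2 ^ lam)) =
    PE μ (fun ω => X ω = x ∧ ⌊yy T f c ω / 2 ^ lam⌋ = i ∧ R ω) := by
  unfold Mx
  refine PE_congr fun ω => ?_
  rw [floor_div_iff PB lam (yy T f c) ω i]

lemma cells_eq (lam : ℕ) (i : ℤ) :
    Set.Ico ((2 * (i : ℝ) + 1) * 2 ^ lam - 2 ^ lam) ((2 * i + 1) * 2 ^ lam) =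
      Set.Ico (((2 * i : ℤ) : ℝ) * 2 ^ lam) ((((2 * i : ℤ) : ℝ) + 1) * 2 ^ lam) ∧
    Set.Ico ((2 * (i : ℝ) + 1) * 2 ^ lam) ((2 * i + 1) * 2 ^ lam + 2 ^ lam) =
      Set.Ico (((2 * i + 1 : ℤ) : ℝ) * 2 ^ lam) ((((2 * i + 1 : ℤ) : ℝ) + 1) * 2 ^ lam) := by
  constructor
  · congr 1
    · push_cast; ring
    · push_cast; ring
  · congr 1
    · push_cast; ring
    · push_cast; ring

lemma PM_cell (PB lam : ℕ) (R : Ω → Prop) (y : ξ × ℤ) :
    PM μ X (dg PB (yy T f c)) (fun n => (n : ℝ) / 2 ^ PB) R (2 ^ lam) y =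
    PE μ (fun ω => X ω = y.1 ∧ ⌊yy T f c ω / 2 ^ lam⌋ = 2 * y.2 ∧ R ω) +
      PE μ (fun ω => X ω = y.1 ∧ ⌊yy T f c ω / 2 ^ lam⌋ = 2 * y.2 + 1 ∧ R ω) := by
  unfold PM
  rw [(cells_eq lam y.2).1, (cells_eq lam y.2).2, Mx_cell, Mx_cell]

lemma PD_cell (PB lam : ℕ) (R : Ω → Prop) (y : ξ × ℤ) :
    PD μ X (dg PB (yy T f c)) (fun n => (n : ℝ) / 2 ^ PB) R (2 ^ lam) y =
    |PE μ (fun ω => X ω = y.1 ∧ ⌊yy T f c ω / 2 ^ lam⌋ = 2 * y.2 ∧ R ω) -
      PE μ (fun ω => X ω = y.1 ∧ ⌊yy T f c ω / 2 ^ lam⌋ = 2 * y.2 + 1 ∧ R ω)| := by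
  unfold PD
  rw [(cells_eq lam y.2).1, (cells_eq lam y.2).2, Mx_cell, Mx_cell]

end Vale.Agent.P065.H819
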