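import Vale.Agent.P065.H819.Nb4
import Vale.Agent.P065.H60.LineFr

/-!
# P065, package ROWS on the frame, part 1: the box of a column and its line cell
-/

set_option autoImplicit false

open Finset Real

noncomputable section

namespace Vale.Agent.P065.H819

open Vale.Agent.P065.UB Vale.Agent.P065.Ent Vale.Agent.P065.H154

/-! ## Two grids -/

/-- a power of two is not divisible by three -/
lemma two_pow_third (n : ℕ) : ∃ N : ℤ, (2 : ℝ) ^ n / 3 = N + 1 / 3 ∨ (2 : ℝ) ^ n / 3 = N + 2 / 3 := by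
  induction n with
  | zero => exact ⟨0, Or.inl (by norm_num)⟩
  | succ n ih =>
    obtain ⟨N, h | h⟩ := ih
    · refine ⟨2 * N, Or.inr ?_⟩
      rw [pow_succ]; push_cast
      linarith
    · refine ⟨2 * N + 1, Or.inl ?_⟩
      rw [pow_succ]; push_cast
      linarith

/-- **two grids**: a short interval lies in a cell of the grid `ℤ` or of the grid `ℤ - 2 ^ n / 3` -/
lemma two_grids {A B : ℝ} (h : B < A + 1 / 3) (n : ℕ) :
    (∃ m : ℤ, (m : ℝ) ≤ A ∧ B ≤ m + 1) ∨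
      ∃ m : ℤ, (m : ℝ) ≤ A + 2 ^ n / 3 ∧ B + 2 ^ n / 3 ≤ m + 1 := by
  have h1 := Int.floor_le A
  have h2 := Int.lt_floor_add_one A
  rcases le_or_gt B (⌊A⌋ + 1) with h3 | h3
  · exact Or.inl ⟨⌊A⌋, h1, h3⟩
  · right
    obtain ⟨N, hN | hN⟩ := two_pow_third n
    · refine ⟨N + ⌊A⌋ + 1, ?_, ?_⟩
      · push_cast; linarith
      · push_cast; linarith
    · refine ⟨N + ⌊A⌋ + 1, ?_, ?_⟩
      · push_cast; linarith
      · push_cast; linarith

/-! ## Boxes -/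

section defs

variable {Ω : Type*} (F : Fr Ω) (ln : Ω → Pt) (p : Prm)

/-- shifted time -/
def xs (u : ℝ) (ω : Ω) : ℝ := F.P.x ω + u

/-- height of the flag in the column -/
def htF (c : p.Col) (ω : Ω) : ℝ := Prm.h c (F.P.x ω) (ln ω)

/-- slope of the flag in the column -/
def fF (c : p.Col) (ω : Ω) : ℝ := Prm.f c.1 (ln ω)

/-- the time variable with the frozen scale -/
def Xt (u : ℝ) (PB t : ℕ) (ω : Ω) : ℤ × ℕ := (F.D u t ω, min (F.T' ω) (t + PB))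

/-- the event: slope cell `s`, the flag is alive at the level `v` -/
def Gv (PB v : ℕ) (c : p.Col) (s : ℤ) (ω : Ω) : Prop :=
  Prm.S c.1 (ln ω) = s ∧ v + PB ≤ F.T' ω

/-- the box `r = (slope cell, time cell, row)` of the column `c` at the level `v`, rows of height
`2 ^ a`, only flags alive at `v` -/
def BF (u : ℝ) (PB a v : ℕ) (c : p.Col) (r : ℤ × ℤ × ℤ) (ω : Ω) : Prop :=
  RR (Gv F ln p PB v c r.1) (Tv (xs F u) v) (fF ln p c) (cv (xs F u) (htF F ln p c) (fF ln p c) v) a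
    r.2.1 r.2.2 ω

/-- the line cell -/
def LF (u θ : ℝ) (PB a2 v : ℕ) (c : p.Col) (s d jl : ℤ) (ω : Ω) : Prop :=
  (H60.Lc F ln p.k₀ (Prm.sy c.1) u θ v (Prm.sc c.1) (-a2) ω, min (F.T' ω) (v + PB)) =
    ((s, d, jl), v + PB)

/-- the line variable -/
def CF (u θ : ℝ) (PC v : ℕ) (c : p.Col) (ω : Ω) : ℤ :=
  H60.Lh F ln u θ v (v + Prm.sc c.1 + PC) ω

/-- the height of a value of the line variable -/
def chF (u θ : ℝ) (PC v : ℕ) (c : p.Col) (s d : ℤ) (n : ℤ) : ℝ :=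
  (n : ℝ) / 2 ^ PC - H60.dlt c u θ v s d

end defs

variable {Ω : Type*} {F : Fr Ω} {ln : Ω → Pt} {p : Prm}

lemma LF_iff {u θ : ℝ} {PB a2 v : ℕ} {c : p.Col} {s d jl : ℤ} {ω : Ω} :
    LF F ln p u θ PB a2 v c s d jl ω ↔ Prm.S c.1 (ln ω) = s ∧ F.D u v ω = d ∧
      H60.Lh F ln u θ v (v + Prm.sc c.1 + (-a2)) ω = jl ∧ v + PB ≤ F.T' ω := by
  unfold LF H60.Lc
  simp only [Prod.mk.injEq]
  constructor
  · rintro ⟨⟨h1, h2, h3⟩, h4⟩
    exact ⟨h1, h2, h3, by omega⟩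
  · rintro ⟨h1, h2, h3, h4⟩
    exact ⟨⟨h1, h2, h3⟩, by omega⟩

/-- the box in terms of the frame -/
lemma BF_iff {u : ℝ} {PB a v : ℕ} {c : p.Col} {r : ℤ × ℤ × ℤ} {ω : Ω} :
    BF F ln p u PB a v c r ω ↔ (Prm.S c.1 (ln ω) = r.1 ∧ v + PB ≤ F.T' ω) ∧ F.D u v ω = r.2.1 ∧
      Prm.N a v c (F.P.x ω) (ln ω) = r.2.2 := by
  unfold BF RR Gv
  have e : yy (Tv (xs F u) v) (fF ln p c) (cv (xs F u) (htF F ln p c) (fF ln p c) v) ω =
      2 ^ v * htF F ln p c ω := by unfold yy cv; ring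
  rw [e]
  rfl

lemma Tv_xs (u : ℝ) (v : ℕ) (ω : Ω) : ⌊Tv (xs F u) v ω⌋ = F.D u v ω := rfl

lemma D_add (u : ℝ) (v n : ℕ) (ω : Ω) : F.D u (v + n) ω = dg n (Tv (xs F u) v) ω := by
  unfold dg Tv Fr.D xs
  rw [pow_add]
  congr 1
  ring

/-- the height of the line at the left end of the cell -/
lemma cv_line (u θ : ℝ) (v : ℕ) (c : p.Col) (ω : Ω) :
    cv (xs F u) (htF F ln p c) (fF ln p c) v ω =
      2 ^ ((v : ℤ) + Prm.sc c.1) * (H60.yL F ln u v ω + θ) -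
        H60.dlt c u θ v (Prm.S c.1 (ln ω)) (F.D u v ω) := by
  rw [← H60.cl_eq c u θ v ω]
  exact H60.cv_eq c u v ω

variable [Fintype Ω] {μ : Ω → ℝ}

/-- **the box of a column is a normalised box** -/
theorem nbox (hμ : IsProb μ) {u θ : ℝ} {PB a a2 v dX PC : ℕ} {c : p.Col} {s d j jl : ℤ}
    (h0 : (jl : ℝ) * 2 ^ a2 + 1 ≤ j * 2 ^ a + H60.dlt c u θ v s d)
    (h1 : ((j : ℝ) + 1) * 2 ^ a + H60.dlt c u θ v s d ≤ (jl + 1) * 2 ^ a2)
    (hpos : ∀ b : Bool, 0 < PE μ (fun ω => lb ln p c ω = some b ∧ BF F ln p u PB a v c (s, d, j) ω)) :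
    NBox μ (Tv (xs F u) v) (fF ln p c) (cv (xs F u) (htF F ln p c) (fF ln p c) v)
      (Gv F ln p PB v c s) (LF F ln p u θ PB a2 v c s d jl) (lb ln p c) (Xt F u PB (v + dX))
      Prod.fst (CF F ln p u θ PC v c) (chF p u θ PC v c s d) dX p.PP PC a (Prm.b0 c.1)
      (Prm.b1 c.1) d j where
  prob := hμ
  f0 := fun ω _ => Prm.f_nonneg _ _
  f1 := fun ω _ => Prm.f_lt_one _ _
  hE := fun ω b _ h => lb_some h
  hs0 := (blk_le c).1
  hs1 := (blk_le c).2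
  RL := by
    rintro ω ⟨⟨hS, hT⟩, hD, hy⟩
    have hD' : F.D u v ω = d := hD
    rw [LF_iff]
    refine ⟨hS, hD', ?_, hT⟩
    have h2 := Int.floor_eq_iff.mp hy
    rw [le_div_iff₀ (by positivity), div_lt_iff₀ (by positivity)] at h2
    have hu0 := Int.fract_nonneg (Tv (xs F u) v ω)
    have hu1 := Int.fract_lt_one (Tv (xs F u) v ω)
    have e1 : yy (Tv (xs F u) v) (fF ln p c) (cv (xs F u) (htF F ln p c) (fF ln p c) v) ω =
      cv (xs F u) (htF F ln p c) (fF ln p c) v ω + fF ln p c ω * Int.fract (Tv (xs F u) v ω) := rfl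
    rw [e1, cv_line u θ v c ω, hS, hD'] at h2
    have f0 : 0 ≤ fF ln p c ω := Prm.f_nonneg _ _
    have f1 : fF ln p c ω < 1 := Prm.f_lt_one _ _
    have g0 : 0 ≤ fF ln p c ω * Int.fract (Tv (xs F u) v ω) := mul_nonneg f0 hu0
    have g1 : fF ln p c ω * Int.fract (Tv (xs F u) v ω) < 1 := by nlinarith
    set w := (2 : ℝ) ^ ((v : ℤ) + Prm.sc c.1) * (H60.yL F ln u v ω + θ) with hw
    have e2 : (2 : ℝ) ^ ((v : ℤ) + Prm.sc c.1 + (-(a2 : ℤ))) * (H60.yL F ln u v ω + θ) =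
        w / 2 ^ a2 := by
      rw [zpow_add₀ (by norm_num), zpow_neg, zpow_natCast, hw]
      field_simp
    unfold H60.Lh
    rw [e2, Int.floor_eq_iff, le_div_iff₀ (by positivity), div_lt_iff₀ (by positivity)]
    constructor
    · linarith
    · linarith
  LG := by
    intro ω h
    rw [LF_iff] at h
    exact ⟨⟨h.1, h.2.2.2⟩, h.2.1⟩
  hX := by
    intro ω _
    exact D_add u v dX ω
  hC := by
    intro ω h
    rw [LF_iff] at h
    have e0 := cv_line (F := F) (ln := ln) (p := p) u θ v c ω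
    rw [h.1, h.2.1] at e0
    rw [e0]
    set w := (2 : ℝ) ^ ((v : ℤ) + Prm.sc c.1) * (H60.yL F ln u v ω + θ) with hw
    have e2 : CF F ln p u θ PC v c ω = ⌊w * 2 ^ PC⌋ := by
      unfold CF H60.Lh
      congr 1
      rw [zpow_add₀ (by norm_num), zpow_natCast, hw]
      ring
    rw [e2]
    have g1 := Int.floor_le (w * 2 ^ PC)
    have g2 := Int.lt_floor_add_one (w * 2 ^ PC)
    have hP : (0 : ℝ) < 2 ^ PC := by positivity
    unfold chF
    constructor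
    · have : (⌊w * 2 ^ PC⌋ : ℝ) / 2 ^ PC ≤ w := by rwa [div_le_iff₀ hP]
      linarith
    · have : w < (⌊w * 2 ^ PC⌋ : ℝ) / 2 ^ PC + 1 / 2 ^ PC := by
        rw [← add_div, lt_div_iff₀ hP]
        exact g2
      linarith
  hF := hpos

/-- one of the two grids contains the strip of the box -/
lemma exists_grid (u : ℝ) (a v : ℕ) (c : p.Col) (s d j : ℤ) :
    ∃ (β : Bool) (jl : ℤ),
      (jl : ℝ) * 2 ^ (a + 3) + 1 ≤ j * 2 ^ a +
        H60.dlt c u (if β then 2 ^ ((a + 3 : ℕ) - p.k₀) / 3 else 0) v s d ∧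
      ((j : ℝ) + 1) * 2 ^ a + H60.dlt c u (if β then 2 ^ ((a + 3 : ℕ) - p.k₀) / 3 else 0) v s d ≤
        (jl + 1) * 2 ^ (a + 3) := by
  set q : ℝ := (2 : ℝ) ^ (a + 3) with hq
  have hq0 : 0 < q := by positivity
  have hqa : q = 8 * 2 ^ a := by rw [hq, pow_add]; norm_num; ring
  have ha1 : (1 : ℝ) ≤ 2 ^ a := one_le_pow₀ (by norm_num)
  set δ := H60.dlt c u 0 v s d with hδ
  have hθ : ∀ θ : ℝ, H60.dlt c u θ v s d = δ + 2 ^ ((v : ℤ) + Prm.sc c.1) * θ := by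
    intro θ
    rw [hδ]
    unfold H60.dlt
    ring
  have key : (2 : ℝ) ^ ((v : ℤ) + Prm.sc c.1) * (2 ^ ((a + 3 : ℕ) - p.k₀) / 3) =
      2 ^ (v + Prm.js c.1) / 3 * q := by
    have e1 : (v : ℤ) + Prm.sc c.1 = ((v + Prm.js c.1 : ℕ) : ℤ) + p.k₀ := by
      unfold Prm.sc Prm.js
      push_cast
      ring
    rw [e1, zpow_add₀ (by norm_num), zpow_sub₀ (by norm_num), zpow_natCast, zpow_natCast, ← hq]
    have : (2 : ℝ) ^ p.k₀ ≠ 0 := by positivity
    field_simp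
  rcases two_grids (A := (j * 2 ^ a - 1 + δ) / q) (B := ((j + 1) * 2 ^ a + δ) / q) (by
      rw [← sub_lt_iff_lt_add', ← sub_div, div_lt_iff₀ hq0, hqa]
      linarith) (v + Prm.js c.1) with ⟨m, h1, h2⟩ | ⟨m, h1, h2⟩
  · refine ⟨false, m, ?_⟩
    simp only [Bool.false_eq_true, if_false]
    rw [le_div_iff₀ hq0] at h1
    rw [div_le_iff₀ hq0] at h2
    rw [← hδ]
    constructor
    · linarith
    · linarith
  · refine ⟨true, m, ?_⟩
    simp only [if_true]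
    rw [hθ, key]
    have h3 : (m : ℝ) * q ≤ ((j * 2 ^ a - 1 + δ) / q + 2 ^ (v + Prm.js c.1) / 3) * q :=
      mul_le_mul_of_nonneg_right h1 hq0.le
    have h4 : (((j + 1) * 2 ^ a + δ) / q + 2 ^ (v + Prm.js c.1) / 3) * q ≤ ((m : ℝ) + 1) * q :=
      mul_le_mul_of_nonneg_right h2 hq0.le
    rw [add_mul, div_mul_cancel₀ _ hq0.ne'] at h3 h4
    constructor
    · linarith
    · linarith

/-! ## The choice of the grid, the information of a box -/

/-- the offsets of the two grids -/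
def thG (p : Prm) (a : ℕ) (β : Bool) : ℝ := if β then 2 ^ ((a + 3 : ℕ) - p.k₀) / 3 else 0

/-- the grid of a box -/
def gB (p : Prm) (u : ℝ) (a v : ℕ) (c : p.Col) (r : ℤ × ℤ × ℤ) : Bool :=
  (exists_grid u a v c r.1 r.2.1 r.2.2).choose

/-- the cell of the grid of a box -/
def gJ (p : Prm) (u : ℝ) (a v : ℕ) (c : p.Col) (r : ℤ × ℤ × ℤ) : ℤ :=
  (exists_grid u a v c r.1 r.2.1 r.2.2).choose_spec.choose

lemma grid_spec (p : Prm) (u : ℝ) (a v : ℕ) (c : p.Col) (r : ℤ × ℤ × ℤ) :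
    (gJ p u a v c r : ℝ) * 2 ^ (a + 3) + 1 ≤ r.2.2 * 2 ^ a +
        H60.dlt c u (thG p a (gB p u a v c r)) v r.1 r.2.1 ∧
      ((r.2.2 : ℝ) + 1) * 2 ^ a + H60.dlt c u (thG p a (gB p u a v c r)) v r.1 r.2.1 ≤
        (gJ p u a v c r + 1) * 2 ^ (a + 3) :=
  (exists_grid u a v c r.1 r.2.1 r.2.2).choose_spec.choose_spec

/-- the measure of one column -/
def QC {κ : Type*} (Q : κ × Ω → ℝ) (c : κ) (ω : Ω) : ℝ := Q (c, ω)

/-- mass of a box -/
def MF (F : Fr Ω) (ln : Ω → Pt) (p : Prm) (Q : p.Col × Ω → ℝ) (u : ℝ) (PB a v : ℕ) (c : p.Col)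
    (r : ℤ × ℤ × ℤ) : ℝ := PE (QC Q c) (BF F ln p u PB a v c r)

/-- the law on a box -/
def qF (F : Fr Ω) (ln : Ω → Pt) (p : Prm) (Q : p.Col × Ω → ℝ) (u : ℝ) (PB a v : ℕ) (c : p.Col)
    (r : ℤ × ℤ × ℤ) : Ω → ℝ := cE (QC Q c) (BF F ln p u PB a v c r)

/-- the information of the box `r` of the column `c` at the level `v`: time digits `dX`, row digits
`PY`, line digits `PC`, late margin `PB`, rows of height `2 ^ a`, digit cells of height `2 ^ lm` -/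
def SXF (F : Fr Ω) (ln : Ω → Pt) (p : Prm) (μ : Ω → ℝ) (Q : p.Col × Ω → ℝ) (u : ℝ)
    (PB PC PY a dX lm v : ℕ) (c : p.Col) (r : ℤ × ℤ × ℤ) : ℝ :=
  SX μ (qF F ln p Q u PB a v c r) (Tv (xs F u) v) (fF ln p c)
    (cv (xs F u) (htF F ln p c) (fF ln p c) v) (Gv F ln p PB v c r.1)
    (LF F ln p u (thG p a (gB p u a v c r)) PB (a + 3) v c r.1 r.2.1 (gJ p u a v c r))
    (lb ln p c) (Xt F u PB (v + dX)) Prod.fst (CF F ln p u (thG p a (gB p u a v c r)) PC v c)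
    (chF p u (thG p a (gB p u a v c r)) PC v c r.1 r.2.1) dX p.PP PY a lm (Prm.b0 c.1)
    (Prm.b1 c.1) r.2.1 r.2.2

/-- **the box of a column is a normalised box**, with its own grid -/
theorem nboxF (hμ : IsProb μ) (u : ℝ) (PB PC a dX v : ℕ) (c : p.Col) (r : ℤ × ℤ × ℤ)
    (hpos : ∀ b : Bool, 0 < PE μ (fun ω => lb ln p c ω = some b ∧ BF F ln p u PB a v c r ω)) :
    NBox μ (Tv (xs F u) v) (fF ln p c) (cv (xs F u) (htF F ln p c) (fF ln p c) v)
      (Gv F ln p PB v c r.1)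
      (LF F ln p u (thG p a (gB p u a v c r)) PB (a + 3) v c r.1 r.2.1 (gJ p u a v c r))
      (lb ln p c) (Xt F u PB (v + dX)) Prod.fst (CF F ln p u (thG p a (gB p u a v c r)) PC v c)
      (chF p u (thG p a (gB p u a v c r)) PC v c r.1 r.2.1) dX p.PP PC a (Prm.b0 c.1)
      (Prm.b1 c.1) r.2.1 r.2.2 :=
  nbox hμ (grid_spec p u a v c r).1 (grid_spec p u a v c r).2 hpos

/-- one good box, for any law `Q` on pairs (column, flag) -/
theorem box_leF (hμ : IsProb μ) {Q : p.Col × Ω → ℝ} (hQ : IsProb Q)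
    (hac : ∀ c ω, 0 < Q (c, ω) → 0 < μ ω) (u : ℝ) {PB PC PY a dX lm P0 g v : ℕ} {c : p.Col}
    {r : ℤ × ℤ × ℤ} (hs : (1 : ℝ) / 2 ^ P0 ≤ |(Prm.b0 c.1 : ℝ) / 2 ^ p.PP - Prm.b1 c.1 / 2 ^ p.PP|)
    (hM : 0 < MF F ln p Q u PB a v c r)
    (hpos : ∀ b : Bool, 0 < PE μ (fun ω => lb ln p c ω = some b ∧ BF F ln p u PB a v c r ω))
    {ps : ℝ} (hps : 0 < ps) (hps1 : ps ≤ 1)
    (hth : ∀ b, ps ≤ PE (qF F ln p Q u PB a v c r) (fun ω => inh (Tv (xs F u) v) r.2.1 b ω ∧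
      inn (Tv (xs F u) v) (fF ln p c) (cv (xs F u) (htF F ln p c) (fF ln p c) v) a lm r.2.2 ω))
    {κ : ℝ} (hκ : 0 < κ) (hκ1 : κ < 1) {e' : ℝ} (he' : 0 < e')
    (hlam : 6 ≤ lm) (hla : lm + 4 ≤ a) (hdX : a + 2 * P0 + 2 * g + 10 ≤ dX)
    (hP : a + 2 * P0 + 2 * g + 10 ≤ p.PP) (hPC : a + 2 * P0 + 2 * g + 10 ≤ PC)
    (hPY : a + 2 * P0 + 2 * g + 10 ≤ PY) (U : Finset ((ℤ × ℕ) × ℤ))
    (hU : ∀ y ∈ U, (∃ ω, Xt F u PB (v + dX) ω = y.1) ∧ 0 ≤ xhh dX r.2.1 y.1.1 ∧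
      xhh dX r.2.1 y.1.1 < 1 ∧ nn dX g r.2.1 y.1.1 ∧ y.2 ∈ In a lm r.2.2) :
    ∑ y ∈ U, qD (qF F ln p Q u PB a v c r) (Xt F u PB (v + dX)) (Tv (xs F u) v) (fF ln p c)
      (cv (xs F u) (htF F ln p c) (fF ln p c) v) lm y ≤
    64 / 2 ^ lm * ∑ y ∈ U, qM (qF F ln p Q u PB a v c r) (Xt F u PB (v + dX)) (Tv (xs F u) v)
      (fF ln p c) (cv (xs F u) (htF F ln p c) (fF ln p c) v) lm y +
      (2 * eL κ a P0 g + 2 * e' + CQ' κ ps e' * SXF F ln p μ Q u PB PC PY a dX lm v c r) := by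
  classical
  set A := BF F ln p u PB a v c r with hA
  have hM' : 0 < Pr (QC Q c) A True := hM
  have hqv : ∀ ω, qF F ln p Q u PB a v c r ω = if A ω then Q (c, ω) / PE (QC Q c) A else 0 := by
    intro ω
    unfold qF cE cnd QC
    by_cases h : A ω
    · rw [if_pos h, if_pos (eq_true h)]
    · rw [if_neg h, if_neg (fun hh => h (of_eq_true hh))]
  have hq : IsProb (qF F ln p Q u PB a v c r) := by
    constructor
    · intro ω
      rw [hqv]
      split_ifs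
      · exact div_nonneg (hQ.nonneg _) hM'.le
      · exact le_rfl
    · have : ∀ ω, qF F ln p Q u PB a v c r ω =
          (if A ω then QC Q c ω else 0) / PE (QC Q c) A := by
        intro ω
        rw [hqv]
        split_ifs
        · rfl
        · simp
      rw [sum_congr rfl fun ω _ => this ω, ← sum_div, ← PE_def]
      exact div_self hM'.ne'
  refine (nboxF hμ u PB PC a dX v c r hpos).boxQ PY lm P0 g hs hq ?_ hps hps1 ?_ hκ hκ1 he' hlam
    hla hdX hP hPC hPY U hU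
  · intro ω hω
    rw [hqv] at hω
    split_ifs at hω with hB
    · have h1 : 0 < Q (c, ω) := by
        rcases (hQ.nonneg (c, ω)).eq_or_lt with h0 | h0
        · rw [← h0, zero_div] at hω
          exact absurd hω (lt_irrefl _)
        · exact h0
      have h2 := hac c ω h1
      have h3 : 0 < PE μ A := by
        rw [PE_def]
        refine lt_of_lt_of_le h2 ?_
        have := single_le_sum (f := fun ω => if A ω then μ ω else 0)
          (fun ω _ => by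
            show 0 ≤ if A ω then μ ω else 0
            split_ifs
            · exact hμ.nonneg ω
            · exact le_rfl) (mem_univ ω)
        simpa [hB] using this
      have h4 : cE μ A ω = μ ω / PE μ A := by
        unfold cE cnd
        rw [if_pos (eq_true hB)]
      show 0 < cE μ A ω
      rw [h4]
      exact div_pos h2 h3
    · exact absurd hω (lt_irrefl _)
  · intro b
    refine (hth b).trans (le_of_eq ?_)
    rw [PE_def, PE_def]
    refine sum_congr rfl fun ω _ => ?_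
    by_cases hB : A ω
    · have hL := (nboxF (F := F) (ln := ln) hμ u PB PC a dX v c r hpos).RL ω hB
      by_cases h : inh (Tv (xs F u) v) r.2.1 b ω ∧
        inn (Tv (xs F u) v) (fF ln p c) (cv (xs F u) (htF F ln p c) (fF ln p c) v) a lm r.2.2 ω
      · rw [if_pos h, if_pos ⟨hL, h⟩]
      · rw [if_neg h, if_neg fun hh => h hh.2]
    · have : qF F ln p Q u PB a v c r ω = 0 := by rw [hqv, if_neg hB]
      rw [this]
      simp

end Vale.Agent.P065.H819
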