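import Vale.Agent.P065.H819.RowFr4

/-!
# P065, package ROWS on the frame, part 5: all digits
-/

set_option autoImplicit false

open Finset Real

noncomputable section

namespace Vale.Agent.P065.H819

open Vale.Agent.P065.UB Vale.Agent.P065.Ent Vale.Agent.P065.H154
open Vale.Agent.P065.H700 (KL AC)

lemma sum_geom_le (l0 l1 : ℕ) : ∑ l ∈ Icc l0 l1, (64 : ℝ) / 2 ^ l ≤ 128 / 2 ^ l0 := by
  rcases lt_or_ge l1 l0 with h | h
  · rw [Icc_eq_empty (by omega), sum_empty]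
    positivity
  · obtain ⟨n, rfl⟩ := Nat.exists_eq_add_of_le h
    have key : ∀ n : ℕ, ∑ l ∈ Icc l0 (l0 + n), (64 : ℝ) / 2 ^ l =
        128 / 2 ^ l0 - 64 / 2 ^ (l0 + n) := by
      intro n
      induction n with
      | zero =>
        simp only [add_zero, Icc_self, sum_singleton]
        ring
      | succ n ih =>
        rw [← add_assoc, sum_Icc_succ_top (by omega), ih]
        have h2 : (2 : ℝ) ^ (l0 + n + 1) = 2 * 2 ^ (l0 + n) := by rw [pow_succ]; ring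
        rw [h2]
        have : (0 : ℝ) < 2 ^ (l0 + n) := by positivity
        field_simp
        ring
    rw [key n]
    have : (0 : ℝ) < 64 / 2 ^ (l0 + n) := by positivity
    linarith

variable {Ω : Type*} [Fintype Ω] {F : Fr Ω} {ln : Ω → Pt} {p : Prm} {Q : p.Col × Ω → ℝ}
  {μ : Ω → ℝ}

/-- the digit is a part of the box of BOOK -/
lemma Hc_DgF_le (hQ : IsProb Q) (u : ℝ) (PB gam dd t : ℕ) :
    Hc Q (DgF F ln p gam t) (ZF F ln p u PB gam dd t) ≤
      Hc Q (Rt F ln p u gam (t + 1)) (fun q => (F.D u (t + 1) q.2, Rt F ln p u gam t q)) := by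
  have h1 : Hc Q (DgF F ln p gam t) (ZF F ln p u PB gam dd t) ≤
      Hc Q (Rt F ln p u gam (t + 1)) (ZF F ln p u PB gam dd t) := by
    unfold Hc
    refine sub_le_sub_right (H_mono hQ ?_) _
    intro q q' h
    obtain ⟨h1, h2⟩ := Prod.mk.inj h
    have h3 : Nf F ln p gam (t + 1) q.1 q.2 = Nf F ln p gam (t + 1) q'.1 q'.2 := by
      unfold Rt at h1
      simp only [Prod.mk.injEq] at h1
      exact h1.2.2.2
    have h4 : Nf F ln p gam t q.1 q.2 = Nf F ln p gam t q'.1 q'.2 := by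
      have h5 := h2
      unfold ZF at h5
      simp only [Prod.mk.injEq] at h5
      exact h5.2.2.2
    have h5 : DgF F ln p gam t q = DgF F ln p gam t q' := by
      unfold DgF
      rw [h3, h4]
    show (DgF F ln p gam t q, ZF F ln p u PB gam dd t q) =
      (DgF F ln p gam t q', ZF F ln p u PB gam dd t q')
    rw [h5, h2]
  exact h1.trans (Hc_anti hQ _ (ZF_det u PB gam dd t))

open Classical in
/-- **one digit** -/
theorem digit_le {PB gam dd a g lm0 lm1 P0 PC PY : ℕ} (hR : RH p PB gam dd a g lm0 lm1 P0 PC PY)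
    (hQ : QH F ln p μ Q P0) (u : ℝ) {ps : ℝ} (hps : 0 < ps) (hps1 : ps ≤ 1) {κ e' : ℝ}
    (hκ : 0 < κ) (hκ1 : κ < 1) (he' : 0 < e') (t : ℕ) :
    log 2 * ((1 - 128 / 2 ^ lm0) * PE Q (covF F ln p Q u PB gam dd a g lm0 lm1 ps t) -
      ∑ lm ∈ Icc lm0 lm1, if gam ≤ t + 1 + lm then
        ∑ c, ∑ r ∈ GBs F ln p Q u PB a lm1 ps (t + 1 + lm - gam) c,
        errB F ln p μ Q u PB PC PY gam dd a g P0 κ e' ps lm (t + 1 + lm - gam) c r else 0) ≤
      Hc Q (Rt F ln p u gam (t + 1)) (fun q => (F.D u (t + 1) q.2, Rt F ln p u gam t q)) := by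
  have hlog2 : 0 ≤ log 2 := log_nonneg (by norm_num)
  set Tl : ℕ → Finset (p.Col × ℤ × (ℤ × ℕ) × ℤ) := fun lm =>
    (univ.filter (covL F ln p Q u PB gam dd a g lm1 ps lm t)).image (ZF F ln p u PB gam dd t)
    with hTl
  set T := (Icc lm0 lm1).biUnion Tl with hT
  refine le_trans ?_ (Hc_DgF_le hQ.probQ u PB gam dd t)
  refine le_trans (mul_le_mul_of_nonneg_left ?_ hlog2)
    (Hc_digit_ge hQ.probQ (DgF F ln p gam t) (ZF F ln p u PB gam dd t) T)
  rw [sum_sub_distrib]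
  have h1 : PE Q (covF F ln p Q u PB gam dd a g lm0 lm1 ps t) ≤
      ∑ z ∈ T, PE Q (fun q => ZF F ln p u PB gam dd t q = z) := by
    refine PE_le_sum hQ.probQ T (fun z q => ZF F ln p u PB gam dd t q = z) _ ?_
    rintro q ⟨lm, hlm, hq⟩
    exact ⟨ZF F ln p u PB gam dd t q, mem_biUnion.mpr ⟨lm, hlm,
      mem_image_of_mem _ (mem_filter.mpr ⟨mem_univ _, hq⟩)⟩, rfl⟩
  have h2 : ∑ z ∈ T, |PE Q (fun q => ZF F ln p u PB gam dd t q = z ∧ DgF F ln p gam t q) -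
      PE Q (fun q => ZF F ln p u PB gam dd t q = z ∧ ¬ DgF F ln p gam t q)| ≤
      ∑ lm ∈ Icc lm0 lm1, ∑ z ∈ Tl lm, dfZ F ln p Q u PB gam dd t z :=
    sum_biUnion_le' _ _ _ fun _ => abs_nonneg _
  have h3 : ∑ lm ∈ Icc lm0 lm1, ∑ z ∈ Tl lm, dfZ F ln p Q u PB gam dd t z ≤
      ∑ lm ∈ Icc lm0 lm1, (64 / 2 ^ lm * PE Q (covF F ln p Q u PB gam dd a g lm0 lm1 ps t) +
      if gam ≤ t + 1 + lm then ∑ c, ∑ r ∈ GBs F ln p Q u PB a lm1 ps (t + 1 + lm - gam) c,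
        errB F ln p μ Q u PB PC PY gam dd a g P0 κ e' ps lm (t + 1 + lm - gam) c r else 0) := by
    refine sum_le_sum fun lm hlm => ?_
    obtain ⟨l0, l1⟩ := mem_Icc.mp hlm
    refine (lm_le hR hQ u hps hps1 hκ hκ1 he' l0 l1).trans (add_le_add ?_ le_rfl)
    refine mul_le_mul_of_nonneg_left (PE_mono hQ.probQ fun q hq => ⟨lm, hlm, hq⟩) (by positivity)
  rw [sum_add_distrib, ← sum_mul] at h3
  have h4 := mul_le_mul_of_nonneg_right (sum_geom_le lm0 lm1)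
    (PE_nonneg hQ.probQ (covF F ln p Q u PB gam dd a g lm0 lm1 ps t))
  linarith

/-- the errors are nonnegative -/
lemma errB_nonneg {PB gam dd a g lm0 lm1 P0 PC PY : ℕ}
    (hR : RH p PB gam dd a g lm0 lm1 P0 PC PY) (hQ : QH F ln p μ Q P0) (u : ℝ) {ps : ℝ}
    (hps : 0 < ps) {κ e' : ℝ} (hκ : 0 < κ) (he' : 0 < e') (lm v : ℕ) (c : p.Col)
    (r : ℤ × ℤ × ℤ) (hr : r ∈ GBs F ln p Q u PB a lm1 ps v c) :
    0 ≤ errB F ln p μ Q u PB PC PY gam dd a g P0 κ e' ps lm v c r := by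
  have k3 := hR.hPY
  have k4 := hR.hPB
  have hG := (mem_GBs.mp hr).2
  unfold errB
  refine mul_nonneg hG.pos.le ?_
  have h1 := SXF_nonneg (PC := PC) (PY := PY) (dX := dd + gam - lm) (lm := lm) hQ.prob
    hQ.probQ hQ.ac u hG.pos (hQ.lab u PB a _ c r (by omega) hG.pos)
  have h2 := CQ'_nonneg (κ := κ) hps he'
  have h3 := eL_nonneg hκ.le a P0 g
  positivity

/-- all errors -/
def errT (F : Fr Ω) (ln : Ω → Pt) (p : Prm) (μ : Ω → ℝ) (Q : p.Col × Ω → ℝ) (u : ℝ)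
    (PB PC PY gam dd a g P0 lm0 lm1 : ℕ) (κ e' ps : ℝ) (T : ℕ) : ℝ :=
  ∑ lm ∈ Icc lm0 lm1, ∑ v ∈ range (T + lm1 + 1), ∑ c, ∑ r ∈ GBs F ln p Q u PB a lm1 ps v c,
    errB F ln p μ Q u PB PC PY gam dd a g P0 κ e' ps lm v c r

open Classical in
/-- **ROWS**: the entropy of the row digits under the law `Q` -/
theorem rows_le {PB gam dd a g lm0 lm1 P0 PC PY : ℕ} (hR : RH p PB gam dd a g lm0 lm1 P0 PC PY)
    (hQ : QH F ln p μ Q P0) (u : ℝ) {ps : ℝ} (hps : 0 < ps) (hps1 : ps ≤ 1) {κ e' : ℝ}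
    (hκ : 0 < κ) (hκ1 : κ < 1) (he' : 0 < e') (T : ℕ) :
    log 2 * ((1 - 128 / 2 ^ lm0) *
      (∑ q, Q q * #{t ∈ range T | covF F ln p Q u PB gam dd a g lm0 lm1 ps t q}) -
      errT F ln p μ Q u PB PC PY gam dd a g P0 lm0 lm1 κ e' ps T) ≤
      ∑ t ∈ range T,
        Hc Q (Rt F ln p u gam (t + 1)) (fun q => (F.D u (t + 1) q.2, Rt F ln p u gam t q)) := by
  have hlog2 : 0 ≤ log 2 := log_nonneg (by norm_num)
  refine le_trans ?_ (sum_le_sum fun t _ => digit_le hR hQ u hps hps1 hκ hκ1 he' t)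
  rw [← mul_sum]
  refine mul_le_mul_of_nonneg_left ?_ hlog2
  rw [sum_sub_distrib, ← mul_sum]
  have h1 : ∑ q, Q q * #{t ∈ range T | covF F ln p Q u PB gam dd a g lm0 lm1 ps t q} =
      ∑ t ∈ range T, PE Q (covF F ln p Q u PB gam dd a g lm0 lm1 ps t) := by
    have e1 : ∀ t, PE Q (covF F ln p Q u PB gam dd a g lm0 lm1 ps t) =
        ∑ q, if covF F ln p Q u PB gam dd a g lm0 lm1 ps t q then Q q else 0 := fun t => PE_def _ _
    rw [sum_congr rfl fun t _ => e1 t, sum_comm]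
    refine sum_congr rfl fun q _ => ?_
    rw [← sum_filter, sum_const, nsmul_eq_mul, mul_comm]
  rw [h1]
  refine sub_le_sub_left ?_ _
  unfold errT
  rw [sum_comm]
  refine sum_le_sum fun lm hlm => ?_
  obtain ⟨l0, l1⟩ := mem_Icc.mp hlm
  rw [← sum_filter]
  rw [← sum_image (f := fun v => ∑ c, ∑ r ∈ GBs F ln p Q u PB a lm1 ps v c,
    errB F ln p μ Q u PB PC PY gam dd a g P0 κ e' ps lm v c r)
    (s := (range T).filter (fun t => gam ≤ t + 1 + lm)) (g := fun t => t + 1 + lm - gam)]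
  · refine sum_le_sum_of_subset_of_nonneg ?_ fun v _ _ => sum_nonneg fun c _ =>
      sum_nonneg fun r hr => errB_nonneg hR hQ u hps hκ he' lm v c r hr
    intro v hv
    obtain ⟨t, ht, rfl⟩ := mem_image.mp hv
    obtain ⟨h2, h3⟩ := mem_filter.mp ht
    rw [mem_range] at h2 ⊢
    omega
  · intro t ht t' ht' h
    have h2 := (mem_filter.mp ht).2
    have h3 := (mem_filter.mp ht').2
    simp only at h
    omega

end Vale.Agent.P065.H819
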