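import Vale.Agent.P065.H154.FrameThk
import Vale.Agent.P065.H587.Fill

/-!
# P065, the thick boxes of the assembly (helper819)

`Th F ln p u γ PB m ps t a` : in the box `Rt γ t` of `a`, both halves of the time cell `D t` have
`m`-mass at least `ps` times the mass of the box, counting only flags which are not late
(`t + PB ≤ T'`).
-/

set_option autoImplicit false

open Finset

noncomputable section

namespace Vale.Agent.P065.H819

open Vale.Agent.P065.UB Vale.Agent.P065.Ent Vale.Agent.P065.H268 Vale.Agent.P065.H154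

variable {Ω : Type*} [Fintype Ω]

/-- the flags of the box of `a` in the half `b` of the time cell which are not late -/
def Hb (F : Fr Ω) (ln : Ω → Pt) (p : Prm) (u : ℝ) (γ PB t : ℕ) (a : p.Col × Ω) (b : Bool)
    (a' : p.Col × Ω) : Prop :=
  Rt F ln p u γ t a' = Rt F ln p u γ t a ∧
    F.D u (t + 1) a'.2 = 2 * F.D u t a'.2 + (if b then 1 else 0) ∧ t + PB ≤ F.T' a'.2

/-- **thick boxes** -/
def Th (F : Fr Ω) (ln : Ω → Pt) (p : Prm) (u : ℝ) (γ PB : ℕ) (m : p.Col × Ω → ℝ) (ps : ℝ)
    (t : ℕ) (a : p.Col × Ω) : Prop :=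
  ∀ b : Bool, ps * Pr m (Rt F ln p u γ t) (Rt F ln p u γ t a) ≤ PE m (Hb F ln p u γ PB t a b)

variable {F : Fr Ω} {ln : Ω → Pt} {p : Prm} {u : ℝ} {γ PB : ℕ} {m : p.Col × Ω → ℝ} {ps : ℝ}

lemma D_two (F : Fr Ω) (u : ℝ) (t : ℕ) (ω : Ω) :
    F.D u (t + 1) ω = 2 * F.D u t ω ∨ F.D u (t + 1) ω = 2 * F.D u t ω + 1 := by
  unfold Fr.D
  have e : (2 : ℝ) ^ (t + 1) * (F.P.x ω + u) = 2 * (2 ^ t * (F.P.x ω + u)) := by
    rw [pow_succ]; ring
  rw [e]
  set z := (2 : ℝ) ^ t * (F.P.x ω + u)
  have h1 := Int.floor_le z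
  have h2 := Int.lt_floor_add_one z
  have h3 : 2 * ⌊z⌋ ≤ ⌊2 * z⌋ := by
    apply Int.le_floor.mpr; push_cast; linarith
  have h4 : ⌊2 * z⌋ < 2 * ⌊z⌋ + 2 := by
    apply Int.floor_lt.mpr; push_cast; linarith
  omega

lemma Hb_congr {t : ℕ} {a a' : p.Col × Ω} (h : Rt F ln p u γ t a = Rt F ln p u γ t a')
    (b : Bool) : Hb F ln p u γ PB t a b = Hb F ln p u γ PB t a' b := by
  funext a''
  unfold Hb
  rw [h]

/-- thickness is a property of the box -/
theorem Th_congr (t : ℕ) (a a' : p.Col × Ω) (h : Rt F ln p u γ t a = Rt F ln p u γ t a')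
    (hth : Th F ln p u γ PB m ps t a) : Th F ln p u γ PB m ps t a' := by
  intro b
  rw [← h, ← Hb_congr h b]
  exact hth b

/-- the thick boxes of two laws with the same law of the fine box -/
theorem Th_same {Lab : Type*} {lam : Ω → Lab} {q Q : p.Col × Ω → ℝ}
    (h : ∀ x, Pr q (rb F ln p lam) x = Pr Q (rb F ln p lam) x) (t : ℕ) (a : p.Col × Ω) :
    Th F ln p u γ PB q ps t a ↔ Th F ln p u γ PB Q ps t a := by
  have h1 : Pr q (Rt F ln p u γ t) (Rt F ln p u γ t a) =
      Pr Q (Rt F ln p u γ t) (Rt F ln p u γ t a) := H353.Pr_same h (rb_Rt u γ t) _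
  have h2 : ∀ b, PE q (Hb F ln p u γ PB t a b) = PE Q (Hb F ln p u γ PB t a b) := by
    intro b
    refine H353.Pr_same h ?_ _
    intro c c' hc
    have e1 := rb_Rt (F := F) (ln := ln) (p := p) (lam := lam) u γ t c c' hc
    have e2 := rb_V (F := F) (ln := ln) (p := p) (lam := lam) c c' hc
    simp only [Prod.mk.injEq] at e2
    have e3 := F.xW _ _ e2.1
    unfold Hb
    rw [e1, F.D_of_x e3, F.D_of_x (t := t) e3, F.T'x _ _ e3]
  unfold Th
  rw [h1]
  simp only [h2]

lemma PE_Hb_add_le (hm : IsProb m) (t : ℕ) (a : p.Col × Ω) :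
    PE m (Hb F ln p u γ PB t a false) + PE m (Hb F ln p u γ PB t a true) ≤
      Pr m (Rt F ln p u γ t) (Rt F ln p u γ t a) := by
  classical
  rw [PE_def, PE_def, ← sum_add_distrib]
  unfold Pr
  refine sum_le_sum fun c _ => ?_
  have h0 := hm.nonneg c
  by_cases hR : Rt F ln p u γ t c = Rt F ln p u γ t a
  · rw [if_pos hR]
    by_cases h1 : Hb F ln p u γ PB t a false c
    · have h2 : ¬ Hb F ln p u γ PB t a true c := by
        intro h2
        have e1 := h1.2.1
        have e2 := h2.2.1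
        simp at e1 e2
        omega
      rw [if_pos h1, if_neg h2, add_zero]
    · rw [if_neg h1, zero_add]
      split_ifs
      · exact le_rfl
      · exact h0
  · have h1 : ∀ b, ¬ Hb F ln p u γ PB t a b c := fun b h => hR h.1
    rw [if_neg (h1 false), if_neg (h1 true), if_neg hR, add_zero]

/-- in a thick box the own half has share at most `1 - ps` -/
theorem Th_ka (hm : IsProb m) {s0 : ℕ} (t : ℕ) (a : p.Col × Ω) (ha : 0 < m a)
    (hth : Th F ln p u γ PB m ps t a) :
    Avg.ka (Pf F p u s0) m (Rt F ln p u γ) t a ≤ 1 - ps := by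
  classical
  have hR := Pr_pos hm (Rt F ln p u γ t) ha
  unfold Avg.ka
  rw [div_le_iff₀ hR]
  -- the own half
  obtain ⟨b, hb⟩ : ∃ b : Bool, F.D u (t + 1) a.2 = 2 * F.D u t a.2 + (if b then 1 else 0) := by
    rcases D_two F u t a.2 with h | h
    · exact ⟨false, by simp [h]⟩
    · exact ⟨true, by simp [h]⟩
  have h1 := hth (!b)
  have h2 : Pr m (fun ω => ((Pf F p u s0).D (t + 1) ω, Rt F ln p u γ t ω))
      ((Pf F p u s0).D (t + 1) a, Rt F ln p u γ t a) + PE m (Hb F ln p u γ PB t a (!b)) ≤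
      Pr m (Rt F ln p u γ t) (Rt F ln p u γ t a) := by
    rw [PE_def]
    unfold Pr
    rw [← sum_add_distrib]
    refine sum_le_sum fun c _ => ?_
    have h0 := hm.nonneg c
    by_cases hc : ((Pf F p u s0).D (t + 1) c, Rt F ln p u γ t c) =
        ((Pf F p u s0).D (t + 1) a, Rt F ln p u γ t a)
    · obtain ⟨e1, e2⟩ := Prod.mk.inj hc
      have e1' : F.D u (t + 1) c.2 = F.D u (t + 1) a.2 := e1
      have e3 : F.D u t c.2 = F.D u t a.2 := Rt_D (F := F) (ln := ln) (p := p) u γ t c a e2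
      have h3 : ¬ Hb F ln p u γ PB t a (!b) c := by
        rintro ⟨-, h4, -⟩
        rw [e1', hb, e3] at h4
        cases b <;> simp at h4
      rw [if_pos hc, if_neg h3, if_pos e2, add_zero]
    · rw [if_neg hc, zero_add]
      by_cases h3 : Hb F ln p u γ PB t a (!b) c
      · rw [if_pos h3, if_pos h3.1]
      · rw [if_neg h3]
        split_ifs
        · exact h0
        · exact le_rfl
  linarith

/-- thick boxes are not late: the flag itself is a flag of a time cell with two centres -/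
theorem Th_lt (hm : IsProb m) (hps : 0 < ps) (t : ℕ) (a : p.Col × Ω) (ha : 0 < m a)
    (hth : Th F ln p u γ PB m ps t a) : t < F.T' a.2 := by
  classical
  have hR := Pr_pos hm (Rt F ln p u γ t) ha
  have key : ∀ b, ∃ c, Hb F ln p u γ PB t a b c := by
    intro b
    by_contra hcon
    push Not at hcon
    have h1 := hth b
    have h2 : PE m (Hb F ln p u γ PB t a b) = 0 := by
      rw [PE_def]
      exact sum_eq_zero fun c _ => if_neg (hcon c)
    rw [h2] at h1
    have := mul_pos hps hR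
    linarith
  obtain ⟨b, hb⟩ : ∃ b : Bool, F.D u (t + 1) a.2 = 2 * F.D u t a.2 + (if b then 1 else 0) := by
    rcases D_two F u t a.2 with h | h
    · exact ⟨false, by simp [h]⟩
    · exact ⟨true, by simp [h]⟩
  obtain ⟨c, hc1, hc2, -⟩ := key (!b)
  have e3 : F.D u t c.2 = F.D u t a.2 := Rt_D (F := F) (ln := ln) (p := p) u γ t c a hc1
  refine F.lt_of_ne (u := u) e3.symm ?_
  intro hx
  have e4 : F.D u (t + 1) a.2 = F.D u (t + 1) c.2 := F.D_of_x hx
  rw [hb, hc2, e3] at e4
  cases b <;> simp at e4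

/-- in a thick box the flags of positive mass are not late somewhere: there is a flag of the same
box in each half with `t + PB ≤ T'` -/
theorem Th_ex (hm : IsProb m) (hps : 0 < ps) (t : ℕ) (a : p.Col × Ω) (ha : 0 < m a)
    (hth : Th F ln p u γ PB m ps t a) (b : Bool) : ∃ c, 0 < m c ∧ Hb F ln p u γ PB t a b c := by
  classical
  have hR := Pr_pos hm (Rt F ln p u γ t) ha
  by_contra hcon
  push Not at hcon
  have h1 := hth b
  have h2 : PE m (Hb F ln p u γ PB t a b) ≤ 0 := by
    rw [PE_def]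
    refine sum_nonpos fun c _ => ?_
    split_ifs with h
    · by_contra hc
      push Not at hc
      exact hcon c hc h
    · exact le_rfl
  have := mul_pos hps hR
  linarith

end Vale.Agent.P065.H819
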