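import Vale.Agent.P065.H819.RowFr5
import Vale.Agent.P065.H806.SysFacts
import Vale.Agent.P065.H987.RowInfo

/-!
# P065, package ROWS: the hypotheses `QH` for the final system
-/

set_option autoImplicit false

open Finset Real

noncomputable section

namespace Vale.Agent.P065.H819

open Vale.Agent.P065.UB Vale.Agent.P065.Ent Vale.Agent.P065.H154 Vale.Agent.P065.H268

variable {B₀ K₁ PP Γ s₀ Λ kN : ℕ} {c₂ ρ ε₂ e : ℝ} {n g : ℕ}

/-- the final system satisfies `QH` -/
theorem QH_of_Sys (S : H806.Sys B₀ K₁ PP Γ s₀ Λ kN c₂ ρ ε₂ e n g) (hg : 1 ≤ g) :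
    QH S.F S.ln S.p S.μ S.Q 9 where
  prob := S.hμ
  probQ := S.probQ hg
  ac := fun _ _ h => S.Q_pos' h
  lab := fun _ _ _ _ _ _ _ h b => H987.label_pos_F S.hμ (S.J_pos hg) b h
  sep := by
    intro c ω h
    have h1 : 0 < (cols S.F S.ln S.p S.lam S.f S.f0 S.f1).wt S.μ c
      (rho S.F S.ln S.p S.lam c ω) := H700.Cols.wt_pos_of_Q_pos S.hμ h
    have h2 := S.sep c _ h1
    rw [← sub_div, abs_div, abs_of_pos (show (0 : ℝ) < 2 ^ S.p.PP by positivity)]
    exact h2

end Vale.Agent.P065.H819
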