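import Mathlib

/-!
# P065, package FAIR, part 2: finitely additive set functions on the line which are quasi-invariant
under a translation

`QInv M K0 K1 h σ Err`: inside `[K0, K1)`, the mass of an interval is at most the mass of the interval
translated by `± h` and enlarged by `σ`, up to `Err`.  Then short intervals are light (`fill`), and
neighbouring cells of a grid have almost the same mass (`fair`).
-/

set_option autoImplicit false

open Finset Real

noncomputable section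

namespace Vale.Agent.P065.H819

/-- quasi-invariance of a finitely additive set function under translation by `± h` -/
structure QInv (M : Set ℝ → ℝ) (K0 K1 h σ Err : ℝ) : Prop where
  nonneg : ∀ A, 0 ≤ M A
  mono : ∀ A B, A ⊆ B → M A ≤ M B
  sub : ∀ A B, M (A ∪ B) ≤ M A + M B
  add : ∀ A B, Disjoint A B → M A + M B ≤ M (A ∪ B)
  hh : 0 < h
  hσ : 0 ≤ σ
  hσh : σ ≤ h
  hErr : 0 ≤ Err
  qi : ∀ a b, K0 ≤ a → b + σ + h ≤ K1 →
    M (Set.Ico a b) ≤ M (Set.Ico (a - σ + h) (b + σ + h)) + Err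
  qi' : ∀ a b, K0 ≤ a - σ - h → b ≤ K1 →
    M (Set.Ico a b) ≤ M (Set.Ico (a - σ - h) (b + σ - h)) + Err

variable {M : Set ℝ → ℝ} {K0 K1 h σ Err : ℝ}

lemma QInv.right (D : QInv M K0 K1 h σ Err) (j : ℕ) (a b : ℝ) (h0 : K0 ≤ a)
    (h1 : b + j * (σ + h) ≤ K1) :
    M (Set.Ico a b) ≤ M (Set.Ico (a - j * σ + j * h) (b + j * σ + j * h)) + j * Err := by
  induction j with
  | zero => simp
  | succ j ih =>
    have e0 : ((j + 1 : ℕ) : ℝ) = (j : ℝ) + 1 := by push_cast; ring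
    rw [e0] at h1 ⊢
    have hσ := D.hσ
    have hh := D.hh
    have hj : (0 : ℝ) ≤ j := Nat.cast_nonneg j
    have h2 := ih (by nlinarith)
    have h3 : (j : ℝ) * σ ≤ j * h := mul_le_mul_of_nonneg_left D.hσh hj
    have h4 := D.qi (a - j * σ + j * h) (b + j * σ + j * h) (by linarith) (by linarith)
    have e1 : a - j * σ + j * h - σ + h = a - ((j : ℝ) + 1) * σ + ((j : ℝ) + 1) * h := by ring
    have e2 : b + j * σ + j * h + σ + h = b + ((j : ℝ) + 1) * σ + ((j : ℝ) + 1) * h := by ring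
    rw [e1, e2] at h4
    linarith

lemma QInv.left (D : QInv M K0 K1 h σ Err) (j : ℕ) (a b : ℝ) (h0 : K0 ≤ a - j * (σ + h))
    (h1 : b ≤ K1) :
    M (Set.Ico a b) ≤ M (Set.Ico (a - j * σ - j * h) (b + j * σ - j * h)) + j * Err := by
  induction j with
  | zero => simp
  | succ j ih =>
    have e0 : ((j + 1 : ℕ) : ℝ) = (j : ℝ) + 1 := by push_cast; ring
    rw [e0] at h0 ⊢
    have hσ := D.hσ
    have hh := D.hh
    have hj : (0 : ℝ) ≤ j := Nat.cast_nonneg j
    have h2 := ih (by nlinarith)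
    have h3 : (j : ℝ) * σ ≤ j * h := mul_le_mul_of_nonneg_left D.hσh hj
    have h4 := D.qi' (a - j * σ - j * h) (b + j * σ - j * h) (by linarith) (by linarith)
    have e1 : a - j * σ - j * h - σ - h = a - ((j : ℝ) + 1) * σ - ((j : ℝ) + 1) * h := by ring
    have e2 : b + j * σ - j * h + σ - h = b + ((j : ℝ) + 1) * σ - ((j : ℝ) + 1) * h := by ring
    rw [e1, e2] at h4
    linarith

lemma QInv.sum_le {ι : Type*} (D : QInv M K0 K1 h σ Err) (s : Finset ι) (A : ι → Set ℝ)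
    (G : Set ℝ) (hA : ∀ i ∈ s, A i ⊆ G)
    (hd : ∀ i ∈ s, ∀ j ∈ s, i ≠ j → Disjoint (A i) (A j)) :
    ∑ i ∈ s, M (A i) ≤ M G := by
  classical
  have key : ∑ i ∈ s, M (A i) ≤ M (⋃ i ∈ s, A i) := by
    induction s using Finset.induction_on with
    | empty => simpa using D.nonneg _
    | insert i s hi ih =>
      rw [sum_insert hi, Finset.set_biUnion_insert]
      have h1 := ih (fun j hj => hA j (mem_insert_of_mem hj))
        (fun j hj k hk => hd j (mem_insert_of_mem hj) k (mem_insert_of_mem hk))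
      have h2 := D.add (A i) (⋃ j ∈ s, A j) (by
        rw [Set.disjoint_iUnion₂_right]
        intro j hj
        exact hd i (mem_insert_self _ _) j (mem_insert_of_mem hj) fun h => hi (h ▸ hj))
      linarith
  exact key.trans (D.mono _ _ (Set.iUnion₂_subset hA))

lemma QInv.le_sum {ι : Type*} (D : QInv M K0 K1 h σ Err) (hM : M ∅ = 0) (s : Finset ι)
    (A : ι → Set ℝ) (G : Set ℝ) (hG : G ⊆ ⋃ i ∈ s, A i) :
    M G ≤ ∑ i ∈ s, M (A i) := by
  classical
  refine (D.mono _ _ hG).trans ?_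
  clear hG
  induction s using Finset.induction_on with
  | empty => simp [hM]
  | insert i s hi ih =>
    rw [sum_insert hi, Finset.set_biUnion_insert]
    exact (D.sub _ _).trans (by linarith)

lemma QInv.fill_right (D : QInv M K0 K1 h σ Err) (N : ℕ) (a b G0 G1 : ℝ) (hG0 : K0 ≤ G0)
    (hG1 : G1 ≤ K1) (ha : G0 ≤ a) (hb : b + N * (σ + h) ≤ G1)
    (hgap : (b - a) + 2 * N * σ ≤ h) :
    N * M (Set.Ico a b) ≤ M (Set.Ico G0 G1) + N ^ 2 * Err := by
  have hσ := D.hσ
  have hh := D.hh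
  have hσh := D.hσh
  have hN : (0 : ℝ) ≤ N := Nat.cast_nonneg N
  have h1 : ∀ j ∈ range N, M (Set.Ico a b) ≤
      M (Set.Ico (a - j * σ + j * h) (b + j * σ + j * h)) + N * Err := by
    intro j hj
    have hjN : (j : ℝ) ≤ N := by exact_mod_cast (mem_range.mp hj).le
    have h2 := D.right j a b (hG0.trans ha) (by nlinarith)
    have h3 : (j : ℝ) * Err ≤ N * Err := mul_le_mul_of_nonneg_right hjN D.hErr
    linarith
  have h2 := sum_le_sum h1
  rw [sum_const, card_range, nsmul_eq_mul, sum_add_distrib, sum_const, card_range,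
    nsmul_eq_mul] at h2
  have h3 := D.sum_le (range N) (fun j : ℕ => Set.Ico (a - j * σ + j * h) (b + j * σ + j * h))
    (Set.Ico G0 G1) (by
      intro j hj t ht
      have hjN : (j : ℝ) ≤ N := by exact_mod_cast (mem_range.mp hj).le
      have hj0 : (0 : ℝ) ≤ j := Nat.cast_nonneg j
      have t1 := ht.1
      have t2 := ht.2
      have h3 : (j : ℝ) * σ ≤ j * h := mul_le_mul_of_nonneg_left hσh hj0
      have h4 : (j : ℝ) * (σ + h) ≤ N * (σ + h) := mul_le_mul_of_nonneg_right hjN (by linarith)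
      exact ⟨by linarith, by linarith⟩) (by
      intro i hi j hj hij
      wlog hlt : i < j generalizing i j
      · exact (this j hj i hi (Ne.symm hij) (by omega)).symm
      rw [Set.disjoint_left]
      intro t ht ht'
      have hi1 : (i : ℝ) + 1 ≤ j := by exact_mod_cast hlt
      have hjN : (j : ℝ) ≤ N := by exact_mod_cast (mem_range.mp hj).le
      have hi0 : (0 : ℝ) ≤ i := Nat.cast_nonneg i
      have t2 := ht.2
      have t3 := ht'.1
      have h5 : h ≤ (j - i) * h := by nlinarith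
      have h6 : ((i : ℝ) + j) * σ ≤ (2 * N) * σ := mul_le_mul_of_nonneg_right (by linarith) hσ
      linarith)
  nlinarith

lemma QInv.fill_left (D : QInv M K0 K1 h σ Err) (N : ℕ) (a b G0 G1 : ℝ) (hG0 : K0 ≤ G0)
    (hG1 : G1 ≤ K1) (ha : G0 ≤ a - N * (σ + h)) (hb : b ≤ G1)
    (hgap : (b - a) + 2 * N * σ ≤ h) :
    N * M (Set.Ico a b) ≤ M (Set.Ico G0 G1) + N ^ 2 * Err := by
  have hσ := D.hσ
  have hh := D.hh
  have hσh := D.hσh
  have hN : (0 : ℝ) ≤ N := Nat.cast_nonneg N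
  have h1 : ∀ j ∈ range N, M (Set.Ico a b) ≤
      M (Set.Ico (a - j * σ - j * h) (b + j * σ - j * h)) + N * Err := by
    intro j hj
    have hjN : (j : ℝ) ≤ N := by exact_mod_cast (mem_range.mp hj).le
    have h2 := D.left j a b (by nlinarith) (hb.trans hG1)
    have h3 : (j : ℝ) * Err ≤ N * Err := mul_le_mul_of_nonneg_right hjN D.hErr
    linarith
  have h2 := sum_le_sum h1
  rw [sum_const, card_range, nsmul_eq_mul, sum_add_distrib, sum_const, card_range,
    nsmul_eq_mul] at h2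
  have h3 := D.sum_le (range N) (fun j : ℕ => Set.Ico (a - j * σ - j * h) (b + j * σ - j * h))
    (Set.Ico G0 G1) (by
      intro j hj t ht
      have hjN : (j : ℝ) ≤ N := by exact_mod_cast (mem_range.mp hj).le
      have hj0 : (0 : ℝ) ≤ j := Nat.cast_nonneg j
      have t1 := ht.1
      have t2 := ht.2
      have h3 : (j : ℝ) * σ ≤ j * h := mul_le_mul_of_nonneg_left hσh hj0
      have h4 : (j : ℝ) * (σ + h) ≤ N * (σ + h) := mul_le_mul_of_nonneg_right hjN (by linarith)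
      exact ⟨by linarith, by linarith⟩) (by
      intro i hi j hj hij
      wlog hlt : i < j generalizing i j
      · exact (this j hj i hi (Ne.symm hij) (by omega)).symm
      rw [Set.disjoint_left]
      intro t ht ht'
      have hi1 : (i : ℝ) + 1 ≤ j := by exact_mod_cast hlt
      have hjN : (j : ℝ) ≤ N := by exact_mod_cast (mem_range.mp hj).le
      have hi0 : (0 : ℝ) ≤ i := Nat.cast_nonneg i
      have t2 := ht.1
      have t3 := ht'.2
      have h5 : h ≤ (j - i) * h := by nlinarith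
      have h6 : ((i : ℝ) + j) * σ ≤ (2 * N) * σ := mul_le_mul_of_nonneg_right (by linarith) hσ
      linarith)
  nlinarith

/-- **fill**: an interval of length less than `h` is light -/
theorem QInv.fill (D : QInv M K0 K1 h σ Err) (N : ℕ) (a b G0 G1 : ℝ) (hG0 : K0 ≤ G0)
    (hG1 : G1 ≤ K1) (ha : G0 ≤ a) (hb : b ≤ G1) (hroom : (b - a) + 2 * N * (σ + h) ≤ G1 - G0)
    (hgap : (b - a) + 2 * N * σ ≤ h) :
    N * M (Set.Ico a b) ≤ M (Set.Ico G0 G1) + N ^ 2 * Err := by
  by_cases h1 : b + N * (σ + h) ≤ G1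
  · exact D.fill_right N a b G0 G1 hG0 hG1 ha h1 hgap
  · push Not at h1
    exact D.fill_left N a b G0 G1 hG0 hG1 (by nlinarith) hb hgap

/-- the zone of width `2 h` starting at `u` -/
lemma QInv.zone (D : QInv M K0 K1 h σ Err) (hM : M ∅ = 0) (N : ℕ) (u G0 G1 : ℝ) (hG0 : K0 ≤ G0)
    (hG1 : G1 ≤ K1) (ha : G0 ≤ u) (hb : u + 2 * h ≤ G1)
    (hroom : h / 2 + 2 * N * (σ + h) ≤ G1 - G0) (hgap : 2 * N * σ ≤ h / 2) :
    N * M (Set.Ico u (u + 2 * h)) ≤ 4 * (M (Set.Ico G0 G1) + N ^ 2 * Err) := by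
  have hh := D.hh
  have h1 : M (Set.Ico u (u + 2 * h)) ≤
      ∑ i ∈ range 4, M (Set.Ico (u + (i : ℕ) * (h / 2)) (u + ((i : ℕ) + 1) * (h / 2))) := by
    refine D.le_sum hM (range 4)
      (fun i : ℕ => Set.Ico (u + (i : ℕ) * (h / 2)) (u + ((i : ℕ) + 1) * (h / 2))) _ ?_
    intro t ht
    have t1 := ht.1
    have t2 := ht.2
    simp only [Set.mem_iUnion, mem_range, Set.mem_Ico, exists_prop]
    rcases lt_or_ge t (u + 1 * (h / 2)) with g1 | g1
    · exact ⟨0, by norm_num, by push_cast; linarith, by push_cast; linarith⟩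
    rcases lt_or_ge t (u + 2 * (h / 2)) with g2 | g2
    · exact ⟨1, by norm_num, by push_cast; linarith, by push_cast; linarith⟩
    rcases lt_or_ge t (u + 3 * (h / 2)) with g3 | g3
    · exact ⟨2, by norm_num, by push_cast; linarith, by push_cast; linarith⟩
    · exact ⟨3, by norm_num, by push_cast; linarith, by push_cast; linarith⟩
  have h2 : ∀ i ∈ range 4, N * M (Set.Ico (u + (i : ℕ) * (h / 2)) (u + ((i : ℕ) + 1) * (h / 2))) ≤
      M (Set.Ico G0 G1) + N ^ 2 * Err := by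
    intro i hi
    have hi4 : (i : ℝ) + 1 ≤ 4 := by
      have : i + 1 ≤ 4 := by have := mem_range.mp hi; omega
      exact_mod_cast this
    have hi0 : (0 : ℝ) ≤ i := Nat.cast_nonneg i
    refine D.fill N _ _ G0 G1 hG0 hG1 (by nlinarith) (by nlinarith) (by linarith) (by linarith)
  have h3 := sum_le_sum h2
  rw [← mul_sum, sum_const, card_range, nsmul_eq_mul] at h3
  have h4 : (N : ℝ) * M (Set.Ico u (u + 2 * h)) ≤
      N * ∑ i ∈ range 4, M (Set.Ico (u + (i : ℕ) * (h / 2)) (u + ((i : ℕ) + 1) * (h / 2))) :=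
    mul_le_mul_of_nonneg_left h1 (Nat.cast_nonneg N)
  push_cast at h3 ⊢
  linarith

/-- the zone of width `4 h` around `t` -/
def Zone (h t : ℝ) : Set ℝ := Set.Ico (t - 2 * h) (t + 2 * h)

lemma QInv.zone' (D : QInv M K0 K1 h σ Err) (hM : M ∅ = 0) (N : ℕ) (t G0 G1 : ℝ) (hG0 : K0 ≤ G0)
    (hG1 : G1 ≤ K1) (ha : G0 ≤ t - 2 * h) (hb : t + 2 * h ≤ G1)
    (hroom : h / 2 + 2 * N * (σ + h) ≤ G1 - G0) (hgap : 2 * N * σ ≤ h / 2) :
    N * M (Zone h t) ≤ 8 * (M (Set.Ico G0 G1) + N ^ 2 * Err) := by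
  have hh := D.hh
  have h1 := D.zone hM N (t - 2 * h) G0 G1 hG0 hG1 ha (by linarith) hroom hgap
  have h2 := D.zone hM N t G0 G1 hG0 hG1 (by linarith) hb hroom hgap
  have h3 : Zone h t ⊆ Set.Ico (t - 2 * h) (t - 2 * h + 2 * h) ∪ Set.Ico t (t + 2 * h) := by
    intro x hx
    rcases lt_or_ge x t with g | g
    · left; exact ⟨hx.1, by linarith⟩
    · right; exact ⟨g, hx.2⟩
  have h4 := (D.mono _ _ h3).trans (D.sub _ _)
  have h5 := mul_le_mul_of_nonneg_left h4 (Nat.cast_nonneg (α := ℝ) N)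
  linarith

/-- neighbouring cells `[t - ℓ, t)` and `[t, t + ℓ)` -/
theorem QInv.halves (D : QInv M K0 K1 h σ Err) (ℓ t : ℝ) (hℓ : 0 < ℓ)
    (hσℓ : ℓ * σ ≤ h ^ 2) (h0 : K0 ≤ t - ℓ - 2 * h) (h1 : t + ℓ + 2 * h ≤ K1) :
    |M (Set.Ico (t - ℓ) t) - M (Set.Ico t (t + ℓ))| ≤
      M (Zone h (t - ℓ)) + M (Zone h t) + M (Zone h (t + ℓ)) + (ℓ / h) * Err := by
  have hh := D.hh
  have hσ := D.hσ
  set j : ℕ := ⌊ℓ / h⌋₊ with hj
  have hj1 : (j : ℝ) ≤ ℓ / h := Nat.floor_le (by positivity)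
  have hj2 : ℓ / h < (j : ℝ) + 1 := Nat.lt_floor_add_one _
  have hj3 : (j : ℝ) * h ≤ ℓ := by
    have := mul_le_mul_of_nonneg_right hj1 hh.le
    rwa [div_mul_cancel₀ _ hh.ne'] at this
  have hj4 : ℓ ≤ (j : ℝ) * h + h := by
    have := mul_le_mul_of_nonneg_right hj2.le hh.le
    rw [div_mul_cancel₀ _ hh.ne'] at this
    linarith
  have hj0 : (0 : ℝ) ≤ j := Nat.cast_nonneg j
  have hj5 : (j : ℝ) * σ ≤ h := by
    have e1 : (j : ℝ) * σ * h ≤ ℓ * σ := by nlinarith
    have e2 : (j : ℝ) * σ * h ≤ h * h := by nlinarith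
    exact le_of_mul_le_mul_right e2 hh
  have hErr := D.hErr
  have hjE : (j : ℝ) * Err ≤ (ℓ / h) * Err := mul_le_mul_of_nonneg_right hj1 hErr
  have z1 := D.nonneg (Zone h (t - ℓ))
  have z2 := D.nonneg (Zone h (t + ℓ))
  -- to the right
  have r1 := D.right j (t - ℓ) t (by linarith) (by nlinarith)
  have r2 : Set.Ico (t - ℓ - j * σ + j * h) (t + j * σ + j * h) ⊆
      (Zone h t ∪ Zone h (t + ℓ)) ∪ Set.Ico t (t + ℓ) := by
    intro x hx
    have x1 := hx.1
    have x2 := hx.2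
    rcases lt_or_ge x t with g | g
    · left; left; exact ⟨by linarith, by linarith⟩
    · rcases lt_or_ge x (t + ℓ) with g' | g'
      · right; exact ⟨g, g'⟩
      · left; right; exact ⟨by linarith, by linarith⟩
  have r3 := (D.mono _ _ r2).trans ((D.sub _ _).trans (add_le_add_left (D.sub _ _) _))
  -- to the left
  have l1 := D.left j t (t + ℓ) (by nlinarith) (by linarith)
  have l2 : Set.Ico (t - j * σ - j * h) (t + ℓ + j * σ - j * h) ⊆
      (Zone h (t - ℓ) ∪ Zone h t) ∪ Set.Ico (t - ℓ) t := by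
    intro x hx
    have x1 := hx.1
    have x2 := hx.2
    rcases lt_or_ge x (t - ℓ) with g | g
    · left; left; exact ⟨by linarith, by linarith⟩
    · rcases lt_or_ge x t with g' | g'
      · right; exact ⟨g, g'⟩
      · left; right; exact ⟨by linarith, by linarith⟩
  have l3 := (D.mono _ _ l2).trans ((D.sub _ _).trans (add_le_add_left (D.sub _ _) _))
  rw [abs_le]
  constructor
  · linarith
  · linarith

/-- **FAIR**, abstract form: neighbouring cells of the grid `g + ℤ ℓ` have almost equal masses -/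
theorem QInv.fair (D : QInv M K0 K1 h σ Err) (hM : M ∅ = 0) (ℓ g : ℝ) (m N : ℕ)
    (hℓ : 4 * h ≤ ℓ) (hσℓ : 4 * ℓ * σ ≤ h ^ 2) (hN : 4 * N * h ≤ ℓ)
    (h0 : K0 + ℓ ≤ g) (h1 : g + (m + 2) * ℓ + ℓ ≤ K1) :
    N * ∑ n ∈ range (m + 1), |M (Set.Ico (g + n * ℓ) (g + (n + 1) * ℓ)) -
        M (Set.Ico (g + (n + 1) * ℓ) (g + (n + 2) * ℓ))| ≤
      24 * M (Set.Ico K0 K1) + 24 * (m + 3) * N ^ 2 * Err + (m + 1) * N * (ℓ / h) * Err := by
  have hh := D.hh
  have hσ := D.hσ
  have hErr := D.hErr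
  have hN0 : (0 : ℝ) ≤ N := Nat.cast_nonneg N
  have hℓ0 : 0 < ℓ := by linarith
  -- numeric facts
  have hNσ : 2 * N * σ ≤ h / 8 := by
    have e1 : 2 * N * σ * h * 8 ≤ h * h := by nlinarith
    have e2 : (2 * N * σ * 8) * h ≤ h * h := by linarith
    have := le_of_mul_le_mul_right e2 hh
    linarith
  have hroom : h / 2 + 2 * N * (σ + h) ≤ ℓ := by nlinarith
  -- the cells `G n = [g + n ℓ - ℓ/2, g + n ℓ + ℓ/2)`
  set z : ℕ → ℝ := fun n => M (Zone h (g + n * ℓ)) with hz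
  have hzn : ∀ n ∈ range (m + 3), N * z n ≤
      8 * (M (Set.Ico (g + n * ℓ - ℓ / 2) (g + n * ℓ + ℓ / 2)) + N ^ 2 * Err) := by
    intro n hn
    have hn1 : (n : ℝ) ≤ m + 2 := by
      have : n ≤ m + 2 := by have := mem_range.mp hn; omega
      exact_mod_cast this
    have hn0 : (0 : ℝ) ≤ n := Nat.cast_nonneg n
    have e1 : (n : ℝ) * ℓ ≤ (m + 2) * ℓ := mul_le_mul_of_nonneg_right hn1 hℓ0.le
    have e2 : 0 ≤ (n : ℝ) * ℓ := by positivity
    refine D.zone' hM N _ _ _ (by linarith) (by linarith) (by linarith) (by linarith)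
      (by linarith) (by linarith)
  have hG : ∑ n ∈ range (m + 3), M (Set.Ico (g + n * ℓ - ℓ / 2) (g + n * ℓ + ℓ / 2)) ≤
      M (Set.Ico K0 K1) := by
    refine D.sum_le (range (m + 3))
      (fun n : ℕ => Set.Ico (g + n * ℓ - ℓ / 2) (g + n * ℓ + ℓ / 2)) _ ?_ ?_
    · intro n hn t ht
      have hn1 : (n : ℝ) ≤ m + 2 := by
        have : n ≤ m + 2 := by have := mem_range.mp hn; omega
        exact_mod_cast this
      have hn0 : (0 : ℝ) ≤ n := Nat.cast_nonneg n
      have e1 : (n : ℝ) * ℓ ≤ (m + 2) * ℓ := mul_le_mul_of_nonneg_right hn1 hℓ0.le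
      have e2 : 0 ≤ (n : ℝ) * ℓ := by positivity
      exact ⟨by linarith [ht.1], by linarith [ht.2]⟩
    · intro i hi j hj hij
      wlog hlt : i < j generalizing i j
      · exact (this j hj i hi (Ne.symm hij) (by omega)).symm
      rw [Set.disjoint_left]
      intro t ht ht'
      have hi1 : (i : ℝ) + 1 ≤ j := by exact_mod_cast hlt
      have t2 := ht.2
      have t3 := ht'.1
      nlinarith
  have hZ : N * ∑ n ∈ range (m + 3), z n ≤ 8 * (M (Set.Ico K0 K1) + (m + 3) * (N ^ 2 * Err)) := by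
    rw [mul_sum]
    refine (sum_le_sum hzn).trans ?_
    rw [← mul_sum, sum_add_distrib, sum_const, card_range, nsmul_eq_mul]
    push_cast
    linarith
  -- the main bound
  have hmain : ∀ n ∈ range (m + 1), |M (Set.Ico (g + n * ℓ) (g + (n + 1) * ℓ)) -
        M (Set.Ico (g + (n + 1) * ℓ) (g + (n + 2) * ℓ))| ≤
        z n + z (n + 1) + z (n + 2) + (ℓ / h) * Err := by
    intro n hn
    have hn1 : (n : ℝ) ≤ m := by
      have : n ≤ m := by have := mem_range.mp hn; omega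
      exact_mod_cast this
    have hn0 : (0 : ℝ) ≤ n := Nat.cast_nonneg n
    have e1 : (n : ℝ) * ℓ ≤ m * ℓ := mul_le_mul_of_nonneg_right hn1 hℓ0.le
    have e2 : 0 ≤ (n : ℝ) * ℓ := by positivity
    have e3 := D.halves ℓ (g + (n + 1) * ℓ) hℓ0 (by nlinarith) (by linarith) (by linarith)
    have e4 : g + ((n : ℝ) + 1) * ℓ - ℓ = g + n * ℓ := by ring
    have e5 : g + ((n : ℝ) + 1) * ℓ + ℓ = g + (n + 2) * ℓ := by ring
    rw [e4, e5] at e3
    simp only [hz]
    push_cast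
    exact e3
  have hs1 : ∑ n ∈ range (m + 1), z n ≤ ∑ n ∈ range (m + 3), z n :=
    sum_le_sum_of_subset_of_nonneg (range_subset_range.mpr (by omega)) fun _ _ _ => D.nonneg _
  have hs2 : ∑ n ∈ range (m + 1), z (n + 1) ≤ ∑ n ∈ range (m + 3), z n := by
    rw [sum_range_succ' z (m + 2)]
    have : ∑ n ∈ range (m + 1), z (n + 1) ≤ ∑ n ∈ range (m + 2), z (n + 1) :=
      sum_le_sum_of_subset_of_nonneg (range_subset_range.mpr (by omega)) fun _ _ _ => D.nonneg _
    have h0 : 0 ≤ z 0 := D.nonneg _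
    linarith
  have hs3 : ∑ n ∈ range (m + 1), z (n + 2) ≤ ∑ n ∈ range (m + 3), z n := by
    rw [sum_range_succ' z (m + 2), sum_range_succ' (fun n => z (n + 1)) (m + 1)]
    have h0 : 0 ≤ z 0 := D.nonneg _
    have h0' : 0 ≤ z (0 + 1) := D.nonneg _
    have : ∑ n ∈ range (m + 1), z (n + 1 + 1) = ∑ n ∈ range (m + 1), z (n + 2) := rfl
    linarith
  have hsum := sum_le_sum hmain
  rw [sum_add_distrib, sum_add_distrib, sum_add_distrib, sum_const, card_range,
    nsmul_eq_mul] at hsum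
  have hfin := mul_le_mul_of_nonneg_left hsum hN0
  push_cast at hfin
  have hs4 : N * (∑ n ∈ range (m + 1), z n + ∑ n ∈ range (m + 1), z (n + 1) +
      ∑ n ∈ range (m + 1), z (n + 2)) ≤ N * (3 * ∑ n ∈ range (m + 3), z n) :=
    mul_le_mul_of_nonneg_left (by linarith) hN0
  nlinarith

end Vale.Agent.P065.H819
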