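import Vale.Agent.P065.H819.Hell
import Vale.Agent.P065.H819.Shift

/-!
# P065, package FAIR, part 3: the local fairness lemma, in relative form

`FBox`: a box `R` of rows inside a larger cell `L`, two slopes `e₁, e₂`, heights `b = c + e x` up to
`s`.  `GoodAt x e κ`: at the time digit `x` and the slope `e`, the law of the line cells `C` at the
time `x` and the law of the row cells `B` at the slope `e` have relative errors at most `κ`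
(relative to `p x` and to the mass of `(e, R)`).  Then the law of the rows at the time `x₁` is
quasi-invariant under the translation by `(e₁ - e₂) (x₂ - x₁)`, and neighbouring cells have almost
the same mass.
-/

set_option autoImplicit false

open Finset Real

noncomputable section

namespace Vale.Agent.P065.H819

open Vale.Agent.P065.Ent

variable {Ω : Type*} [Fintype Ω] {ξ ε η₁ η₂ : Type*}

lemma PE_add {μ : Ω → ℝ} (A B : Ω → Prop) (h : ∀ ω, A ω → ¬ B ω) :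
    PE μ A + PE μ B = PE μ (fun ω => A ω ∨ B ω) := by
  classical
  rw [PE_def, PE_def, PE_def, ← sum_add_distrib]
  refine sum_congr rfl fun ω _ => ?_
  by_cases ha : A ω
  · simp [ha, h ω ha]
  · simp [ha]

lemma PE_or_le {μ : Ω → ℝ} (hμ : IsProb μ) (A B : Ω → Prop) :
    PE μ (fun ω => A ω ∨ B ω) ≤ PE μ A + PE μ B := by
  classical
  rw [PE_def, PE_def, PE_def, ← sum_add_distrib]
  refine sum_le_sum fun ω _ => ?_
  have := hμ.nonneg ω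
  by_cases ha : A ω <;> by_cases hb : B ω <;> simp [ha, hb, this]

lemma PE_false {μ : Ω → ℝ} {A : Ω → Prop} (h : ∀ ω, ¬ A ω) : PE μ A = 0 := by
  classical
  rw [PE_def]
  exact sum_eq_zero fun ω _ => if_neg (h ω)

/-- the geometric data of a box -/
structure FBox (μ : Ω → ℝ) (X : Ω → ξ) (E : Ω → ε) (C : Ω → η₁) (B : Ω → η₂) (xh : ξ → ℝ)
    (eh : ε → ℝ) (ch : η₁ → ℝ) (bh : η₂ → ℝ) (L R : Ω → Prop) (J0 J1 s : ℝ) (e₁ e₂ : ε) :
    Prop where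
  prob : IsProb μ
  s0 : 0 ≤ s
  rel : ∀ ω, L ω → (E ω = e₁ ∨ E ω = e₂) → |bh (B ω) - (ch (C ω) + eh (E ω) * xh (X ω))| ≤ s
  RL : ∀ ω, R ω → L ω
  LR : ∀ ω, L ω → (E ω = e₁ ∨ E ω = e₂) → bh (B ω) ∈ Set.Icc J0 J1 → R ω
  posR : 0 < PE μ R

/-- the relative error at the time digit `x` and the slope `e` is at most `κ` -/
structure GoodAt (μ : Ω → ℝ) (X : Ω → ξ) (E : Ω → ε) (C : Ω → η₁) (B : Ω → η₂) (xh : ξ → ℝ)
    (eh : ε → ℝ) (ch : η₁ → ℝ) (bh : η₂ → ℝ) (L R : Ω → Prop) (J0 J1 : ℝ) (p : ξ → ℝ) (κ : ℝ)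
    (x : ξ) (e : ε) : Prop where
  posF : 0 < PE μ (fun ω => E ω = e ∧ R ω)
  line : ∀ S : Set η₁, (∀ c ∈ S, ch c + eh e * xh x ∈ Set.Icc J0 J1) →
    |PE μ (fun ω => X ω = x ∧ E ω = e ∧ C ω ∈ S ∧ L ω) -
      p x * PE μ (fun ω => E ω = e ∧ C ω ∈ S ∧ L ω)| ≤
      κ * p x * PE μ (fun ω => E ω = e ∧ R ω)
  point : ∀ A : Set ℝ, A ⊆ Set.Icc J0 J1 →
    |PE μ (fun ω => X ω = x ∧ bh (B ω) ∈ A ∧ E ω = e ∧ R ω) -
      PE μ (fun ω => X ω = x ∧ bh (B ω) ∈ A ∧ R ω) * PE μ (fun ω => E ω = e ∧ R ω) / PE μ R| ≤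
      κ * p x * PE μ (fun ω => E ω = e ∧ R ω)

section
variable {μ : Ω → ℝ} {X : Ω → ξ} {E : Ω → ε} {C : Ω → η₁} {B : Ω → η₂} {xh : ξ → ℝ}
    {eh : ε → ℝ} {ch : η₁ → ℝ} {bh : η₂ → ℝ} {L R : Ω → Prop} {J0 J1 s : ℝ} {e₁ e₂ : ε}
    {p : ξ → ℝ} {κ : ℝ}

lemma FBox.swap (D : FBox μ X E C B xh eh ch bh L R J0 J1 s e₁ e₂) :
    FBox μ X E C B xh eh ch bh L R J0 J1 s e₂ e₁ :=
  ⟨D.prob, D.s0, fun ω h h' => D.rel ω h h'.symm, D.RL, fun ω h h' => D.LR ω h h'.symm, D.posR⟩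

/-- from time `x₁` to time `x₂` along lines of slope `e₁`:
`m₁ [a, b) / (q p₁) ≤ m₂ [a - 2 s + δ, b + 2 s + δ) / (q p₂) + 4 κ` -/
theorem FBox.half (D : FBox μ X E C B xh eh ch bh L R J0 J1 s e₁ e₂) {x₁ x₂ : ξ}
    (g1 : GoodAt μ X E C B xh eh ch bh L R J0 J1 p κ x₁ e₁)
    (g2 : GoodAt μ X E C B xh eh ch bh L R J0 J1 p κ x₂ e₁)
    (hp1 : 0 < p x₁) (hp2 : 0 < p x₂) (a b δ : ℝ) (hδ : δ = eh e₁ * (xh x₂ - xh x₁))
    (h1 : J0 ≤ a - s) (h2 : b + s ≤ J1) (h3 : J0 ≤ a - 2 * s + δ) (h4 : b + 2 * s + δ ≤ J1) :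
    PE μ (fun ω => X ω = x₁ ∧ bh (B ω) ∈ Set.Ico a b ∧ R ω) / (PE μ R * p x₁) ≤
      PE μ (fun ω => X ω = x₂ ∧ bh (B ω) ∈ Set.Ico (a - 2 * s + δ) (b + 2 * s + δ) ∧ R ω) /
        (PE μ R * p x₂) + 4 * κ := by
  have hμ := D.prob
  have hs := D.s0
  have hq := D.posR
  have hF := g1.posF
  set q := PE μ R with hqd
  set F := PE μ (fun ω => E ω = e₁ ∧ R ω) with hFd
  set S : Set η₁ := {c | ch c + eh e₁ * xh x₁ ∈ Set.Ico (a - s) (b + s)} with hS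
  set A'' : Set ℝ := Set.Ico (a - 2 * s + δ) (b + 2 * s + δ) with hA''
  have hsx : eh e₁ * xh x₂ = eh e₁ * xh x₁ + δ := by rw [hδ]; ring
  -- (1)
  have k1 := g1.point (Set.Ico a b) fun t ht => ⟨by linarith [ht.1], by linarith [ht.2]⟩
  set m1 := PE μ (fun ω => X ω = x₁ ∧ bh (B ω) ∈ Set.Ico a b ∧ R ω) with hm1
  set u := PE μ (fun ω => X ω = x₁ ∧ bh (B ω) ∈ Set.Ico a b ∧ E ω = e₁ ∧ R ω) with hu
  -- (2)
  have k2 : u ≤ PE μ (fun ω => X ω = x₁ ∧ E ω = e₁ ∧ C ω ∈ S ∧ L ω) := by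
    refine PE_mono hμ fun ω h => ?_
    obtain ⟨hX, hB, hE, hR⟩ := h
    refine ⟨hX, hE, ?_, D.RL ω hR⟩
    have hr := abs_le.mp (D.rel ω (D.RL ω hR) (Or.inl hE))
    rw [hX, hE] at hr
    exact ⟨by linarith [hr.1, hr.2, hB.1, hB.2], by linarith [hr.1, hr.2, hB.1, hB.2]⟩
  -- (3)
  have k3 := g1.line S fun c hc => ⟨by linarith [hc.1], by linarith [hc.2]⟩
  have k4 := g2.line S fun c hc => by
    rw [hsx]; exact ⟨by linarith [hc.1], by linarith [hc.2]⟩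
  set v1 := PE μ (fun ω => X ω = x₁ ∧ E ω = e₁ ∧ C ω ∈ S ∧ L ω) with hv1
  set v2 := PE μ (fun ω => X ω = x₂ ∧ E ω = e₁ ∧ C ω ∈ S ∧ L ω) with hv2
  set w := PE μ (fun ω => E ω = e₁ ∧ C ω ∈ S ∧ L ω) with hw
  -- (4)
  have k5 : v2 ≤ PE μ (fun ω => X ω = x₂ ∧ bh (B ω) ∈ A'' ∧ E ω = e₁ ∧ R ω) := by
    refine PE_mono hμ fun ω h => ?_
    obtain ⟨hX, hE, hC, hL⟩ := h
    have hr := abs_le.mp (D.rel ω hL (Or.inl hE))
    rw [hX, hE, hsx] at hr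
    have hC1 := hC.1
    have hC2 := hC.2
    have hB : bh (B ω) ∈ A'' :=
      ⟨by linarith [hr.1, hr.2], by linarith [hr.1, hr.2]⟩
    exact ⟨hX, hB, hE, D.LR ω hL (Or.inl hE) ⟨by linarith [hB.1], by linarith [hB.2]⟩⟩
  -- (5)
  have k6 := g2.point A'' fun t ht => ⟨by linarith [ht.1], by linarith [ht.2]⟩
  set u2 := PE μ (fun ω => X ω = x₂ ∧ bh (B ω) ∈ A'' ∧ E ω = e₁ ∧ R ω) with hu2
  set m2 := PE μ (fun ω => X ω = x₂ ∧ bh (B ω) ∈ A'' ∧ R ω) with hm2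
  have k1' := (abs_le.mp k1).1
  have k3' := (abs_le.mp k3).2
  have k4' := (abs_le.mp k4).1
  have k6' := (abs_le.mp k6).2
  -- normalise
  have l1 : m1 / (q * p x₁) ≤ u / (F * p x₁) + κ := by
    rw [div_le_iff₀ (by positivity)]
    have : m1 * F / q ≤ u + κ * p x₁ * F := by linarith
    rw [div_le_iff₀ hq] at this
    have e : (u / (F * p x₁) + κ) * (q * p x₁) = ((u + κ * p x₁ * F) * q) / F := by
      field_simp
    rw [e, le_div_iff₀ hF]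
    exact this
  have l2 : u / (F * p x₁) ≤ v1 / (F * p x₁) := div_le_div_of_nonneg_right k2 (by positivity)
  have l3 : v1 / (F * p x₁) ≤ w / F + κ := by
    rw [div_le_iff₀ (by positivity)]
    have e : (w / F + κ) * (F * p x₁) = p x₁ * w + κ * p x₁ * F := by field_simp
    rw [e]; linarith
  have l4 : w / F ≤ v2 / (F * p x₂) + κ := by
    rw [div_le_iff₀ hF]
    have e : (v2 / (F * p x₂) + κ) * F = (v2 + κ * p x₂ * F) / p x₂ := by field_simp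
    rw [e, le_div_iff₀ hp2]
    linarith
  have l5 : v2 / (F * p x₂) ≤ u2 / (F * p x₂) := div_le_div_of_nonneg_right k5 (by positivity)
  have l6 : u2 / (F * p x₂) ≤ m2 / (q * p x₂) + κ := by
    rw [div_le_iff₀ (by positivity)]
    have e : (m2 / (q * p x₂) + κ) * (F * p x₂) = m2 * F / q + κ * p x₂ * F := by
      field_simp
    rw [e]; linarith
  linarith

/-- **(QI), relative form** -/
theorem FBox.qi (D : FBox μ X E C B xh eh ch bh L R J0 J1 s e₁ e₂) {x₁ x₂ : ξ}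
    (g11 : GoodAt μ X E C B xh eh ch bh L R J0 J1 p κ x₁ e₁)
    (g21 : GoodAt μ X E C B xh eh ch bh L R J0 J1 p κ x₂ e₁)
    (g12 : GoodAt μ X E C B xh eh ch bh L R J0 J1 p κ x₁ e₂)
    (g22 : GoodAt μ X E C B xh eh ch bh L R J0 J1 p κ x₂ e₂)
    (hp1 : 0 < p x₁) (hp2 : 0 < p x₂) (a b δ h : ℝ) (hδ : δ = eh e₁ * (xh x₂ - xh x₁))
    (hh : h = (eh e₁ - eh e₂) * (xh x₂ - xh x₁))
    (h1 : J0 ≤ a - s) (h2 : b + s ≤ J1) (h3 : J0 ≤ a - 3 * s + δ) (h4 : b + 3 * s + δ ≤ J1)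
    (h5 : J0 ≤ a - 4 * s + h) (h6 : b + 4 * s + h ≤ J1) :
    PE μ (fun ω => X ω = x₁ ∧ bh (B ω) ∈ Set.Ico a b ∧ R ω) ≤
      PE μ (fun ω => X ω = x₁ ∧ bh (B ω) ∈ Set.Ico (a - 4 * s + h) (b + 4 * s + h) ∧ R ω) +
        8 * κ * (PE μ R * p x₁) := by
  have hs := D.s0
  have d1 := D.half g11 g21 hp1 hp2 a b δ hδ h1 h2 (by linarith) (by linarith)
  have eq1 : a - 2 * s + δ - 2 * s + eh e₂ * (xh x₁ - xh x₂) = a - 4 * s + h := by
    rw [hδ, hh]; ring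
  have eq2 : b + 2 * s + δ + 2 * s + eh e₂ * (xh x₁ - xh x₂) = b + 4 * s + h := by
    rw [hδ, hh]; ring
  have d2 := D.swap.half g22 g12 hp2 hp1 (a - 2 * s + δ) (b + 2 * s + δ)
    (eh e₂ * (xh x₁ - xh x₂)) rfl (by linarith) (by linarith) (by rw [eq1]; exact h5)
    (by rw [eq2]; exact h6)
  rw [eq1, eq2] at d2
  have hpos : 0 < PE μ R * p x₁ := mul_pos D.posR hp1
  have d3 := d1.trans (add_le_add_left d2 (4 * κ))
  rw [div_le_iff₀ hpos] at d3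
  refine d3.trans (le_of_eq ?_)
  rw [add_mul, add_mul, div_mul_cancel₀ _ hpos.ne']
  ring

/-- the set function `A ↦ μ (X = x₁, b ∈ A, R)` -/
def Mx (μ : Ω → ℝ) (X : Ω → ξ) (B : Ω → η₂) (bh : η₂ → ℝ) (R : Ω → Prop) (x : ξ)
    (A : Set ℝ) : ℝ := PE μ (fun ω => X ω = x ∧ bh (B ω) ∈ A ∧ R ω)

/-- **(QI)** in the form used by the abstract lemmas -/
theorem FBox.qinv (D : FBox μ X E C B xh eh ch bh L R J0 J1 s e₁ e₂) (hκ : 0 ≤ κ) {x₁ x₂ : ξ}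
    (g11 : GoodAt μ X E C B xh eh ch bh L R J0 J1 p κ x₁ e₁)
    (g21 : GoodAt μ X E C B xh eh ch bh L R J0 J1 p κ x₂ e₁)
    (g12 : GoodAt μ X E C B xh eh ch bh L R J0 J1 p κ x₁ e₂)
    (g22 : GoodAt μ X E C B xh eh ch bh L R J0 J1 p κ x₂ e₂)
    (hp1 : 0 < p x₁) (hp2 : 0 < p x₂) {K0 K1 h w : ℝ}
    (hh : h = |(eh e₁ - eh e₂) * (xh x₂ - xh x₁)|) (hh0 : 0 < h) (hsh : 4 * s ≤ h)
    (hw1 : |eh e₁ * (xh x₂ - xh x₁)| ≤ w) (hw2 : |eh e₂ * (xh x₂ - xh x₁)| ≤ w)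
    (hK0 : J0 + 3 * s + w ≤ K0) (hK1 : K1 + 3 * s + w ≤ J1) :
    QInv (Mx μ X B bh R x₁) K0 K1 h (4 * s) (8 * κ * (PE μ R * p x₁)) := by
  have hμ := D.prob
  have hs := D.s0
  have hw0 : 0 ≤ w := (abs_nonneg _).trans hw1
  have w1 := abs_le.mp hw1
  have w2 := abs_le.mp hw2
  have hErr : 0 ≤ 8 * κ * (PE μ R * p x₁) := by
    have := PE_nonneg hμ R
    positivity
  -- shifts in both directions, signed
  have main : ∀ (h' : ℝ), (h' = (eh e₁ - eh e₂) * (xh x₂ - xh x₁) ∨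
      h' = (eh e₂ - eh e₁) * (xh x₂ - xh x₁)) → ∀ a b, K0 ≤ a → b ≤ K1 → K0 ≤ a - 4 * s + h' →
      b + 4 * s + h' ≤ K1 → Mx μ X B bh R x₁ (Set.Ico a b) ≤
        Mx μ X B bh R x₁ (Set.Ico (a - 4 * s + h') (b + 4 * s + h')) +
          8 * κ * (PE μ R * p x₁) := by
    rintro h' (hh' | hh') a b h1 h2 h3 h4
    · exact D.qi g11 g21 g12 g22 hp1 hp2 a b _ h' rfl hh' (by linarith) (by linarith)
        (by linarith [w1.1]) (by linarith [w1.2]) (by linarith) (by linarith)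
    · exact D.swap.qi g12 g22 g11 g21 hp1 hp2 a b _ h' rfl hh' (by linarith) (by linarith)
        (by linarith [w2.1]) (by linarith [w2.2]) (by linarith) (by linarith)
  have hsign : (h = (eh e₁ - eh e₂) * (xh x₂ - xh x₁) ∧
      -h = (eh e₂ - eh e₁) * (xh x₂ - xh x₁)) ∨ (h = (eh e₂ - eh e₁) * (xh x₂ - xh x₁) ∧
      -h = (eh e₁ - eh e₂) * (xh x₂ - xh x₁)) := by
    rcases abs_choice ((eh e₁ - eh e₂) * (xh x₂ - xh x₁)) with h' | h'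
    · left; rw [hh, h']; constructor
      · rfl
      · ring
    · right; rw [hh, h']; constructor
      · ring
      · ring
  refine ⟨fun A => PE_nonneg hμ _, ?_, ?_, ?_, hh0, by linarith, by linarith, hErr, ?_, ?_⟩
  · intro A A' h
    exact PE_mono hμ fun ω h' => ⟨h'.1, h h'.2.1, h'.2.2⟩
  · intro A A'
    refine le_trans (le_of_eq ?_) (PE_or_le hμ _ _)
    refine PE_congr fun ω => ?_
    simp only [Set.mem_union]
    tauto
  · intro A A' h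
    refine le_of_eq ?_
    unfold Mx
    rw [PE_add]
    · refine PE_congr fun ω => ?_
      simp only [Set.mem_union]
      tauto
    · intro ω h1 h2
      exact Set.disjoint_left.mp h h1.2.1 h2.2.1
  · intro a b h1 h2
    exact main h (by rcases hsign with h' | h'; exacts [Or.inl h'.1, Or.inr h'.1]) a b h1
      (by linarith) (by linarith) h2
  · intro a b h1 h2
    have h3 := main (-h) (by rcases hsign with h' | h'; exacts [Or.inr h'.2, Or.inl h'.2]) a b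
      (by linarith) h2 (by linarith) (by linarith)
    exact h3

lemma Mx_empty (x : ξ) : Mx μ X B bh R x ∅ = 0 := PE_false fun _ h => h.2.1

/-- **FAIR**: neighbouring row cells of length `ℓ` have almost equal masses at the time `x₁` -/
theorem FBox.fair (D : FBox μ X E C B xh eh ch bh L R J0 J1 s e₁ e₂) (hκ : 0 ≤ κ) {x₁ x₂ : ξ}
    (g11 : GoodAt μ X E C B xh eh ch bh L R J0 J1 p κ x₁ e₁)
    (g21 : GoodAt μ X E C B xh eh ch bh L R J0 J1 p κ x₂ e₁)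
    (g12 : GoodAt μ X E C B xh eh ch bh L R J0 J1 p κ x₁ e₂)
    (g22 : GoodAt μ X E C B xh eh ch bh L R J0 J1 p κ x₂ e₂)
    (hp1 : 0 < p x₁) (hp2 : 0 < p x₂) {h w : ℝ}
    (hh : h = |(eh e₁ - eh e₂) * (xh x₂ - xh x₁)|) (hh0 : 0 < h)
    (hw1 : |eh e₁ * (xh x₂ - xh x₁)| ≤ w) (hw2 : |eh e₂ * (xh x₂ - xh x₁)| ≤ w)
    (ℓ g : ℝ) (m N : ℕ) (hℓ : 4 * h ≤ ℓ) (hsℓ : 16 * ℓ * s ≤ h ^ 2) (hN : 4 * N * h ≤ ℓ)
    (h0 : J0 + 3 * s + w + ℓ ≤ g) (h1 : g + (m + 2) * ℓ + ℓ + 3 * s + w ≤ J1) :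
    N * ∑ n ∈ range (m + 1), |Mx μ X B bh R x₁ (Set.Ico (g + n * ℓ) (g + (n + 1) * ℓ)) -
        Mx μ X B bh R x₁ (Set.Ico (g + (n + 1) * ℓ) (g + (n + 2) * ℓ))| ≤
      24 * PE μ (fun ω => X ω = x₁ ∧ R ω) + (24 * (m + 3) * N ^ 2 + (m + 1) * N * (ℓ / h)) *
        (8 * κ * (PE μ R * p x₁)) := by
  have hs := D.s0
  have hμ := D.prob
  have hsh : 4 * s ≤ h := by
    have e1 : 16 * (4 * h) * s ≤ h ^ 2 := by nlinarith
    have e2 : (64 * s) * h ≤ h * h := by nlinarith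
    have := le_of_mul_le_mul_right e2 hh0
    linarith
  have Q := D.qinv hκ g11 g21 g12 g22 hp1 hp2 (K0 := J0 + 3 * s + w) (K1 := J1 - 3 * s - w)
    hh hh0 hsh hw1 hw2 le_rfl (by linarith)
  have h2 := Q.fair (Mx_empty x₁) ℓ g m N hℓ (by linarith) hN h0 (by linarith)
  have h3 : Mx μ X B bh R x₁ (Set.Ico (J0 + 3 * s + w) (J1 - 3 * s - w)) ≤
      PE μ (fun ω => X ω = x₁ ∧ R ω) := PE_mono hμ fun ω h => ⟨h.1, h.2.2⟩
  refine h2.trans ?_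
  nlinarith

/-- **FILL**, relative form: an interval shorter than `h` is light at the time `x₁` -/
theorem FBox.fill (D : FBox μ X E C B xh eh ch bh L R J0 J1 s e₁ e₂) (hκ : 0 ≤ κ) {x₁ x₂ : ξ}
    (g11 : GoodAt μ X E C B xh eh ch bh L R J0 J1 p κ x₁ e₁)
    (g21 : GoodAt μ X E C B xh eh ch bh L R J0 J1 p κ x₂ e₁)
    (g12 : GoodAt μ X E C B xh eh ch bh L R J0 J1 p κ x₁ e₂)
    (g22 : GoodAt μ X E C B xh eh ch bh L R J0 J1 p κ x₂ e₂)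
    (hp1 : 0 < p x₁) (hp2 : 0 < p x₂) {h w : ℝ}
    (hh : h = |(eh e₁ - eh e₂) * (xh x₂ - xh x₁)|) (hh0 : 0 < h) (hsh : 4 * s ≤ h)
    (hw1 : |eh e₁ * (xh x₂ - xh x₁)| ≤ w) (hw2 : |eh e₂ * (xh x₂ - xh x₁)| ≤ w)
    (N : ℕ) (a b G0 G1 : ℝ) (hG0 : J0 + 3 * s + w ≤ G0) (hG1 : G1 + 3 * s + w ≤ J1)
    (ha : G0 ≤ a) (hb : b ≤ G1) (hroom : (b - a) + 2 * N * (4 * s + h) ≤ G1 - G0)
    (hgap : (b - a) + 8 * N * s ≤ h) :
    N * Mx μ X B bh R x₁ (Set.Ico a b) ≤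
      Mx μ X B bh R x₁ (Set.Ico G0 G1) + N ^ 2 * (8 * κ * (PE μ R * p x₁)) := by
  have Q := D.qinv hκ g11 g21 g12 g22 hp1 hp2 (K0 := J0 + 3 * s + w) (K1 := J1 - 3 * s - w)
    hh hh0 hsh hw1 hw2 le_rfl (by linarith)
  exact Q.fill N a b G0 G1 hG0 (by linarith) ha hb hroom (by linarith)

end

end Vale.Agent.P065.H819
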