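import Vale.Agent.P065.H819.Fair

/-!
# P065, package FAIR, part 4: small informations imply small relative errors at most time digits
-/

set_option autoImplicit false

open Finset Real

noncomputable section

namespace Vale.Agent.P065.H819

open Vale.Agent.P065.Ent

variable {Ω : Type*} [Fintype Ω] {ξ ε η₁ η₂ : Type*}

open Classical in
/-- the probability of an event as a sum over the values of a variable -/
lemma PE_sum_values {α : Type*} {μ : Ω → ℝ} (Y : Ω → α) (S : Set α) (Q : Ω → Prop) :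
    PE μ (fun ω => Y ω ∈ S ∧ Q ω) =
      ∑ y ∈ (univ.image Y).filter (fun y => y ∈ S), PE μ (fun ω => Y ω = y ∧ Q ω) := by
  rw [sum_congr rfl fun y _ => PE_def μ (fun ω => Y ω = y ∧ Q ω), sum_comm, PE_def]
  refine sum_congr rfl fun ω _ => ?_
  by_cases h : Y ω ∈ S ∧ Q ω
  · rw [if_pos h, sum_eq_single (Y ω)]
    · rw [if_pos ⟨rfl, h.2⟩]
    · intro y _ hy
      rw [if_neg fun h' => hy h'.1.symm]
    · intro h'
      exact absurd (mem_filter.mpr ⟨mem_image_of_mem Y (mem_univ ω), h.1⟩) h'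
  · rw [if_neg h]
    symm
    refine sum_eq_zero fun y hy => if_neg fun h' => h ⟨?_, h'.2⟩
    rw [h'.1]; exact (mem_filter.mp hy).2

open Classical in
/-- the part of the two informations carried by the class `A` of time digits and the slope `e` -/
structure Budget (μ : Ω → ℝ) (X : Ω → ξ) (E : Ω → ε) (C : Ω → η₁) (B : Ω → η₂) (xh : ξ → ℝ)
    (eh : ε → ℝ) (ch : η₁ → ℝ) (bh : η₂ → ℝ) (L R : Ω → Prop) (J0 J1 : ℝ) (p : ξ → ℝ)
    (A : Finset ξ) (η : ℝ) (e : ε) : Prop where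
  posF : 0 < PE μ (fun ω => E ω = e ∧ R ω)
  line : ∑ t ∈ (A ×ˢ univ.image C).filter (fun t => ch t.2 + eh e * xh t.1 ∈ Set.Icc J0 J1),
      gk (PE μ (fun ω => X ω = t.1 ∧ E ω = e ∧ C ω = t.2 ∧ L ω))
        (p t.1 * PE μ (fun ω => E ω = e ∧ C ω = t.2 ∧ L ω)) ≤
      η ^ 2 * ((∑ x ∈ A, p x) * PE μ (fun ω => E ω = e ∧ R ω))
  point : ∑ t ∈ (A ×ˢ univ.image B).filter (fun t => bh t.2 ∈ Set.Icc J0 J1),
      gk (PE μ (fun ω => X ω = t.1 ∧ B ω = t.2 ∧ E ω = e ∧ R ω))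
        (PE μ (fun ω => X ω = t.1 ∧ B ω = t.2 ∧ R ω) * PE μ (fun ω => E ω = e ∧ R ω) / PE μ R) ≤
      η ^ 2 * ((∑ x ∈ A, p x) * PE μ (fun ω => E ω = e ∧ R ω))

section
variable {μ : Ω → ℝ} {X : Ω → ξ} {E : Ω → ε} {C : Ω → η₁} {B : Ω → η₂} {xh : ξ → ℝ}
    {eh : ε → ℝ} {ch : η₁ → ℝ} {bh : η₂ → ℝ} {L R : Ω → Prop} {J0 J1 s : ℝ} {e₁ e₂ : ε}
    {p : ξ → ℝ} {κ η : ℝ}

open Classical in
/-- the error of the law of the line cells at the time digit `x` -/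
def errL (μ : Ω → ℝ) (X : Ω → ξ) (E : Ω → ε) (C : Ω → η₁) (xh : ξ → ℝ) (eh : ε → ℝ) (ch : η₁ → ℝ)
    (L : Ω → Prop) (K0 K1 : ℝ) (p : ξ → ℝ) (e : ε) (x : ξ) : ℝ :=
  ∑ c ∈ (univ.image C).filter (fun c => ch c + eh e * xh x ∈ Set.Icc K0 K1),
    |PE μ (fun ω => X ω = x ∧ E ω = e ∧ C ω = c ∧ L ω) -
      p x * PE μ (fun ω => E ω = e ∧ C ω = c ∧ L ω)|

open Classical in
/-- the error of the law of the row cells at the time digit `x` -/
def errP (μ : Ω → ℝ) (X : Ω → ξ) (E : Ω → ε) (B : Ω → η₂) (bh : η₂ → ℝ)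
    (R : Ω → Prop) (K0 K1 : ℝ) (e : ε) (x : ξ) : ℝ :=
  ∑ b ∈ (univ.image B).filter (fun b => bh b ∈ Set.Icc K0 K1),
    |PE μ (fun ω => X ω = x ∧ B ω = b ∧ E ω = e ∧ R ω) -
      PE μ (fun ω => X ω = x ∧ B ω = b ∧ R ω) * PE μ (fun ω => E ω = e ∧ R ω) / PE μ R|

lemma errL_nonneg {K0 K1 : ℝ} (e : ε) (x : ξ) : 0 ≤ errL μ X E C xh eh ch L K0 K1 p e x :=
  sum_nonneg fun _ _ => abs_nonneg _

lemma errP_nonneg {K0 K1 : ℝ} (e : ε) (x : ξ) : 0 ≤ errP μ X E B bh R K0 K1 e x :=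
  sum_nonneg fun _ _ => abs_nonneg _

lemma line_le_errL {K0 K1 : ℝ} (e : ε) (x : ξ) (S : Set η₁)
    (hS : ∀ c ∈ S, ch c + eh e * xh x ∈ Set.Icc K0 K1) :
    |PE μ (fun ω => X ω = x ∧ E ω = e ∧ C ω ∈ S ∧ L ω) -
      p x * PE μ (fun ω => E ω = e ∧ C ω ∈ S ∧ L ω)| ≤ errL μ X E C xh eh ch L K0 K1 p e x := by
  classical
  have e1 : PE μ (fun ω => X ω = x ∧ E ω = e ∧ C ω ∈ S ∧ L ω) =
      ∑ c ∈ (univ.image C).filter (fun c => c ∈ S),
        PE μ (fun ω => X ω = x ∧ E ω = e ∧ C ω = c ∧ L ω) := by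
    have h := PE_sum_values (μ := μ) C S (fun ω => X ω = x ∧ E ω = e ∧ L ω)
    rw [PE_congr (μ := μ) (B := fun ω => C ω ∈ S ∧ X ω = x ∧ E ω = e ∧ L ω) fun ω => by tauto, h]
    exact sum_congr rfl fun c _ => PE_congr fun ω => by tauto
  have e2 : PE μ (fun ω => E ω = e ∧ C ω ∈ S ∧ L ω) =
      ∑ c ∈ (univ.image C).filter (fun c => c ∈ S),
        PE μ (fun ω => E ω = e ∧ C ω = c ∧ L ω) := by
    have h := PE_sum_values (μ := μ) C S (fun ω => E ω = e ∧ L ω)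
    rw [PE_congr (μ := μ) (B := fun ω => C ω ∈ S ∧ E ω = e ∧ L ω) fun ω => by tauto, h]
    exact sum_congr rfl fun c _ => PE_congr fun ω => by tauto
  rw [e1, e2, mul_sum, ← sum_sub_distrib]
  refine (abs_sum_le_sum_abs _ _).trans ?_
  refine sum_le_sum_of_subset_of_nonneg ?_ fun _ _ _ => abs_nonneg _
  intro c hc
  obtain ⟨h1, h2⟩ := mem_filter.mp hc
  exact mem_filter.mpr ⟨h1, hS c h2⟩

lemma point_le_errP {K0 K1 : ℝ} (e : ε) (x : ξ) (A : Set ℝ) (hA : A ⊆ Set.Icc K0 K1) :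
    |PE μ (fun ω => X ω = x ∧ bh (B ω) ∈ A ∧ E ω = e ∧ R ω) -
      PE μ (fun ω => X ω = x ∧ bh (B ω) ∈ A ∧ R ω) * PE μ (fun ω => E ω = e ∧ R ω) / PE μ R| ≤
      errP μ X E B bh R K0 K1 e x := by
  classical
  have e1 : PE μ (fun ω => X ω = x ∧ bh (B ω) ∈ A ∧ E ω = e ∧ R ω) =
      ∑ b ∈ (univ.image B).filter (fun b => b ∈ bh ⁻¹' A),
        PE μ (fun ω => X ω = x ∧ B ω = b ∧ E ω = e ∧ R ω) := by
    have h := PE_sum_values (μ := μ) B (bh ⁻¹' A) (fun ω => X ω = x ∧ E ω = e ∧ R ω)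
    rw [PE_congr (μ := μ) (B := fun ω => B ω ∈ bh ⁻¹' A ∧ X ω = x ∧ E ω = e ∧ R ω)
      fun ω => by simp only [Set.mem_preimage]; tauto, h]
    exact sum_congr rfl fun c _ => PE_congr fun ω => by tauto
  have e2 : PE μ (fun ω => X ω = x ∧ bh (B ω) ∈ A ∧ R ω) =
      ∑ b ∈ (univ.image B).filter (fun b => b ∈ bh ⁻¹' A),
        PE μ (fun ω => X ω = x ∧ B ω = b ∧ R ω) := by
    have h := PE_sum_values (μ := μ) B (bh ⁻¹' A) (fun ω => X ω = x ∧ R ω)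
    rw [PE_congr (μ := μ) (B := fun ω => B ω ∈ bh ⁻¹' A ∧ X ω = x ∧ R ω)
      fun ω => by simp only [Set.mem_preimage]; tauto, h]
    exact sum_congr rfl fun c _ => PE_congr fun ω => by tauto
  rw [e1, e2, sum_mul, sum_div, ← sum_sub_distrib]
  refine (abs_sum_le_sum_abs _ _).trans ?_
  refine sum_le_sum_of_subset_of_nonneg ?_ fun _ _ _ => abs_nonneg _
  intro c hc
  obtain ⟨h1, h2⟩ := mem_filter.mp hc
  exact mem_filter.mpr ⟨h1, hA h2⟩

/-- the total error of a class of time digits, for the line cells and for the row cells -/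
theorem FBox.sum_err (D : FBox μ X E C B xh eh ch bh L R J0 J1 s e₁ e₂)
    (hp0 : ∀ x, 0 ≤ p x) (hp : ∀ x, 0 < PE μ (fun ω => X ω = x ∧ L ω) → 0 < p x)
    (A : Finset ξ) (hη : 0 ≤ η) (hη4 : η ≤ 1 / 4) {w : ℝ}
    (hw : ∀ x ∈ A, ∀ ω, L ω → |eh e₁ * (xh (X ω) - xh x)| ≤ w)
    (b1 : Budget μ X E C B xh eh ch bh L R J0 J1 p A η e₁) :
    ∑ x ∈ A, errL μ X E C xh eh ch L (J0 + w + s) (J1 - w - s) p e₁ x ≤
        3 * η * ((∑ x ∈ A, p x) * PE μ (fun ω => E ω = e₁ ∧ R ω)) ∧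
      ∑ x ∈ A, errP μ X E B bh R (J0 + w + 2 * s) (J1 - w - 2 * s) e₁ x ≤
        6 * η * ((∑ x ∈ A, p x) * PE μ (fun ω => E ω = e₁ ∧ R ω)) := by
  classical
  have hμ := D.prob
  have hs := D.s0
  rcases A.eq_empty_or_nonempty with rfl | ⟨x₀, hx₀⟩
  · simp
  have hF := b1.posF
  -- `w ≥ 0`
  have hw0 : 0 ≤ w := by
    obtain ⟨ω, hω⟩ : ∃ ω, L ω := by
      by_contra hcon
      push Not at hcon
      have := PE_false (μ := μ) (A := fun ω => E ω = e₁ ∧ R ω) fun ω h => hcon ω (D.RL ω h.2)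
      rw [this] at hF
      exact lt_irrefl _ hF
    exact (abs_nonneg _).trans (hw x₀ hx₀ ω hω)
  set F := PE μ (fun ω => E ω = e₁ ∧ R ω) with hFd
  set q := PE μ R with hq
  set P := ∑ x ∈ A, p x with hP
  have hP0 : 0 ≤ P := sum_nonneg fun x _ => hp0 x
  -- the line cells
  set TL := (A ×ˢ univ.image C).filter
    (fun t => ch t.2 + eh e₁ * xh t.1 ∈ Set.Icc (J0 + w + s) (J1 - w - s)) with hTL
  set aL : ξ × η₁ → ℝ := fun t => PE μ (fun ω => X ω = t.1 ∧ E ω = e₁ ∧ C ω = t.2 ∧ L ω) with haL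
  set bL : ξ × η₁ → ℝ := fun t => p t.1 * PE μ (fun ω => E ω = e₁ ∧ C ω = t.2 ∧ L ω) with hbL
  have aL0 : ∀ t, 0 ≤ aL t := fun t => PE_nonneg hμ _
  have bL0 : ∀ t, 0 ≤ bL t := fun t => mul_nonneg (hp0 _) (PE_nonneg hμ _)
  have abL : ∀ t, 0 < aL t → 0 < bL t := by
    intro t ht
    refine mul_pos (hp _ (ht.trans_le ?_)) (ht.trans_le ?_)
    · exact PE_mono hμ fun ω h => ⟨h.1, h.2.2.2⟩
    · exact PE_mono hμ fun ω h => ⟨h.2.1, h.2.2.1, h.2.2.2⟩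
  have sumTL : ∀ f : ξ × η₁ → ℝ, ∑ t ∈ TL, f t = ∑ x ∈ A, ∑ c ∈ (univ.image C).filter
      (fun c => ch c + eh e₁ * xh x ∈ Set.Icc (J0 + w + s) (J1 - w - s)), f (x, c) := by
    intro f
    rw [hTL, sum_filter, sum_product]
    exact sum_congr rfl fun x _ => (sum_filter _ _).symm
  have hbS : ∑ t ∈ TL, bL t ≤ P * F := by
    rw [sumTL, hP, sum_mul]
    refine sum_le_sum fun x hx => ?_
    show ∑ c ∈ _, p x * PE μ (fun ω => E ω = e₁ ∧ C ω = c ∧ L ω) ≤ p x * F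
    rw [← mul_sum]
    refine mul_le_mul_of_nonneg_left ?_ (hp0 x)
    refine sum_PE_le hμ _ (fun c ω => E ω = e₁ ∧ C ω = c ∧ L ω) _ ?_ ?_
    · intro c hc ω h
      obtain ⟨hE, hC, hL⟩ := h
      refine ⟨hE, D.LR ω hL (Or.inl hE) ?_⟩
      have h1 := (mem_filter.mp hc).2
      have h2 := abs_le.mp (D.rel ω hL (Or.inl hE))
      rw [hE, hC] at h2
      have h3 := abs_le.mp (hw x hx ω hL)
      have h4 : eh e₁ * xh (X ω) = eh e₁ * xh x + eh e₁ * (xh (X ω) - xh x) := by ring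
      rw [h4] at h2
      exact ⟨by linarith [h1.1, h2.1, h3.1], by linarith [h1.2, h2.2, h3.2]⟩
    · intro c _ c' _ hne ω h h'
      exact hne (h.2.1.symm.trans h'.2.1)
  have hgL : ∑ t ∈ TL, gk (aL t) (bL t) ≤ η ^ 2 * (P * F) := by
    refine le_trans ?_ b1.line
    refine sum_le_sum_of_subset_of_nonneg ?_ fun t _ _ => gk_nonneg (aL0 t) (bL0 t) (abL t)
    intro t ht
    obtain ⟨h1, h2⟩ := mem_filter.mp ht
    exact mem_filter.mpr ⟨h1, by linarith [h2.1], by linarith [h2.2]⟩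
  have hL := hell TL aL bL (fun t _ => aL0 t) (fun t _ => bL0 t) (fun t _ => abL t) hη hη4
    (Or.inr hbS) hgL
  have hL' := hL
  rw [sumTL] at hL'
  refine ⟨hL', ?_⟩
  -- the row cells
  set TP := (A ×ˢ univ.image B).filter
    (fun t => bh t.2 ∈ Set.Icc (J0 + w + 2 * s) (J1 - w - 2 * s)) with hTP
  set aP : ξ × η₂ → ℝ := fun t => PE μ (fun ω => X ω = t.1 ∧ B ω = t.2 ∧ E ω = e₁ ∧ R ω) with haP
  set bP : ξ × η₂ → ℝ := fun t => PE μ (fun ω => X ω = t.1 ∧ B ω = t.2 ∧ R ω) * F / q with hbP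
  have aP0 : ∀ t, 0 ≤ aP t := fun t => PE_nonneg hμ _
  have bP0 : ∀ t, 0 ≤ bP t := fun t => div_nonneg (mul_nonneg (PE_nonneg hμ _) hF.le)
    (PE_nonneg hμ _)
  have abP : ∀ t, 0 < aP t → 0 < bP t := by
    intro t ht
    refine div_pos (mul_pos (ht.trans_le ?_) hF) D.posR
    exact PE_mono hμ fun ω h => ⟨h.1, h.2.1, h.2.2.2⟩
  have sumTP : ∀ f : ξ × η₂ → ℝ, ∑ t ∈ TP, f t = ∑ x ∈ A, ∑ b ∈ (univ.image B).filter
      (fun b => bh b ∈ Set.Icc (J0 + w + 2 * s) (J1 - w - 2 * s)), f (x, b) := by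
    intro f
    rw [hTP, sum_filter, sum_product]
    exact sum_congr rfl fun x _ => (sum_filter _ _).symm
  have hPF : 0 ≤ P * F := mul_nonneg hP0 hF.le
  have haS : ∑ t ∈ TP, aP t ≤ 2 * (P * F) := by
    have h1 : ∑ t ∈ TP, aP t ≤ ∑ t ∈ TL, aL t := by
      rw [sumTP, sumTL]
      refine sum_le_sum fun x _ => ?_
      refine (sum_PE_le hμ _ (fun b ω => X ω = x ∧ B ω = b ∧ E ω = e₁ ∧ R ω)
        (fun ω => X ω = x ∧ E ω = e₁ ∧ bh (B ω) ∈ Set.Icc (J0 + w + 2 * s) (J1 - w - 2 * s) ∧ R ω)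
        ?_ ?_).trans ?_
      · intro b hb ω h
        refine ⟨h.1, h.2.2.1, ?_, h.2.2.2⟩
        rw [h.2.1]; exact (mem_filter.mp hb).2
      · intro b _ b' _ hne ω h h'
        exact hne (h.2.1.symm.trans h'.2.1)
      · refine PE_le_sum hμ _ (fun c ω => X ω = x ∧ E ω = e₁ ∧ C ω = c ∧ L ω) _ ?_
        rintro ω ⟨hX, hE, hB, hR⟩
        have hLω := D.RL ω hR
        have h2 := abs_le.mp (D.rel ω hLω (Or.inl hE))
        rw [hE, hX] at h2
        refine ⟨C ω, mem_filter.mpr ⟨mem_image_of_mem C (mem_univ ω), ?_⟩, hX, hE, rfl, hLω⟩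
        exact ⟨by linarith [hB.1, h2.2], by linarith [hB.2, h2.1]⟩
    have h2 : ∑ t ∈ TL, aL t ≤ ∑ t ∈ TL, bL t + ∑ t ∈ TL, |aL t - bL t| := by
      rw [← sum_add_distrib]
      exact sum_le_sum fun t _ => by linarith [le_abs_self (aL t - bL t)]
    have h3 : 3 * η * (P * F) ≤ 1 * (P * F) := mul_le_mul_of_nonneg_right (by linarith) hPF
    linarith
  have hgP : ∑ t ∈ TP, gk (aP t) (bP t) ≤ η ^ 2 * (2 * (P * F)) := by
    have h1 : ∑ t ∈ TP, gk (aP t) (bP t) ≤ η ^ 2 * (P * F) := by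
      refine le_trans ?_ b1.point
      refine sum_le_sum_of_subset_of_nonneg ?_ fun t _ _ => gk_nonneg (aP0 t) (bP0 t) (abP t)
      intro t ht
      obtain ⟨h1, h2⟩ := mem_filter.mp ht
      exact mem_filter.mpr ⟨h1, by linarith [h2.1], by linarith [h2.2]⟩
    refine h1.trans (mul_le_mul_of_nonneg_left (by linarith) (sq_nonneg _))
  have hPe := hell TP aP bP (fun t _ => aP0 t) (fun t _ => bP0 t) (fun t _ => abP t) hη hη4
    (Or.inl haS) hgP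
  rw [sumTP] at hPe
  refine hPe.trans (le_of_eq (by ring))

/-- **budgets give good time digits**: all time digits of the class `A` outside a set of `p`-mass
`≤ (18 η / κ) p (A)` have relative errors at most `κ` at both slopes. -/
theorem FBox.goodAt (D : FBox μ X E C B xh eh ch bh L R J0 J1 s e₁ e₂)
    (hp0 : ∀ x, 0 ≤ p x) (hp : ∀ x, 0 < PE μ (fun ω => X ω = x ∧ L ω) → 0 < p x)
    (A : Finset ξ) (hη : 0 ≤ η) (hη4 : η ≤ 1 / 4) (hκ : 0 < κ) {w : ℝ}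
    (hw1 : ∀ x ∈ A, ∀ ω, L ω → |eh e₁ * (xh (X ω) - xh x)| ≤ w)
    (hw2 : ∀ x ∈ A, ∀ ω, L ω → |eh e₂ * (xh (X ω) - xh x)| ≤ w)
    (b1 : Budget μ X E C B xh eh ch bh L R J0 J1 p A η e₁)
    (b2 : Budget μ X E C B xh eh ch bh L R J0 J1 p A η e₂) :
    ∃ Bad ⊆ A, ∑ x ∈ Bad, p x ≤ (18 * η / κ) * ∑ x ∈ A, p x ∧ ∀ x ∈ A, x ∉ Bad →
      GoodAt μ X E C B xh eh ch bh L R (J0 + w + 2 * s) (J1 - w - 2 * s) p κ x e₁ ∧
      GoodAt μ X E C B xh eh ch bh L R (J0 + w + 2 * s) (J1 - w - 2 * s) p κ x e₂ := by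
  classical
  have hs := D.s0
  have hF1 := b1.posF
  have hF2 := b2.posF
  obtain ⟨l1, p1⟩ := D.sum_err hp0 hp A hη hη4 hw1 b1
  obtain ⟨l2, p2⟩ := D.swap.sum_err hp0 hp A hη hη4 hw2 b2
  set F1 := PE μ (fun ω => E ω = e₁ ∧ R ω) with hF1d
  set F2 := PE μ (fun ω => E ω = e₂ ∧ R ω) with hF2d
  set L1 : ξ → ℝ := errL μ X E C xh eh ch L (J0 + w + s) (J1 - w - s) p e₁ with hL1
  set L2 : ξ → ℝ := errL μ X E C xh eh ch L (J0 + w + s) (J1 - w - s) p e₂ with hL2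
  set P1 : ξ → ℝ := errP μ X E B bh R (J0 + w + 2 * s) (J1 - w - 2 * s) e₁ with hP1
  set P2 : ξ → ℝ := errP μ X E B bh R (J0 + w + 2 * s) (J1 - w - 2 * s) e₂ with hP2
  set Z : ξ → ℝ := fun x => (L1 x + P1 x) / F1 + (L2 x + P2 x) / F2 with hZ
  have hL1n : ∀ x, 0 ≤ L1 x := fun x => errL_nonneg e₁ x
  have hL2n : ∀ x, 0 ≤ L2 x := fun x => errL_nonneg e₂ x
  have hP1n : ∀ x, 0 ≤ P1 x := fun x => errP_nonneg e₁ x
  have hP2n : ∀ x, 0 ≤ P2 x := fun x => errP_nonneg e₂ x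
  have hZn : ∀ x, 0 ≤ Z x := fun x => add_nonneg
    (div_nonneg (add_nonneg (hL1n x) (hP1n x)) hF1.le)
    (div_nonneg (add_nonneg (hL2n x) (hP2n x)) hF2.le)
  have hZs : ∑ x ∈ A, Z x ≤ 18 * η * ∑ x ∈ A, p x := by
    simp only [hZ]
    rw [sum_add_distrib, ← sum_div, ← sum_div, sum_add_distrib, sum_add_distrib]
    have h1 : (∑ x ∈ A, L1 x + ∑ x ∈ A, P1 x) / F1 ≤ 9 * η * ∑ x ∈ A, p x := by
      rw [div_le_iff₀ hF1]; linarith
    have h2 : (∑ x ∈ A, L2 x + ∑ x ∈ A, P2 x) / F2 ≤ 9 * η * ∑ x ∈ A, p x := by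
      rw [div_le_iff₀ hF2]; linarith
    linarith
  refine ⟨A.filter (fun x => κ * p x < Z x), filter_subset _ _, ?_, ?_⟩
  · have h1 : κ * ∑ x ∈ A.filter (fun x => κ * p x < Z x), p x ≤
        18 * η * ∑ x ∈ A, p x := by
      rw [mul_sum]
      refine le_trans (sum_le_sum fun x hx => (mem_filter.mp hx).2.le) ?_
      exact (sum_le_sum_of_subset_of_nonneg (filter_subset _ _) fun x _ _ => hZn x).trans hZs
    rw [div_mul_eq_mul_div, le_div_iff₀ hκ]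
    linarith
  · intro x hx hxb
    have hle : Z x ≤ κ * p x := by
      by_contra hcon
      push Not at hcon
      exact hxb (mem_filter.mpr ⟨hx, hcon⟩)
    have q1 : (L1 x + P1 x) / F1 ≤ κ * p x := by
      have := div_nonneg (add_nonneg (hL2n x) (hP2n x)) hF2.le
      simp only [hZ] at hle; linarith
    have q2 : (L2 x + P2 x) / F2 ≤ κ * p x := by
      have := div_nonneg (add_nonneg (hL1n x) (hP1n x)) hF1.le
      simp only [hZ] at hle; linarith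
    rw [div_le_iff₀ hF1] at q1
    rw [div_le_iff₀ hF2] at q2
    have := hL1n x
    have := hL2n x
    have := hP1n x
    have := hP2n x
    refine ⟨⟨hF1, ?_, ?_⟩, ⟨hF2, ?_, ?_⟩⟩
    · intro S hS
      refine (line_le_errL e₁ x S (K0 := J0 + w + s) (K1 := J1 - w - s) fun c hc => ?_).trans
        (by linarith)
      exact ⟨by linarith [(hS c hc).1], by linarith [(hS c hc).2]⟩
    · intro S hS
      exact (point_le_errP e₁ x S hS).trans (by linarith)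
    · intro S hS
      refine (line_le_errL e₂ x S (K0 := J0 + w + s) (K1 := J1 - w - s) fun c hc => ?_).trans
        (by linarith)
      exact ⟨by linarith [(hS c hc).1], by linarith [(hS c hc).2]⟩
    · intro S hS
      exact (point_le_errP e₂ x S hS).trans (by linarith)

/-- a smaller range of heights -/
lemma FBox.shrink (D : FBox μ X E C B xh eh ch bh L R J0 J1 s e₁ e₂) {K0 K1 : ℝ} (h0 : J0 ≤ K0)
    (h1 : K1 ≤ J1) : FBox μ X E C B xh eh ch bh L R K0 K1 s e₁ e₂ :=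
  ⟨D.prob, D.s0, D.rel, D.RL, fun ω h h' hb => D.LR ω h h' ⟨h0.trans hb.1, hb.2.trans h1⟩, D.posR⟩

end

end Vale.Agent.P065.H819
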