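import Vale.Agent.P065.H819.FairFin

/-!
# P065, package FAIR, part 6: one inequality per box, linear in the informations
-/

set_option autoImplicit false

open Finset Real

noncomputable section

namespace Vale.Agent.P065.H819

open Vale.Agent.P065.Ent

variable {Ω : Type*} [Fintype Ω] {ξ ε η₁ η₂ γ : Type*}

open Classical in
/-- the information between `X` and `(E, C)` in `L`, restricted to the slope `e` and to the range of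
the box, relative to the mass of `(e, R)` -/
def DL (μ : Ω → ℝ) (X : Ω → ξ) (E : Ω → ε) (C : Ω → η₁) (xh : ξ → ℝ)
    (eh : ε → ℝ) (ch : η₁ → ℝ) (L R : Ω → Prop) (J0 J1 : ℝ) (p : ξ → ℝ) (e : ε) : ℝ :=
  (∑ t ∈ (univ.image X ×ˢ univ.image C).filter
      (fun t => ch t.2 + eh e * xh t.1 ∈ Set.Icc J0 J1),
      gk (PE μ (fun ω => X ω = t.1 ∧ E ω = e ∧ C ω = t.2 ∧ L ω))
        (p t.1 * PE μ (fun ω => E ω = e ∧ C ω = t.2 ∧ L ω))) / PE μ (fun ω => E ω = e ∧ R ω)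

open Classical in
/-- the divergence of the law of `(X, B)` given `(R, e)` from the law given `R` -/
def DP (μ : Ω → ℝ) (X : Ω → ξ) (E : Ω → ε) (B : Ω → η₂) (R : Ω → Prop) (e : ε) : ℝ :=
  (∑ t ∈ univ.image X ×ˢ univ.image B,
      gk (PE μ (fun ω => X ω = t.1 ∧ B ω = t.2 ∧ E ω = e ∧ R ω))
        (PE μ (fun ω => X ω = t.1 ∧ B ω = t.2 ∧ R ω) * PE μ (fun ω => E ω = e ∧ R ω) /
          PE μ R)) / PE μ (fun ω => E ω = e ∧ R ω)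

section
variable {μ : Ω → ℝ} {X : Ω → ξ} {E : Ω → ε} {C : Ω → η₁} {B : Ω → η₂} {xh : ξ → ℝ}
    {eh : ε → ℝ} {ch : η₁ → ℝ} {bh : η₂ → ℝ} {L R : Ω → Prop} {J0 J1 s : ℝ} {e₁ e₂ : ε}
    {p : ξ → ℝ} {κ η : ℝ}

lemma gkL_nonneg (hμ : IsProb μ) (hp0 : ∀ x, 0 ≤ p x)
    (hp : ∀ x, 0 < PE μ (fun ω => X ω = x ∧ L ω) → 0 < p x) (e : ε) (t : ξ × η₁) :
    0 ≤ gk (PE μ (fun ω => X ω = t.1 ∧ E ω = e ∧ C ω = t.2 ∧ L ω))
        (p t.1 * PE μ (fun ω => E ω = e ∧ C ω = t.2 ∧ L ω)) := by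
  refine gk_nonneg (PE_nonneg hμ _) (mul_nonneg (hp0 _) (PE_nonneg hμ _)) fun ht => ?_
  refine mul_pos (hp _ (ht.trans_le ?_)) (ht.trans_le ?_)
  · exact PE_mono hμ fun ω h => ⟨h.1, h.2.2.2⟩
  · exact PE_mono hμ fun ω h => ⟨h.2.1, h.2.2.1, h.2.2.2⟩

lemma gkP_nonneg (hμ : IsProb μ) (e : ε) (t : ξ × η₂) :
    0 ≤ gk (PE μ (fun ω => X ω = t.1 ∧ B ω = t.2 ∧ E ω = e ∧ R ω))
        (PE μ (fun ω => X ω = t.1 ∧ B ω = t.2 ∧ R ω) * PE μ (fun ω => E ω = e ∧ R ω) /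
          PE μ R) := by
  refine gk_nonneg (PE_nonneg hμ _) (div_nonneg (mul_nonneg (PE_nonneg hμ _) (PE_nonneg hμ _))
    (PE_nonneg hμ _)) fun ht => ?_
  refine div_pos (mul_pos (ht.trans_le ?_) (ht.trans_le ?_)) (ht.trans_le ?_)
  · exact PE_mono hμ fun ω h => ⟨h.1, h.2.1, h.2.2.2⟩
  · exact PE_mono hμ fun ω h => ⟨h.2.2.1, h.2.2.2⟩
  · exact PE_mono hμ fun ω h => h.2.2.2

lemma DL_nonneg (hμ : IsProb μ) (hp0 : ∀ x, 0 ≤ p x)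
    (hp : ∀ x, 0 < PE μ (fun ω => X ω = x ∧ L ω) → 0 < p x) (e : ε) :
    0 ≤ DL μ X E C xh eh ch L R J0 J1 p e :=
  div_nonneg (sum_nonneg fun t _ => gkL_nonneg hμ hp0 hp e t) (PE_nonneg hμ _)

lemma DP_nonneg (hμ : IsProb μ) (e : ε) : 0 ≤ DP μ X E B R e :=
  div_nonneg (sum_nonneg fun t _ => gkP_nonneg hμ e t) (PE_nonneg hμ _)

open Classical in
lemma budget_of_le (hμ : IsProb μ) (hp0 : ∀ x, 0 ≤ p x)
    (hp : ∀ x, 0 < PE μ (fun ω => X ω = x ∧ L ω) → 0 < p x) (e : ε) (A : Finset ξ)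
    (hA : A ⊆ univ.image X) (hF : 0 < PE μ (fun ω => E ω = e ∧ R ω)) {ps : ℝ}
    (hps : ps ≤ ∑ x ∈ A, p x) (h1 : DL μ X E C xh eh ch L R J0 J1 p e ≤ η ^ 2 * ps)
    (h2 : DP μ X E B R e ≤ η ^ 2 * ps) : Budget μ X E C B xh eh ch bh L R J0 J1 p A η e := by
  have hη : 0 ≤ η ^ 2 := sq_nonneg η
  unfold DL at h1
  unfold DP at h2
  rw [div_le_iff₀ hF] at h1 h2
  have h3 : η ^ 2 * ps * PE μ (fun ω => E ω = e ∧ R ω) ≤
      η ^ 2 * ((∑ x ∈ A, p x) * PE μ (fun ω => E ω = e ∧ R ω)) := by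
    rw [mul_assoc]
    exact mul_le_mul_of_nonneg_left (mul_le_mul_of_nonneg_right hps hF.le) hη
  refine ⟨hF, ?_, ?_⟩
  · refine le_trans ?_ (h1.trans h3)
    refine sum_le_sum_of_subset_of_nonneg ?_ fun t _ _ => gkL_nonneg hμ hp0 hp e t
    intro t ht
    obtain ⟨ht1, ht2⟩ := mem_filter.mp ht
    obtain ⟨ht3, ht4⟩ := mem_product.mp ht1
    exact mem_filter.mpr ⟨mem_product.mpr ⟨hA ht3, ht4⟩, ht2⟩
  · refine le_trans ?_ (h2.trans h3)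
    refine sum_le_sum_of_subset_of_nonneg ?_ fun t _ _ => gkP_nonneg hμ e t
    intro t ht
    obtain ⟨ht1, ht2⟩ := mem_filter.mp ht
    obtain ⟨ht3, ht4⟩ := mem_product.mp ht1
    exact mem_product.mpr ⟨hA ht3, ht4⟩

/-- the total mass of the cells at one time digit -/
lemma sum_Mx_le (hμ : IsProb μ) (x : ξ) (g ℓ : ℝ) (hℓ : 0 ≤ ℓ) (m : ℕ) (K0 K1 : ℝ) (h0 : K0 ≤ g)
    (h1 : g + m * ℓ ≤ K1) :
    ∑ n ∈ range m, Mx μ X B bh R x (Set.Ico (g + n * ℓ) (g + (n + 1) * ℓ)) ≤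
      PE μ (fun ω => X ω = x ∧ bh (B ω) ∈ Set.Icc K0 K1 ∧ R ω) := by
  refine sum_PE_le hμ (range m) (fun (n : ℕ) ω => X ω = x ∧
    bh (B ω) ∈ Set.Ico (g + n * ℓ) (g + (n + 1) * ℓ) ∧ R ω) _ ?_ ?_
  · intro n hn ω h
    have hn1 : (n : ℝ) + 1 ≤ m := by exact_mod_cast mem_range.mp hn
    have hn0 : (0 : ℝ) ≤ n := Nat.cast_nonneg n
    have e1 : ((n : ℝ) + 1) * ℓ ≤ m * ℓ := mul_le_mul_of_nonneg_right hn1 hℓ
    have e2 : 0 ≤ (n : ℝ) * ℓ := by positivity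
    exact ⟨h.1, ⟨by linarith [h.2.1.1], by linarith [h.2.1.2]⟩, h.2.2⟩
  · intro i hi j hj hij ω h h'
    wlog hlt : i < j generalizing i j
    · exact this j hj i hi (Ne.symm hij) h' h (by omega)
    have hi1 : (i : ℝ) + 1 ≤ j := by exact_mod_cast hlt
    have e1 : ((i : ℝ) + 1) * ℓ ≤ j * ℓ := mul_le_mul_of_nonneg_right hi1 hℓ
    linarith [h.2.1.2, h'.2.1.1]

lemma sum_abs_Mx_le (hμ : IsProb μ) (x : ξ) (g ℓ : ℝ) (hℓ : 0 ≤ ℓ) (m : ℕ) (K0 K1 : ℝ)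
    (h0 : K0 ≤ g) (h1 : g + (m + 2) * ℓ ≤ K1) :
    ∑ n ∈ range (m + 1), |Mx μ X B bh R x (Set.Ico (g + n * ℓ) (g + (n + 1) * ℓ)) -
        Mx μ X B bh R x (Set.Ico (g + (n + 1) * ℓ) (g + (n + 2) * ℓ))| ≤
      2 * PE μ (fun ω => X ω = x ∧ bh (B ω) ∈ Set.Icc K0 K1 ∧ R ω) := by
  have e1 := sum_Mx_le (X := X) (B := B) (bh := bh) (R := R) hμ x g ℓ hℓ (m + 1) K0 K1 h0
    (by push_cast; linarith)
  have e2 := sum_Mx_le (X := X) (B := B) (bh := bh) (R := R) hμ x (g + ℓ) ℓ hℓ (m + 1) K0 K1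
    (by linarith) (by push_cast; linarith)
  have e3 : ∀ n ∈ range (m + 1), |Mx μ X B bh R x (Set.Ico (g + n * ℓ) (g + (n + 1) * ℓ)) -
        Mx μ X B bh R x (Set.Ico (g + (n + 1) * ℓ) (g + (n + 2) * ℓ))| ≤
        Mx μ X B bh R x (Set.Ico (g + n * ℓ) (g + (n + 1) * ℓ)) +
        Mx μ X B bh R x (Set.Ico (g + ℓ + n * ℓ) (g + ℓ + (n + 1) * ℓ)) := by
    intro n _
    have g1 : g + ((n : ℝ) + 1) * ℓ = g + ℓ + n * ℓ := by ring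
    have g2 : g + ((n : ℝ) + 2) * ℓ = g + ℓ + (n + 1) * ℓ := by ring
    have n1 : 0 ≤ Mx μ X B bh R x (Set.Ico (g + n * ℓ) (g + (n + 1) * ℓ)) := PE_nonneg hμ _
    have n2 : 0 ≤ Mx μ X B bh R x (Set.Ico (g + ℓ + n * ℓ) (g + ℓ + (n + 1) * ℓ)) :=
      PE_nonneg hμ _
    rw [g2, g1] at *
    rw [abs_le]
    constructor <;> linarith
  have e4 := sum_le_sum e3
  rw [sum_add_distrib] at e4
  linarith

/-- the mass of a set of time digits inside the box, away from its boundary -/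
lemma FBox.bad_mass (D : FBox μ X E C B xh eh ch bh L R J0 J1 s e₁ e₂)
    (hp0 : ∀ x, 0 ≤ p x) (Z : Finset ξ) {w : ℝ} (hw : ∀ x ∈ Z, ∀ ω, L ω → |eh e₁ * (xh (X ω) - xh x)| ≤ w) :
    (∑ x ∈ Z, PE μ (fun ω => X ω = x ∧ bh (B ω) ∈ Set.Icc (J0 + w + 2 * s) (J1 - w - 2 * s) ∧
      R ω)) * PE μ (fun ω => E ω = e₁ ∧ R ω) / PE μ R ≤
      (∑ x ∈ Z, p x) * PE μ (fun ω => E ω = e₁ ∧ R ω) +
      ∑ x ∈ Z, errL μ X E C xh eh ch L (J0 + w + s) (J1 - w - s) p e₁ x +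
      ∑ x ∈ Z, errP μ X E B bh R (J0 + w + 2 * s) (J1 - w - 2 * s) e₁ x := by
  classical
  have hμ := D.prob
  have hs := D.s0
  set F := PE μ (fun ω => E ω = e₁ ∧ R ω) with hFd
  rw [sum_mul, sum_div, sum_mul, ← sum_add_distrib, ← sum_add_distrib]
  refine sum_le_sum fun x hx => ?_
  have h1 := point_le_errP (μ := μ) (X := X) (E := E) (B := B) (bh := bh) (R := R) e₁ x
    (Set.Icc (J0 + w + 2 * s) (J1 - w - 2 * s)) subset_rfl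
  set S : Set η₁ := {c | ch c + eh e₁ * xh x ∈ Set.Icc (J0 + w + s) (J1 - w - s)} with hS
  have h2 := line_le_errL (μ := μ) (X := X) (E := E) (C := C) (xh := xh) (eh := eh) (ch := ch)
    (L := L) (p := p) (K0 := J0 + w + s) (K1 := J1 - w - s) e₁ x S fun c hc => hc
  have h3 : PE μ (fun ω => X ω = x ∧ bh (B ω) ∈ Set.Icc (J0 + w + 2 * s) (J1 - w - 2 * s) ∧
      E ω = e₁ ∧ R ω) ≤ PE μ (fun ω => X ω = x ∧ E ω = e₁ ∧ C ω ∈ S ∧ L ω) := by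
    refine PE_mono hμ fun ω h => ?_
    obtain ⟨hX, hB, hE, hR⟩ := h
    have hLω := D.RL ω hR
    have h2 := abs_le.mp (D.rel ω hLω (Or.inl hE))
    rw [hE, hX] at h2
    exact ⟨hX, hE, ⟨by linarith [hB.1, h2.2], by linarith [hB.2, h2.1]⟩, hLω⟩
  have h4 : PE μ (fun ω => E ω = e₁ ∧ C ω ∈ S ∧ L ω) ≤ F := by
    refine PE_mono hμ fun ω h => ?_
    obtain ⟨hE, hC, hL⟩ := h
    refine ⟨hE, D.LR ω hL (Or.inl hE) ?_⟩
    have h2 := abs_le.mp (D.rel ω hL (Or.inl hE))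
    rw [hE] at h2
    have h3 := abs_le.mp (hw x hx ω hL)
    have h4 : eh e₁ * xh (X ω) = eh e₁ * xh x + eh e₁ * (xh (X ω) - xh x) := by ring
    rw [h4] at h2
    exact ⟨by linarith [hC.1, h2.1, h3.1], by linarith [hC.2, h2.2, h3.2]⟩
  have h5 := mul_le_mul_of_nonneg_left h4 (hp0 x)
  have h1' := (abs_le.mp h1).1
  have h2' := (abs_le.mp h2).2
  linarith

open Classical in
/-- **one class of a box** -/
theorem FBox.class (D : FBox μ X E C B xh eh ch bh L R J0 J1 s e₁ e₂)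
    (hp0 : ∀ x, 0 ≤ p x) (hp : ∀ x, 0 < PE μ (fun ω => X ω = x ∧ L ω) → 0 < p x)
    (A₁ A₂ : Finset ξ) (hκ : 0 < κ) (hκ1 : κ ≤ 1) {w : ℝ}
    (hw : ∀ e, (e = e₁ ∨ e = e₂) → ∀ x ∈ A₁ ∪ A₂, ∀ ω, L ω → |eh e * (xh (X ω) - xh x)| ≤ w)
    (hw' : ∀ e, (e = e₁ ∨ e = e₂) → ∀ x ∈ A₁, ∀ x' ∈ A₂, |eh e * (xh x' - xh x)| ≤ w)
    (b : ∀ e, (e = e₁ ∨ e = e₂) → ∀ A, (A = A₁ ∨ A = A₂) →
      Budget μ X E C B xh eh ch bh L R J0 J1 p A (κ ^ 2 / 18) e) (hA1 : ∑ x ∈ A₁, p x ≤ 1)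
    {h0 h1 : ℝ} (hh0 : 0 < h0)
    (ℓ g : ℝ) (m N : ℕ) (hℓ0 : 0 ≤ ℓ) (hN0 : 0 < N) (hℓ : 4 * h1 ≤ ℓ) (hsℓ : 16 * ℓ * s ≤ h0 ^ 2)
    (hN : 4 * N * h1 ≤ ℓ)
    (hg0 : J0 + 5 * s + 2 * w + ℓ ≤ g) (hg1 : g + (m + 2) * ℓ + ℓ + 5 * s + 2 * w ≤ J1)
    (hw0 : 0 ≤ w) :
    ∑ x ∈ A₁.filter (fun x => κ * ∑ x ∈ A₂, p x < ∑ x' ∈ A₂.filter (fun x' =>
        h0 ≤ |(eh e₁ - eh e₂) * (xh x' - xh x)| ∧ |(eh e₁ - eh e₂) * (xh x' - xh x)| ≤ h1), p x'),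
      ∑ n ∈ range (m + 1), |Mx μ X B bh R x (Set.Ico (g + n * ℓ) (g + (n + 1) * ℓ)) -
        Mx μ X B bh R x (Set.Ico (g + (n + 1) * ℓ) (g + (n + 2) * ℓ))| ≤
      PE μ R * (24 / N + (24 * (m + 3) * N ^ 2 + (m + 1) * N * (ℓ / h0)) / N * (8 * κ) +
        4 * κ) := by
  have hs := D.s0
  have hμ := D.prob
  have hq := D.posR
  set η : ℝ := κ ^ 2 / 18 with hη
  have hη0 : 0 ≤ η := by positivity
  have hκ2 : κ ^ 2 ≤ 1 := by nlinarith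
  have hη4 : η ≤ 1 / 4 := by rw [hη]; linarith
  have hηκ : 18 * η / κ = κ := by rw [hη]; field_simp
  obtain ⟨Bad, hBsub, hBm, hB⟩ := D.main hp0 hp A₁ A₂ hη0 hη4 hκ hw hw' b hh0 ℓ g m N hℓ hsℓ hN
    hg0 hg1
  rw [hηκ] at hBm
  have hBm' : ∑ x ∈ Bad, p x ≤ κ := hBm.trans (mul_le_of_le_one_right hκ.le hA1)
  set Far := A₁.filter (fun x => κ * ∑ x ∈ A₂, p x < ∑ x' ∈ A₂.filter (fun x' =>
        h0 ≤ |(eh e₁ - eh e₂) * (xh x' - xh x)| ∧ |(eh e₁ - eh e₂) * (xh x' - xh x)| ≤ h1), p x')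
    with hFar
  set T : ξ → ℝ := fun x => ∑ n ∈ range (m + 1),
      |Mx μ X B bh R x (Set.Ico (g + n * ℓ) (g + (n + 1) * ℓ)) -
        Mx μ X B bh R x (Set.Ico (g + (n + 1) * ℓ) (g + (n + 2) * ℓ))| with hT
  set K : ℝ := 24 * (m + 3) * N ^ 2 + (m + 1) * N * (ℓ / h0) with hK
  have hK0 : 0 ≤ K := by positivity
  have hNpos : (0 : ℝ) < N := by exact_mod_cast hN0
  have hT2 : ∀ x, T x ≤ 2 * PE μ (fun ω => X ω = x ∧
      bh (B ω) ∈ Set.Icc (J0 + w + 2 * s) (J1 - w - 2 * s) ∧ R ω) := fun x =>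
    sum_abs_Mx_le hμ x g ℓ hℓ0 m _ _ (by linarith) (by linarith)
  have hT0 : ∀ x, 0 ≤ T x := fun x => sum_nonneg fun _ _ => abs_nonneg _
  -- good digits
  have hgood : ∀ x ∈ Far, x ∉ Bad → T x ≤ 24 / N * PE μ (fun ω => X ω = x ∧ R ω) +
      K / N * (8 * κ) * (PE μ R * p x) := by
    intro x hx hxb
    obtain ⟨hxA, hfar⟩ := mem_filter.mp hx
    rcases (hp0 x).eq_or_lt with h | h
    · have h1 : PE μ (fun ω => X ω = x ∧ L ω) = 0 := by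
        by_contra hne
        have := hp x (lt_of_le_of_ne (PE_nonneg hμ _) (Ne.symm hne))
        linarith
      have h2 : PE μ (fun ω => X ω = x ∧
          bh (B ω) ∈ Set.Icc (J0 + w + 2 * s) (J1 - w - 2 * s) ∧ R ω) ≤ 0 := by
        rw [← h1]
        exact PE_mono hμ fun ω h => ⟨h.1, D.RL ω h.2.2⟩
      have h3 := hT2 x
      have h4 := PE_nonneg hμ (fun ω => X ω = x ∧ R ω)
      rw [← h]
      have h5 : 0 ≤ 24 / (N : ℝ) * PE μ (fun ω => X ω = x ∧ R ω) := by positivity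
      linarith
    · have h1 := hB x hxA hxb h (by rw [hηκ]; exact hfar)
      have h2 : T x ≤ (24 * PE μ (fun ω => X ω = x ∧ R ω) + K * (8 * κ * (PE μ R * p x))) / N := by
        rw [le_div_iff₀ hNpos, mul_comm]
        exact h1
      refine h2.trans (le_of_eq ?_)
      field_simp
  have hsum1 : ∑ x ∈ Far.filter (fun x => x ∉ Bad), T x ≤
      24 / N * PE μ R + K / N * (8 * κ) * (PE μ R * 1) := by
    refine (sum_le_sum fun x hx => hgood x (mem_filter.mp hx).1 (mem_filter.mp hx).2).trans ?_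
    rw [sum_add_distrib, ← mul_sum, ← mul_sum, ← mul_sum]
    have s1 : ∑ x ∈ Far.filter (fun x => x ∉ Bad), PE μ (fun ω => X ω = x ∧ R ω) ≤ PE μ R :=
      sum_PE_le hμ _ (fun x ω => X ω = x ∧ R ω) _ (fun x _ ω h => h.2)
        fun x _ y _ hne ω h h' => hne (h.1.symm.trans h'.1)
    have s2 : ∑ x ∈ Far.filter (fun x => x ∉ Bad), p x ≤ 1 := by
      refine le_trans (sum_le_sum_of_subset_of_nonneg ?_ fun x _ _ => hp0 x) hA1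
      intro x hx
      exact (mem_filter.mp (mem_filter.mp hx).1).1
    have c1 : 0 ≤ 24 / (N : ℝ) := by positivity
    have c2 : 0 ≤ K / N * (8 * κ) := by positivity
    exact add_le_add (mul_le_mul_of_nonneg_left s1 c1)
      (mul_le_mul_of_nonneg_left (mul_le_mul_of_nonneg_left s2 hq.le) c2)
  -- bad digits
  have hsum2 : ∑ x ∈ Far.filter (fun x => x ∈ Bad), T x ≤ PE μ R * (4 * κ) := by
    set Z := Far.filter (fun x => x ∈ Bad) with hZ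
    have hZA : Z ⊆ A₁ := fun x hx => (mem_filter.mp (mem_filter.mp hx).1).1
    have hZB : Z ⊆ Bad := fun x hx => (mem_filter.mp hx).2
    have b1 := b e₁ (Or.inl rfl) A₁ (Or.inl rfl)
    have hF := b1.posF
    have hww : ∀ x ∈ A₁, ∀ ω, L ω → |eh e₁ * (xh (X ω) - xh x)| ≤ w := fun x hx =>
      hw e₁ (Or.inl rfl) x (mem_union_left _ hx)
    obtain ⟨eL, eP⟩ := D.sum_err hp0 hp A₁ hη0 hη4 hww b1
    have hbm := D.bad_mass hp0 Z (w := w) fun x hx => hww x (hZA hx)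
    set F := PE μ (fun ω => E ω = e₁ ∧ R ω) with hFd
    have s1 : ∑ x ∈ Z, p x ≤ κ :=
      (sum_le_sum_of_subset_of_nonneg hZB fun x _ _ => hp0 x).trans hBm'
    have s2 : ∑ x ∈ Z, errL μ X E C xh eh ch L (J0 + w + s) (J1 - w - s) p e₁ x ≤
        3 * η * F := by
      refine (sum_le_sum_of_subset_of_nonneg hZA fun x _ _ => errL_nonneg e₁ x).trans
        (eL.trans ?_)
      have : (∑ x ∈ A₁, p x) * F ≤ 1 * F := mul_le_mul_of_nonneg_right hA1 hF.le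
      rw [one_mul] at this
      exact mul_le_mul_of_nonneg_left this (by positivity)
    have s3 : ∑ x ∈ Z, errP μ X E B bh R (J0 + w + 2 * s) (J1 - w - 2 * s) e₁ x ≤
        6 * η * F := by
      refine (sum_le_sum_of_subset_of_nonneg hZA fun x _ _ => errP_nonneg e₁ x).trans
        (eP.trans ?_)
      have : (∑ x ∈ A₁, p x) * F ≤ 1 * F := mul_le_mul_of_nonneg_right hA1 hF.le
      rw [one_mul] at this
      exact mul_le_mul_of_nonneg_left this (by positivity)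
    have s4 : (∑ x ∈ Z, p x) * F ≤ κ * F := mul_le_mul_of_nonneg_right s1 hF.le
    set W := ∑ x ∈ Z, PE μ (fun ω => X ω = x ∧
      bh (B ω) ∈ Set.Icc (J0 + w + 2 * s) (J1 - w - 2 * s) ∧ R ω) with hW
    have s5 : W * F / PE μ R ≤ (κ + 9 * η) * F := by linarith
    rw [div_le_iff₀ hq] at s5
    have s6 : W ≤ (κ + 9 * η) * PE μ R := by
      have : W * F ≤ ((κ + 9 * η) * PE μ R) * F := by linarith
      exact le_of_mul_le_mul_right this hF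
    have s7 : κ + 9 * η ≤ 2 * κ := by
      rw [hη]; nlinarith
    have s8 : ∑ x ∈ Z, T x ≤ 2 * W := by
      rw [hW, mul_sum]
      exact sum_le_sum fun x _ => hT2 x
    have s9 : (κ + 9 * η) * PE μ R ≤ 2 * κ * PE μ R := mul_le_mul_of_nonneg_right s7 hq.le
    linarith
  rw [← sum_filter_add_sum_filter_not Far (fun x => x ∈ Bad)]
  have : PE μ R * (24 / N + K / N * (8 * κ) + 4 * κ) =
    PE μ R * (4 * κ) + (24 / N * PE μ R + K / N * (8 * κ) * (PE μ R * 1)) := by ring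
  rw [this]
  linarith

open Classical in
/-- **BOX**: linear in the informations, no smallness hypothesis -/
theorem FBox.box (D : FBox μ X E C B xh eh ch bh L R J0 J1 s e₁ e₂)
    (hp0 : ∀ x, 0 ≤ p x) (hp : ∀ x, 0 < PE μ (fun ω => X ω = x ∧ L ω) → 0 < p x)
    (hF1 : 0 < PE μ (fun ω => E ω = e₁ ∧ R ω)) (hF2 : 0 < PE μ (fun ω => E ω = e₂ ∧ R ω))
    (A₁ A₂ : Finset ξ) (hA₁ : ∀ x ∈ A₁, ∃ ω, X ω = x) (hA₂ : ∀ x ∈ A₂, ∃ ω, X ω = x)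
    {ps : ℝ} (hps : 0 < ps)
    (hps1 : ps ≤ ∑ x ∈ A₁, p x) (hps2 : ps ≤ ∑ x ∈ A₂, p x) (hA1 : ∑ x ∈ A₁, p x ≤ 1)
    (hκ : 0 < κ) (hκ1 : κ ≤ 1) {w : ℝ}
    (hww : ∀ e, (e = e₁ ∨ e = e₂) → ∀ x, (x ∈ A₁ ∨ x ∈ A₂) → ∀ ω, L ω →
      |eh e * (xh (X ω) - xh x)| ≤ w)
    (hw' : ∀ e, (e = e₁ ∨ e = e₂) → ∀ x ∈ A₁, ∀ x' ∈ A₂, |eh e * (xh x' - xh x)| ≤ w)
    {h0 h1 : ℝ} (hh0 : 0 < h0)
    (ℓ g : ℝ) (m N : ℕ) (hℓ0 : 0 ≤ ℓ) (hN0 : 0 < N) (hℓ : 4 * h1 ≤ ℓ) (hsℓ : 16 * ℓ * s ≤ h0 ^ 2)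
    (hN : 4 * N * h1 ≤ ℓ)
    (hg0 : J0 + 5 * s + 2 * w + ℓ ≤ g) (hg1 : g + (m + 2) * ℓ + ℓ + 5 * s + 2 * w ≤ J1)
    (hw0 : 0 ≤ w) :
    ∑ x ∈ A₁.filter (fun x => κ * ∑ x ∈ A₂, p x < ∑ x' ∈ A₂.filter (fun x' =>
        h0 ≤ |(eh e₁ - eh e₂) * (xh x' - xh x)| ∧ |(eh e₁ - eh e₂) * (xh x' - xh x)| ≤ h1), p x'),
      ∑ n ∈ range (m + 1), |Mx μ X B bh R x (Set.Ico (g + n * ℓ) (g + (n + 1) * ℓ)) -
        Mx μ X B bh R x (Set.Ico (g + (n + 1) * ℓ) (g + (n + 2) * ℓ))| ≤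
      PE μ R * ((24 / N + (24 * (m + 3) * N ^ 2 + (m + 1) * N * (ℓ / h0)) / N * (8 * κ) +
        4 * κ) + 2 / ((κ ^ 2 / 18) ^ 2 * ps) *
          (DL μ X E C xh eh ch L R J0 J1 p e₁ + DL μ X E C xh eh ch L R J0 J1 p e₂ +
          DP μ X E B R e₁ + DP μ X E B R e₂)) := by
  have hs := D.s0
  have hμ := D.prob
  have hq := D.posR
  have hw : ∀ e, (e = e₁ ∨ e = e₂) → ∀ x ∈ A₁ ∪ A₂, ∀ ω, L ω → |eh e * (xh (X ω) - xh x)| ≤ w :=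
    fun e he x hx => hww e he x (mem_union.mp hx)
  have hA₁' : A₁ ⊆ univ.image X := fun x hx => by
    obtain ⟨ω, h⟩ := hA₁ x hx
    exact mem_image.mpr ⟨ω, mem_univ ω, h⟩
  have hA₂' : A₂ ⊆ univ.image X := fun x hx => by
    obtain ⟨ω, h⟩ := hA₂ x hx
    exact mem_image.mpr ⟨ω, mem_univ ω, h⟩
  have d1 := DL_nonneg (xh := xh) (eh := eh) (ch := ch) (C := C) (E := E) (R := R) (J0 := J0)
    (J1 := J1) hμ hp0 hp e₁
  have d2 := DL_nonneg (xh := xh) (eh := eh) (ch := ch) (C := C) (E := E) (R := R) (J0 := J0)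
    (J1 := J1) hμ hp0 hp e₂
  have d3 := DP_nonneg (X := X) (E := E) (B := B) (R := R) hμ e₁
  have d4 := DP_nonneg (X := X) (E := E) (B := B) (R := R) hμ e₂
  set S := DL μ X E C xh eh ch L R J0 J1 p e₁ + DL μ X E C xh eh ch L R J0 J1 p e₂ +
          DP μ X E B R e₁ + DP μ X E B R e₂ with hS
  have hS0 : 0 ≤ S := by linarith
  have hc : 0 < (κ ^ 2 / 18) ^ 2 * ps := by positivity
  set M0 : ℝ := 24 / N + (24 * (m + 3) * N ^ 2 + (m + 1) * N * (ℓ / h0)) / N * (8 * κ) + 4 * κ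
    with hM0
  have hM00 : 0 ≤ M0 := by positivity
  by_cases hsm : S ≤ (κ ^ 2 / 18) ^ 2 * ps
  · have hb : ∀ e, (e = e₁ ∨ e = e₂) → ∀ A, (A = A₁ ∨ A = A₂) →
        Budget μ X E C B xh eh ch bh L R J0 J1 p A (κ ^ 2 / 18) e := by
      rintro e (rfl | rfl) A (rfl | rfl)
      · exact budget_of_le hμ hp0 hp _ _ hA₁' hF1 hps1 (by linarith) (by linarith)
      · exact budget_of_le hμ hp0 hp _ _ hA₂' hF1 hps2 (by linarith) (by linarith)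
      · exact budget_of_le hμ hp0 hp _ _ hA₁' hF2 hps1 (by linarith) (by linarith)
      · exact budget_of_le hμ hp0 hp _ _ hA₂' hF2 hps2 (by linarith) (by linarith)
    have h1 := D.class hp0 hp A₁ A₂ hκ hκ1 hw hw' hb hA1 hh0 ℓ g m N hℓ0 hN0 hℓ hsℓ hN hg0 hg1 hw0
    refine h1.trans (mul_le_mul_of_nonneg_left ?_ hq.le)
    have : 0 ≤ 2 / ((κ ^ 2 / 18) ^ 2 * ps) * S := by positivity
    linarith
  · push Not at hsm
    have h1 : ∑ x ∈ A₁.filter (fun x => κ * ∑ x ∈ A₂, p x < ∑ x' ∈ A₂.filter (fun x' =>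
        h0 ≤ |(eh e₁ - eh e₂) * (xh x' - xh x)| ∧ |(eh e₁ - eh e₂) * (xh x' - xh x)| ≤ h1), p x'),
      ∑ n ∈ range (m + 1), |Mx μ X B bh R x (Set.Ico (g + n * ℓ) (g + (n + 1) * ℓ)) -
        Mx μ X B bh R x (Set.Ico (g + (n + 1) * ℓ) (g + (n + 2) * ℓ))| ≤ 2 * PE μ R := by
      refine (sum_le_sum fun x _ => sum_abs_Mx_le hμ x g ℓ hℓ0 m J0 J1 (by linarith)
        (by linarith)).trans ?_
      rw [← mul_sum]
      refine mul_le_mul_of_nonneg_left ?_ (by norm_num)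
      exact sum_PE_le hμ _ (fun x ω => X ω = x ∧ bh (B ω) ∈ Set.Icc J0 J1 ∧ R ω) _
        (fun x _ ω h => h.2.2) fun x _ y _ hne ω h h' => hne (h.1.symm.trans h'.1)
    refine h1.trans ?_
    have h2 : 1 ≤ S / ((κ ^ 2 / 18) ^ 2 * ps) := by
      rw [le_div_iff₀ hc]; linarith
    have h3 : 2 / ((κ ^ 2 / 18) ^ 2 * ps) * S = 2 * (S / ((κ ^ 2 / 18) ^ 2 * ps)) := by ring
    rw [h3, mul_comm]
    refine mul_le_mul_of_nonneg_left ?_ hq.le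
    linarith

end

end Vale.Agent.P065.H819
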