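import Vale.Agent.P065.H819.FairAvg

/-!
# P065, package FAIR, part 5: the final form, and the entropy of a fair digit
-/

set_option autoImplicit false

open Finset Real

noncomputable section

namespace Vale.Agent.P065.H819

open Vale.Agent.P065.Ent

variable {Ω : Type*} [Fintype Ω] {ξ ε η₁ η₂ γ : Type*}

section
variable {μ : Ω → ℝ} {X : Ω → ξ} {E : Ω → ε} {C : Ω → η₁} {B : Ω → η₂} {xh : ξ → ℝ}
    {eh : ε → ℝ} {ch : η₁ → ℝ} {bh : η₂ → ℝ} {L R : Ω → Prop} {J0 J1 s : ℝ} {e₁ e₂ : ε}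
    {p : ξ → ℝ} {κ η : ℝ}

open Classical in
/-- **FAIR, final form**: two classes `A₁` (the flags) and `A₂` (the exits) of time digits, whose
parts of the informations are at most `η² p (A) μ (e, R)`.  All `x ∈ A₁` outside a set of small
`p`-mass which have enough exit mass at a distance have fair rows. -/
theorem FBox.main (D : FBox μ X E C B xh eh ch bh L R J0 J1 s e₁ e₂)
    (hp0 : ∀ x, 0 ≤ p x) (hp : ∀ x, 0 < PE μ (fun ω => X ω = x ∧ L ω) → 0 < p x)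
    (A₁ A₂ : Finset ξ) (hη : 0 ≤ η) (hη4 : η ≤ 1 / 4) (hκ : 0 < κ) {w : ℝ}
    (hw : ∀ e, (e = e₁ ∨ e = e₂) → ∀ x ∈ A₁ ∪ A₂, ∀ ω, L ω → |eh e * (xh (X ω) - xh x)| ≤ w)
    (hw' : ∀ e, (e = e₁ ∨ e = e₂) → ∀ x ∈ A₁, ∀ x' ∈ A₂, |eh e * (xh x' - xh x)| ≤ w)
    (b : ∀ e, (e = e₁ ∨ e = e₂) → ∀ A, (A = A₁ ∨ A = A₂) →
      Budget μ X E C B xh eh ch bh L R J0 J1 p A η e)
    {h0 h1 : ℝ} (hh0 : 0 < h0)
    (ℓ g : ℝ) (m N : ℕ) (hℓ : 4 * h1 ≤ ℓ) (hsℓ : 16 * ℓ * s ≤ h0 ^ 2) (hN : 4 * N * h1 ≤ ℓ)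
    (hg0 : J0 + 5 * s + 2 * w + ℓ ≤ g) (hg1 : g + (m + 2) * ℓ + ℓ + 5 * s + 2 * w ≤ J1) :
    ∃ Bad ⊆ A₁, ∑ x ∈ Bad, p x ≤ (18 * η / κ) * ∑ x ∈ A₁, p x ∧ ∀ x ∈ A₁, x ∉ Bad → 0 < p x →
      (18 * η / κ) * ∑ x ∈ A₂, p x < ∑ x' ∈ A₂.filter (fun x' =>
        h0 ≤ |(eh e₁ - eh e₂) * (xh x' - xh x)| ∧ |(eh e₁ - eh e₂) * (xh x' - xh x)| ≤ h1), p x' →
      N * ∑ n ∈ range (m + 1), |Mx μ X B bh R x (Set.Ico (g + n * ℓ) (g + (n + 1) * ℓ)) -
        Mx μ X B bh R x (Set.Ico (g + (n + 1) * ℓ) (g + (n + 2) * ℓ))| ≤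
      24 * PE μ (fun ω => X ω = x ∧ R ω) + (24 * (m + 3) * N ^ 2 + (m + 1) * N * (ℓ / h0)) *
        (8 * κ * (PE μ R * p x)) := by
  have hs := D.s0
  obtain ⟨Bad, hBsub, hBm, hB⟩ := D.goodAt hp0 hp A₁ hη hη4 hκ
    (fun x hx => hw e₁ (Or.inl rfl) x (mem_union_left _ hx))
    (fun x hx => hw e₂ (Or.inr rfl) x (mem_union_left _ hx)) (b e₁ (Or.inl rfl) A₁ (Or.inl rfl))
    (b e₂ (Or.inr rfl) A₁ (Or.inl rfl))
  obtain ⟨Bad', -, hBm', hB'⟩ := D.goodAt hp0 hp A₂ hη hη4 hκ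
    (fun x hx => hw e₁ (Or.inl rfl) x (mem_union_right _ hx))
    (fun x hx => hw e₂ (Or.inr rfl) x (mem_union_right _ hx)) (b e₁ (Or.inl rfl) A₂ (Or.inr rfl))
    (b e₂ (Or.inr rfl) A₂ (Or.inr rfl))
  refine ⟨Bad, hBsub, hBm, fun x hx hxb hpx hfar => ?_⟩
  -- a good exit
  obtain ⟨x', hx', hxb', hpx'⟩ : ∃ x' ∈ A₂.filter (fun x' =>
      h0 ≤ |(eh e₁ - eh e₂) * (xh x' - xh x)| ∧ |(eh e₁ - eh e₂) * (xh x' - xh x)| ≤ h1),
      x' ∉ Bad' ∧ 0 < p x' := by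
    by_contra hcon
    push Not at hcon
    have h2 : ∑ x' ∈ A₂.filter (fun x' => h0 ≤ |(eh e₁ - eh e₂) * (xh x' - xh x)| ∧
        |(eh e₁ - eh e₂) * (xh x' - xh x)| ≤ h1), p x' ≤ ∑ x' ∈ Bad', p x' := by
      rw [← sum_filter_add_sum_filter_not (A₂.filter (fun x' =>
        h0 ≤ |(eh e₁ - eh e₂) * (xh x' - xh x)| ∧ |(eh e₁ - eh e₂) * (xh x' - xh x)| ≤ h1))
        (fun x' => x' ∈ Bad')]
      have h3 : ∑ x' ∈ (A₂.filter (fun x' => h0 ≤ |(eh e₁ - eh e₂) * (xh x' - xh x)| ∧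
          |(eh e₁ - eh e₂) * (xh x' - xh x)| ≤ h1)).filter (fun x' => x' ∉ Bad'), p x' ≤ 0 :=
        sum_nonpos fun y hy => hcon y (mem_filter.mp hy).1 (mem_filter.mp hy).2
      have h4 : ∑ x' ∈ (A₂.filter (fun x' => h0 ≤ |(eh e₁ - eh e₂) * (xh x' - xh x)| ∧
          |(eh e₁ - eh e₂) * (xh x' - xh x)| ≤ h1)).filter (fun x' => x' ∈ Bad'), p x' ≤
          ∑ x' ∈ Bad', p x' :=
        sum_le_sum_of_subset_of_nonneg (fun y hy => (mem_filter.mp hy).2) fun y _ _ => hp0 y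
      linarith
    linarith
  obtain ⟨hx'A, hx'0, hx'1⟩ := mem_filter.mp hx'
  obtain ⟨g11, g12⟩ := hB x hx hxb
  obtain ⟨g21, g22⟩ := hB' x' hx'A hxb'
  -- `w ≥ 0`
  have hw0 : 0 ≤ w := (abs_nonneg _).trans (hw' e₁ (Or.inl rfl) x hx x' hx'A)
  have D' : FBox μ X E C B xh eh ch bh L R (J0 + w + 2 * s) (J1 - w - 2 * s) s e₁ e₂ :=
    D.shrink (by linarith) (by linarith)
  set h : ℝ := |(eh e₁ - eh e₂) * (xh x' - xh x)| with hh
  have hpos : 0 < h := hh0.trans_le hx'0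
  have hNh : 4 * (N : ℝ) * h ≤ ℓ := by
    have : 4 * (N : ℝ) * h ≤ 4 * N * h1 := mul_le_mul_of_nonneg_left hx'1 (by positivity)
    linarith
  have hmain := D'.fair hκ.le g11 g21 g12 g22 hpx hpx' hh hpos
    (hw' e₁ (Or.inl rfl) x hx x' hx'A) (hw' e₂ (Or.inr rfl) x hx x' hx'A) ℓ g m N
    (by linarith) (by
      have : h0 ^ 2 ≤ h ^ 2 := pow_le_pow_left₀ hh0.le hx'0 2
      linarith) hNh (by linarith) (by linarith)
  refine hmain.trans ?_
  have hℓ0 : 0 ≤ ℓ := by linarith [hx'1, hpos]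
  have hdiv : ℓ / h ≤ ℓ / h0 := div_le_div_of_nonneg_left hℓ0 hh0 hx'0
  have hU : 0 ≤ 8 * κ * (PE μ R * p x) := by
    have := D.posR
    positivity
  have hm : 0 ≤ ((m : ℝ) + 1) * N := by positivity
  have h5 : ((m : ℝ) + 1) * N * (ℓ / h) ≤ (m + 1) * N * (ℓ / h0) :=
    mul_le_mul_of_nonneg_left hdiv hm
  nlinarith

end

/-! ## The entropy of a fair digit -/

lemma two_mul_log_two_mul_le_binEntropy {u : ℝ} (h0 : 0 ≤ u) (h1 : u ≤ 1 / 2) :
    2 * u * log 2 ≤ binEntropy u := by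
  have hc := (strictConcave_binEntropy.concaveOn).2
    (show (0 : ℝ) ∈ Set.Icc (0 : ℝ) 1 by constructor <;> norm_num)
    (show (1 / 2 : ℝ) ∈ Set.Icc (0 : ℝ) 1 by constructor <;> norm_num)
    (show (0 : ℝ) ≤ 1 - 2 * u by linarith) (show (0 : ℝ) ≤ 2 * u by linarith) (by ring)
  have e1 : binEntropy (1 / 2) = log 2 := by
    rw [one_div]; exact binEntropy_two_inv
  have e2 : (1 - 2 * u) * 0 + 2 * u * (1 / 2) = u := by ring
  simp only [smul_eq_mul, binEntropy_zero, e1, e2] at hc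
  linarith

lemma log_two_mul_le_binEntropy {u : ℝ} (h0 : 0 ≤ u) (h1 : u ≤ 1) :
    log 2 * (1 - |2 * u - 1|) ≤ binEntropy u := by
  rcases le_total u (1 / 2) with h | h
  · have := two_mul_log_two_mul_le_binEntropy h0 h
    rw [abs_of_nonpos (by linarith)]
    linarith
  · have := two_mul_log_two_mul_le_binEntropy (u := 1 - u) (by linarith) (by linarith)
    rw [binEntropy_one_sub] at this
    rw [abs_of_nonneg (by linarith)]
    linarith

lemma H_prop_eq {ν : Ω → ℝ} (hν : IsProb ν) (Q : Ω → Prop) : H ν Q = binEntropy (PE ν Q) := by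
  classical
  have h1 : PE ν Q + PE ν (fun ω => ¬ Q ω) = 1 := by
    rw [PE_add _ _ (fun ω h => not_not.mpr h), PE_def, ← hν.sum]
    exact sum_congr rfl fun ω _ => if_pos (em _)
  have h2 : Pr ν Q False = PE ν (fun ω => ¬ Q ω) := by
    unfold PE Pr
    refine sum_congr rfl fun ω _ => ?_
    by_cases hq : Q ω <;> simp [hq]
  have h3 : H ν Q = ∑ ω, ν ω * (if Q ω then - log (PE ν Q) else - log (1 - PE ν Q)) := by
    unfold H
    refine sum_congr rfl fun ω _ => ?_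
    by_cases hq : Q ω
    · rw [if_pos hq]
      have : Q ω = True := eq_true hq
      rw [this]
    · rw [if_neg hq]
      have : Q ω = False := eq_false hq
      rw [this, h2]
      congr 3
      linarith
  rw [h3]
  have h4 : ∑ ω, ν ω * (if Q ω then - log (PE ν Q) else - log (1 - PE ν Q)) =
      (- log (PE ν Q)) * PE ν Q + (- log (1 - PE ν Q)) * PE ν (fun ω => ¬ Q ω) := by
    rw [PE_def ν Q, PE_def ν (fun ω => ¬ Q ω), mul_sum, mul_sum, ← sum_add_distrib]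
    rw [← PE_def ν Q]
    refine sum_congr rfl fun ω _ => ?_
    by_cases hq : Q ω
    · simp [hq]; ring
    · simp [hq]; ring
  rw [h4, binEntropy, log_inv, log_inv]
  have h5 : PE ν (fun ω => ¬ Q ω) = 1 - PE ν Q := by linarith
  rw [h5]; ring

open Classical in
/-- **the entropy of a digit** under any law: at least `log 2` times the mass on which it is fair -/
theorem Hc_digit_ge {ν : Ω → ℝ} (hν : IsProb ν) (Dg : Ω → Prop) (Z : Ω → γ) (T : Finset γ) :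
    log 2 * ∑ z ∈ T, (PE ν (fun ω => Z ω = z) -
      |PE ν (fun ω => Z ω = z ∧ Dg ω) - PE ν (fun ω => Z ω = z ∧ ¬ Dg ω)|) ≤ Hc ν Dg Z := by
  have hlog2 : 0 ≤ log 2 := log_nonneg (by norm_num)
  rw [Hc_fiber hν]
  have hPE : ∀ z, PE ν (fun ω => Z ω = z) = Pr ν Z z := by
    intro z
    rw [PE_def]; rfl
  -- each value
  have key : ∀ z, log 2 * (PE ν (fun ω => Z ω = z) -
      |PE ν (fun ω => Z ω = z ∧ Dg ω) - PE ν (fun ω => Z ω = z ∧ ¬ Dg ω)|) ≤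
      Pr ν Z z * H (cnd ν Z z) Dg := by
    intro z
    rw [hPE]
    have hadd : PE ν (fun ω => Z ω = z ∧ Dg ω) + PE ν (fun ω => Z ω = z ∧ ¬ Dg ω) = Pr ν Z z := by
      rw [PE_add _ _ (fun ω h h' => h'.2 h.2), ← hPE]
      exact PE_congr fun ω => by tauto
    rcases (Pr_nonneg hν Z z).eq_or_lt with h0 | h0
    · have n1 := PE_nonneg hν (fun ω => Z ω = z ∧ Dg ω)
      have n2 := PE_nonneg hν (fun ω => Z ω = z ∧ ¬ Dg ω)
      rw [← h0] at hadd ⊢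
      have := abs_nonneg (PE ν (fun ω => Z ω = z ∧ Dg ω) - PE ν (fun ω => Z ω = z ∧ ¬ Dg ω))
      nlinarith
    · rw [H_prop_eq (cnd_isProb hν h0)]
      have hu : PE (cnd ν Z z) Dg = PE ν (fun ω => Z ω = z ∧ Dg ω) / Pr ν Z z := by
        unfold PE
        rw [Pr_cnd]
        congr 1
        unfold Pr
        refine sum_congr rfl fun ω _ => ?_
        by_cases ha : Z ω = z <;> by_cases hq : Dg ω <;> simp [ha, hq]
      set u := PE (cnd ν Z z) Dg with hud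
      have hu0 : 0 ≤ u := PE_nonneg (cnd_isProb hν h0) _
      have hu1 : u ≤ 1 := PE_le_one (cnd_isProb hν h0) _
      have h1 := log_two_mul_le_binEntropy hu0 hu1
      have h2 := mul_le_mul_of_nonneg_left h1 h0.le
      refine le_trans (le_of_eq ?_) h2
      have h3 : PE ν (fun ω => Z ω = z ∧ Dg ω) = Pr ν Z z * u := by
        rw [hu]; field_simp
      have h4 : PE ν (fun ω => Z ω = z ∧ ¬ Dg ω) = Pr ν Z z * (1 - u) := by linarith
      rw [h3, h4, ← mul_sub, abs_mul, abs_of_pos h0]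
      have h5 : u - (1 - u) = 2 * u - 1 := by ring
      rw [h5]; ring
  rw [mul_sum]
  have hzero : ∀ z ∈ T, z ∉ univ.image Z → log 2 * (PE ν (fun ω => Z ω = z) -
      |PE ν (fun ω => Z ω = z ∧ Dg ω) - PE ν (fun ω => Z ω = z ∧ ¬ Dg ω)|) ≤ 0 := by
    intro z _ hz
    have hz' : ∀ ω, Z ω ≠ z := fun ω h => hz (h ▸ mem_image_of_mem Z (mem_univ ω))
    rw [PE_false hz', PE_false (fun ω h => hz' ω h.1), PE_false (fun ω h => hz' ω h.1)]
    simp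
  calc ∑ z ∈ T, log 2 * (PE ν (fun ω => Z ω = z) -
      |PE ν (fun ω => Z ω = z ∧ Dg ω) - PE ν (fun ω => Z ω = z ∧ ¬ Dg ω)|)
      ≤ ∑ z ∈ T.filter (fun z => z ∈ univ.image Z), Pr ν Z z * H (cnd ν Z z) Dg := by
        rw [← sum_filter_add_sum_filter_not T (fun z => z ∈ univ.image Z)]
        have h1 := sum_le_sum fun z (_ : z ∈ T.filter (fun z => z ∈ univ.image Z)) => key z
        have h2 : ∑ z ∈ T.filter (fun z => z ∉ univ.image Z), log 2 * (PE ν (fun ω => Z ω = z) -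
          |PE ν (fun ω => Z ω = z ∧ Dg ω) - PE ν (fun ω => Z ω = z ∧ ¬ Dg ω)|) ≤ 0 :=
          sum_nonpos fun z hz => hzero z (mem_filter.mp hz).1 (mem_filter.mp hz).2
        linarith
    _ ≤ ∑ z ∈ univ.image Z, Pr ν Z z * H (cnd ν Z z) Dg := by
        refine sum_le_sum_of_subset_of_nonneg (fun z hz => (mem_filter.mp hz).2) fun z _ _ => ?_
        rcases (Pr_nonneg hν Z z).eq_or_lt with h0 | h0
        · rw [← h0, zero_mul]
        · exact mul_nonneg h0.le (H_nonneg (cnd_isProb hν h0) _)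

end Vale.Agent.P065.H819
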