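import Vale.Agent.P065.H819.FairFin

/-!
# P065, package FAIR, local form, part 1

For every pair of neighbouring cells of length `ℓ` the difference of the masses is at most
`16 / N` times the mass of the pair, up to an error: no sum over the whole box.
-/

set_option autoImplicit false

open Finset Real

noncomputable section

namespace Vale.Agent.P065.H819

open Vale.Agent.P065.Ent

section qinv

variable {M : Set ℝ → ℝ} {K0 K1 h σ Err : ℝ}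

/-- the eight pieces of a zone -/
lemma QInv.zone_le (D : QInv M K0 K1 h σ Err) (hM : M ∅ = 0) (t : ℝ) :
    M (Zone h t) ≤ ∑ i ∈ range 8,
      M (Set.Ico (t - 2 * h + (i : ℕ) * (h / 2)) (t - 2 * h + ((i : ℕ) + 1) * (h / 2))) := by
  have hh := D.hh
  refine D.le_sum hM (range 8)
    (fun i : ℕ => Set.Ico (t - 2 * h + (i : ℕ) * (h / 2)) (t - 2 * h + ((i : ℕ) + 1) * (h / 2)))
    _ ?_
  intro x hx
  have x1 := hx.1
  have x2 := hx.2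
  set i := ⌊(x - (t - 2 * h)) / (h / 2)⌋₊ with hi
  have h0 : 0 ≤ (x - (t - 2 * h)) / (h / 2) := div_nonneg (by linarith) (by linarith)
  have h1 := Nat.floor_le h0
  have h2 := Nat.lt_floor_add_one ((x - (t - 2 * h)) / (h / 2))
  rw [← hi] at h1 h2
  rw [le_div_iff₀ (by linarith)] at h1
  rw [div_lt_iff₀ (by linarith)] at h2
  simp only [Set.mem_iUnion, mem_range, Set.mem_Ico, exists_prop]
  refine ⟨i, ?_, by linarith, by linarith⟩
  by_contra hcon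
  push Not at hcon
  have : (8 : ℝ) ≤ i := by exact_mod_cast hcon
  nlinarith

/-- the zone around `t` is light compared with the cell to its right -/
lemma QInv.zone_right (D : QInv M K0 K1 h σ Err) (hM : M ∅ = 0) (N : ℕ) (t ℓ : ℝ)
    (h0 : K0 ≤ t - 2 * h) (h1 : t + ℓ ≤ K1) (hroom : 5 * h + 3 * σ + N * (σ + h) ≤ ℓ)
    (hgap : h / 2 + 6 * σ + 2 * N * σ ≤ h) :
    N * M (Zone h t) ≤ 8 * (M (Set.Ico t (t + ℓ)) + (N ^ 2 + 3 * N) * Err) := by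
  have hh := D.hh
  have hσ := D.hσ
  have hN0 : (0 : ℝ) ≤ N := Nat.cast_nonneg N
  have hNσ0 : 0 ≤ 2 * (N : ℝ) * σ := by positivity
  have h2 : ∀ i ∈ range 8, N * M (Set.Ico (t - 2 * h + (i : ℕ) * (h / 2))
      (t - 2 * h + ((i : ℕ) + 1) * (h / 2))) ≤
      M (Set.Ico t (t + ℓ)) + (N ^ 2 + 3 * N) * Err := by
    intro i hi
    have hi8 : (i : ℝ) + 1 ≤ 8 := by
      have : i + 1 ≤ 8 := by have := mem_range.mp hi; omega
      exact_mod_cast this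
    have hi0 : (0 : ℝ) ≤ i := Nat.cast_nonneg i
    have hn : 0 ≤ (N : ℝ) * (σ + h) := by positivity
    have e0 : 0 ≤ (i : ℝ) * (h / 2) := by positivity
    have e1 : ((i : ℝ) + 1) * (h / 2) ≤ 8 * (h / 2) :=
      mul_le_mul_of_nonneg_right hi8 (by linarith)
    have e2 : ((i : ℝ) + 1) * (h / 2) = i * (h / 2) + h / 2 := by ring
    set u : ℝ := t - 2 * h + (i : ℕ) * (h / 2) with hu
    have hu' : t - 2 * h + ((i : ℕ) + 1) * (h / 2) = u + h / 2 := by rw [hu]; ring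
    rw [hu']
    have hu1 : t - 2 * h ≤ u := by linarith
    have hu2 : u + h / 2 ≤ t + 2 * h := by linarith
    -- three steps to the right
    have s1 := D.right 3 u (u + h / 2) (by linarith) (by push_cast; linarith)
    push_cast at s1
    have s2 := D.fill_right N (u - 3 * σ + 3 * h) (u + h / 2 + 3 * σ + 3 * h) t (t + ℓ)
      (by linarith) h1 (by linarith) (by linarith) (by linarith)
    have s3 := mul_le_mul_of_nonneg_left s1 hN0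
    linarith
  have h3 := sum_le_sum h2
  rw [← mul_sum, sum_const, card_range, nsmul_eq_mul] at h3
  have h4 := mul_le_mul_of_nonneg_left (D.zone_le hM t) hN0
  push_cast at h3
  linarith

/-- the zone around `t` is light compared with the cell to its left -/
lemma QInv.zone_left (D : QInv M K0 K1 h σ Err) (hM : M ∅ = 0) (N : ℕ) (t ℓ : ℝ)
    (h0 : K0 ≤ t - ℓ) (h1 : t + 2 * h ≤ K1) (hroom : 5 * h + 3 * σ + N * (σ + h) ≤ ℓ)
    (hgap : h / 2 + 6 * σ + 2 * N * σ ≤ h) :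
    N * M (Zone h t) ≤ 8 * (M (Set.Ico (t - ℓ) t) + (N ^ 2 + 3 * N) * Err) := by
  have hh := D.hh
  have hσ := D.hσ
  have hN0 : (0 : ℝ) ≤ N := Nat.cast_nonneg N
  have hNσ0 : 0 ≤ 2 * (N : ℝ) * σ := by positivity
  have h2 : ∀ i ∈ range 8, N * M (Set.Ico (t - 2 * h + (i : ℕ) * (h / 2))
      (t - 2 * h + ((i : ℕ) + 1) * (h / 2))) ≤
      M (Set.Ico (t - ℓ) t) + (N ^ 2 + 3 * N) * Err := by
    intro i hi
    have hi8 : (i : ℝ) + 1 ≤ 8 := by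
      have : i + 1 ≤ 8 := by have := mem_range.mp hi; omega
      exact_mod_cast this
    have hi0 : (0 : ℝ) ≤ i := Nat.cast_nonneg i
    have hn : 0 ≤ (N : ℝ) * (σ + h) := by positivity
    have e0 : 0 ≤ (i : ℝ) * (h / 2) := by positivity
    have e1 : ((i : ℝ) + 1) * (h / 2) ≤ 8 * (h / 2) :=
      mul_le_mul_of_nonneg_right hi8 (by linarith)
    have e2 : ((i : ℝ) + 1) * (h / 2) = i * (h / 2) + h / 2 := by ring
    set u : ℝ := t - 2 * h + (i : ℕ) * (h / 2) with hu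
    have hu' : t - 2 * h + ((i : ℕ) + 1) * (h / 2) = u + h / 2 := by rw [hu]; ring
    rw [hu']
    have hu1 : t - 2 * h ≤ u := by linarith
    have hu2 : u + h / 2 ≤ t + 2 * h := by linarith
    have s1 := D.left 3 u (u + h / 2) (by push_cast; linarith) (by linarith)
    push_cast at s1
    have s2 := D.fill_left N (u - 3 * σ - 3 * h) (u + h / 2 + 3 * σ - 3 * h) (t - ℓ) t
      h0 (by linarith) (by linarith) (by linarith) (by linarith)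
    have s3 := mul_le_mul_of_nonneg_left s1 hN0
    linarith
  have h3 := sum_le_sum h2
  rw [← mul_sum, sum_const, card_range, nsmul_eq_mul] at h3
  have h4 := mul_le_mul_of_nonneg_left (D.zone_le hM t) hN0
  push_cast at h3
  linarith

/-- **FAIR**, local form: the two cells `[t - ℓ, t)` and `[t, t + ℓ)` -/
theorem QInv.pair (D : QInv M K0 K1 h σ Err) (hM : M ∅ = 0) (ℓ t : ℝ) (N : ℕ)
    (hℓ : 8 * h ≤ ℓ) (hσℓ : 4 * ℓ * σ ≤ h ^ 2) (hN : 4 * N * h ≤ ℓ)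
    (h0 : K0 ≤ t - ℓ - 2 * h) (h1 : t + ℓ + 2 * h ≤ K1) :
    N * |M (Set.Ico (t - ℓ) t) - M (Set.Ico t (t + ℓ))| ≤
      16 * (M (Set.Ico (t - ℓ) t) + M (Set.Ico t (t + ℓ))) +
        (24 * (N ^ 2 + 3 * N) + N * (ℓ / h)) * Err := by
  have hh := D.hh
  have hσ := D.hσ
  have hErr := D.hErr
  have hN0 : (0 : ℝ) ≤ N := Nat.cast_nonneg N
  have hℓ0 : 0 < ℓ := by linarith
  have hσ16 : σ ≤ h / 32 := by
    have e1 : (32 * σ) * h ≤ h * h := by nlinarith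
    have := le_of_mul_le_mul_right e1 hh
    linarith
  have hNσ : 2 * N * σ ≤ h / 8 := by
    have e1 : 2 * N * σ * h * 8 ≤ h * h := by nlinarith
    have e2 : (2 * N * σ * 8) * h ≤ h * h := by linarith
    have := le_of_mul_le_mul_right e2 hh
    linarith
  have hroom : 5 * h + 3 * σ + N * (σ + h) ≤ ℓ := by nlinarith
  have hgap : h / 2 + 6 * σ + 2 * N * σ ≤ h := by linarith
  have z1 := D.zone_right hM N (t - ℓ) ℓ (by linarith) (by linarith) hroom hgap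
  have z2 := D.zone_right hM N t ℓ (by linarith) (by linarith) hroom hgap
  have z3 := D.zone_left hM N (t + ℓ) ℓ (by linarith) (by linarith) hroom hgap
  have e1 : t - ℓ + ℓ = t := by ring
  have e2 : t + ℓ - ℓ = t := by ring
  rw [e1] at z1
  rw [e2] at z3
  have hm := D.halves ℓ t hℓ0 (by nlinarith) (by linarith) (by linarith)
  have hm' := mul_le_mul_of_nonneg_left hm hN0
  have n1 := D.nonneg (Set.Ico (t - ℓ) t)
  linarith

end qinv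

section fbox

variable {Ω : Type*} [Fintype Ω] {ξ ε η₁ η₂ : Type*}
variable {μ : Ω → ℝ} {X : Ω → ξ} {E : Ω → ε} {C : Ω → η₁} {B : Ω → η₂} {xh : ξ → ℝ}
    {eh : ε → ℝ} {ch : η₁ → ℝ} {bh : η₂ → ℝ} {L R : Ω → Prop} {J0 J1 s : ℝ} {e₁ e₂ : ε}
    {p : ξ → ℝ} {κ η : ℝ}

/-- **FAIR**, local form, at one good time digit -/
theorem FBox.pair (D : FBox μ X E C B xh eh ch bh L R J0 J1 s e₁ e₂) (hκ : 0 ≤ κ) {x₁ x₂ : ξ}
    (g11 : GoodAt μ X E C B xh eh ch bh L R J0 J1 p κ x₁ e₁)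
    (g21 : GoodAt μ X E C B xh eh ch bh L R J0 J1 p κ x₂ e₁)
    (g12 : GoodAt μ X E C B xh eh ch bh L R J0 J1 p κ x₁ e₂)
    (g22 : GoodAt μ X E C B xh eh ch bh L R J0 J1 p κ x₂ e₂)
    (hp1 : 0 < p x₁) (hp2 : 0 < p x₂) {h w : ℝ}
    (hh : h = |(eh e₁ - eh e₂) * (xh x₂ - xh x₁)|) (hh0 : 0 < h)
    (hw1 : |eh e₁ * (xh x₂ - xh x₁)| ≤ w) (hw2 : |eh e₂ * (xh x₂ - xh x₁)| ≤ w)
    (ℓ t : ℝ) (N : ℕ) (hℓ : 8 * h ≤ ℓ) (hsℓ : 16 * ℓ * s ≤ h ^ 2) (hN : 4 * N * h ≤ ℓ)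
    (h0 : J0 + 3 * s + w ≤ t - ℓ - 2 * h) (h1 : t + ℓ + 2 * h + 3 * s + w ≤ J1) :
    N * |Mx μ X B bh R x₁ (Set.Ico (t - ℓ) t) - Mx μ X B bh R x₁ (Set.Ico t (t + ℓ))| ≤
      16 * (Mx μ X B bh R x₁ (Set.Ico (t - ℓ) t) + Mx μ X B bh R x₁ (Set.Ico t (t + ℓ))) +
        (24 * (N ^ 2 + 3 * N) + N * (ℓ / h)) * (8 * κ * (PE μ R * p x₁)) := by
  have hs := D.s0
  have hsh : 4 * s ≤ h := by
    have e1 : 16 * (8 * h) * s ≤ h ^ 2 := by nlinarith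
    have e2 : (128 * s) * h ≤ h * h := by nlinarith
    have := le_of_mul_le_mul_right e2 hh0
    linarith
  have Q := D.qinv hκ g11 g21 g12 g22 hp1 hp2 (K0 := J0 + 3 * s + w) (K1 := J1 - 3 * s - w)
    hh hh0 hsh hw1 hw2 le_rfl (by linarith)
  exact Q.pair (Mx_empty x₁) ℓ t N hℓ (by linarith) hN h0 (by linarith)

open Classical in
/-- **FAIR, local form, all time digits** -/
theorem FBox.mainL (D : FBox μ X E C B xh eh ch bh L R J0 J1 s e₁ e₂)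
    (hp0 : ∀ x, 0 ≤ p x) (hp : ∀ x, 0 < PE μ (fun ω => X ω = x ∧ L ω) → 0 < p x)
    (A₁ A₂ : Finset ξ) (hη : 0 ≤ η) (hη4 : η ≤ 1 / 4) (hκ : 0 < κ) {w : ℝ}
    (hw : ∀ e, (e = e₁ ∨ e = e₂) → ∀ x ∈ A₁ ∪ A₂, ∀ ω, L ω → |eh e * (xh (X ω) - xh x)| ≤ w)
    (hw' : ∀ e, (e = e₁ ∨ e = e₂) → ∀ x ∈ A₁, ∀ x' ∈ A₂, |eh e * (xh x' - xh x)| ≤ w)
    (b : ∀ e, (e = e₁ ∨ e = e₂) → ∀ A, (A = A₁ ∨ A = A₂) →
      Budget μ X E C B xh eh ch bh L R J0 J1 p A η e)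
    {h0 h1 : ℝ} (hh0 : 0 < h0)
    (ℓ : ℝ) (N : ℕ) (hℓ : 8 * h1 ≤ ℓ) (hsℓ : 16 * ℓ * s ≤ h0 ^ 2) (hN : 4 * N * h1 ≤ ℓ) :
    ∃ Bad ⊆ A₁, ∑ x ∈ Bad, p x ≤ (18 * η / κ) * ∑ x ∈ A₁, p x ∧ ∀ x ∈ A₁, x ∉ Bad → 0 < p x →
      (18 * η / κ) * ∑ x ∈ A₂, p x < ∑ x' ∈ A₂.filter (fun x' =>
        h0 ≤ |(eh e₁ - eh e₂) * (xh x' - xh x)| ∧ |(eh e₁ - eh e₂) * (xh x' - xh x)| ≤ h1), p x' →
      ∀ t : ℝ, J0 + 5 * s + 2 * w + 2 * h1 ≤ t - ℓ → t + ℓ + 5 * s + 2 * w + 2 * h1 ≤ J1 →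
      N * |Mx μ X B bh R x (Set.Ico (t - ℓ) t) - Mx μ X B bh R x (Set.Ico t (t + ℓ))| ≤
      16 * (Mx μ X B bh R x (Set.Ico (t - ℓ) t) + Mx μ X B bh R x (Set.Ico t (t + ℓ))) +
        (24 * (N ^ 2 + 3 * N) + N * (ℓ / h0)) * (8 * κ * (PE μ R * p x)) := by
  have hs := D.s0
  obtain ⟨Bad, hBsub, hBm, hB⟩ := D.goodAt hp0 hp A₁ hη hη4 hκ
    (fun x hx => hw e₁ (Or.inl rfl) x (mem_union_left _ hx))
    (fun x hx => hw e₂ (Or.inr rfl) x (mem_union_left _ hx)) (b e₁ (Or.inl rfl) A₁ (Or.inl rfl))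
    (b e₂ (Or.inr rfl) A₁ (Or.inl rfl))
  obtain ⟨Bad', -, hBm', hB'⟩ := D.goodAt hp0 hp A₂ hη hη4 hκ
    (fun x hx => hw e₁ (Or.inl rfl) x (mem_union_right _ hx))
    (fun x hx => hw e₂ (Or.inr rfl) x (mem_union_right _ hx)) (b e₁ (Or.inl rfl) A₂ (Or.inr rfl))
    (b e₂ (Or.inr rfl) A₂ (Or.inr rfl))
  refine ⟨Bad, hBsub, hBm, fun x hx hxb hpx hfar t ht0 ht1 => ?_⟩
  -- a good exit
  obtain ⟨x', hx', hxb', hpx'⟩ : ∃ x' ∈ A₂.filter (fun x' =>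
      h0 ≤ |(eh e₁ - eh e₂) * (xh x' - xh x)| ∧ |(eh e₁ - eh e₂) * (xh x' - xh x)| ≤ h1),
      x' ∉ Bad' ∧ 0 < p x' := by
    by_contra hcon
    push Not at hcon
    have h2 : ∑ x' ∈ A₂.filter (fun x' => h0 ≤ |(eh e₁ - eh e₂) * (xh x' - xh x)| ∧
        |(eh e₁ - eh e₂) * (xh x' - xh x)| ≤ h1), p x' ≤ ∑ x' ∈ Bad', p x' := by
      rw [← sum_filter_add_sum_filter_not (A₂.filter (fun x' =>
        h0 ≤ |(eh e₁ - eh e₂) * (xh x' - xh x)| ∧ |(eh e₁ - eh e₂) * (xh x' - xh x)| ≤ h1))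
        (fun x' => x' ∈ Bad')]
      have h3 : ∑ x' ∈ (A₂.filter (fun x' => h0 ≤ |(eh e₁ - eh e₂) * (xh x' - xh x)| ∧
          |(eh e₁ - eh e₂) * (xh x' - xh x)| ≤ h1)).filter (fun x' => x' ∉ Bad'), p x' ≤ 0 :=
        sum_nonpos fun y hy => hcon y (mem_filter.mp hy).1 (mem_filter.mp hy).2
      have h4 : ∑ x' ∈ (A₂.filter (fun x' => h0 ≤ |(eh e₁ - eh e₂) * (xh x' - xh x)| ∧
          |(eh e₁ - eh e₂) * (xh x' - xh x)| ≤ h1)).filter (fun x' => x' ∈ Bad'), p x' ≤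
          ∑ x' ∈ Bad', p x' :=
        sum_le_sum_of_subset_of_nonneg (fun y hy => (mem_filter.mp hy).2) fun y _ _ => hp0 y
      linarith
    linarith
  obtain ⟨hx'A, hx'0, hx'1⟩ := mem_filter.mp hx'
  obtain ⟨g11, g12⟩ := hB x hx hxb
  obtain ⟨g21, g22⟩ := hB' x' hx'A hxb'
  -- `w ≥ 0`
  have hw0 : 0 ≤ w := (abs_nonneg _).trans (hw' e₁ (Or.inl rfl) x hx x' hx'A)
  have D' : FBox μ X E C B xh eh ch bh L R (J0 + w + 2 * s) (J1 - w - 2 * s) s e₁ e₂ :=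
    D.shrink (by linarith) (by linarith)
  set h : ℝ := |(eh e₁ - eh e₂) * (xh x' - xh x)| with hh
  have hpos : 0 < h := hh0.trans_le hx'0
  have hNh : 4 * (N : ℝ) * h ≤ ℓ := by
    have : 4 * (N : ℝ) * h ≤ 4 * N * h1 := mul_le_mul_of_nonneg_left hx'1 (by positivity)
    linarith
  have hmain := D'.pair hκ.le g11 g21 g12 g22 hpx hpx' hh hpos
    (hw' e₁ (Or.inl rfl) x hx x' hx'A) (hw' e₂ (Or.inr rfl) x hx x' hx'A) ℓ t N
    (by linarith) (by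
      have : h0 ^ 2 ≤ h ^ 2 := pow_le_pow_left₀ hh0.le hx'0 2
      linarith) hNh (by linarith) (by linarith)
  refine hmain.trans ?_
  have hℓ0 : 0 ≤ ℓ := by linarith [hx'1, hpos]
  have hdiv : ℓ / h ≤ ℓ / h0 := div_le_div_of_nonneg_left hℓ0 hh0 hx'0
  have hU : 0 ≤ 8 * κ * (PE μ R * p x) := by
    have := D.posR
    positivity
  have hN0 : (0 : ℝ) ≤ N := Nat.cast_nonneg N
  have h5 : (N : ℝ) * (ℓ / h) ≤ N * (ℓ / h0) := mul_le_mul_of_nonneg_left hdiv hN0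
  have h6 := mul_le_mul_of_nonneg_right h5 hU
  nlinarith

end fbox

end Vale.Agent.P065.H819
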