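import Vale.Agent.P065.H819.Loc1
import Vale.Agent.P065.H819.FairBox

/-!
# P065, package FAIR, local form, part 2: a box, an arbitrary set of pairs of cells
-/

set_option autoImplicit false

open Finset Real

noncomputable section

namespace Vale.Agent.P065.H819

open Vale.Agent.P065.Ent

variable {Ω : Type*} [Fintype Ω] {ξ ε η₁ η₂ : Type*}
variable {μ : Ω → ℝ} {X : Ω → ξ} {E : Ω → ε} {C : Ω → η₁} {B : Ω → η₂} {xh : ξ → ℝ}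
    {eh : ε → ℝ} {ch : η₁ → ℝ} {bh : η₂ → ℝ} {L R : Ω → Prop} {J0 J1 s : ℝ} {e₁ e₂ : ε}
    {p : ξ → ℝ} {κ η : ℝ}

/-- the mass of the pair of cells `2 i`, `2 i + 1` of length `ℓ` -/
def PM (μ : Ω → ℝ) (X : Ω → ξ) (B : Ω → η₂) (bh : η₂ → ℝ) (R : Ω → Prop) (ℓ : ℝ)
    (y : ξ × ℤ) : ℝ :=
  Mx μ X B bh R y.1 (Set.Ico ((2 * y.2 + 1) * ℓ - ℓ) ((2 * y.2 + 1) * ℓ)) +
    Mx μ X B bh R y.1 (Set.Ico ((2 * y.2 + 1) * ℓ) ((2 * y.2 + 1) * ℓ + ℓ))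

/-- the difference of the masses of the two cells of a pair -/
def PD (μ : Ω → ℝ) (X : Ω → ξ) (B : Ω → η₂) (bh : η₂ → ℝ) (R : Ω → Prop) (ℓ : ℝ)
    (y : ξ × ℤ) : ℝ :=
  |Mx μ X B bh R y.1 (Set.Ico ((2 * y.2 + 1) * ℓ - ℓ) ((2 * y.2 + 1) * ℓ)) -
    Mx μ X B bh R y.1 (Set.Ico ((2 * y.2 + 1) * ℓ) ((2 * y.2 + 1) * ℓ + ℓ))|

lemma PM_nonneg (hμ : IsProb μ) (ℓ : ℝ) (y : ξ × ℤ) : 0 ≤ PM μ X B bh R ℓ y :=
  add_nonneg (PE_nonneg hμ _) (PE_nonneg hμ _)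

lemma PD_nonneg (ℓ : ℝ) (y : ξ × ℤ) : 0 ≤ PD μ X B bh R ℓ y := abs_nonneg _

lemma PD_le_PM (hμ : IsProb μ) (ℓ : ℝ) (y : ξ × ℤ) : PD μ X B bh R ℓ y ≤ PM μ X B bh R ℓ y := by
  unfold PD PM
  have n1 : 0 ≤ Mx μ X B bh R y.1 (Set.Ico ((2 * y.2 + 1) * ℓ - ℓ) ((2 * y.2 + 1) * ℓ)) :=
    PE_nonneg hμ _
  have n2 : 0 ≤ Mx μ X B bh R y.1 (Set.Ico ((2 * y.2 + 1) * ℓ) ((2 * y.2 + 1) * ℓ + ℓ)) :=
    PE_nonneg hμ _
  rw [abs_le]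
  constructor <;> linarith

lemma PM_eq (ℓ : ℝ) (hℓ : 0 ≤ ℓ) (y : ξ × ℤ) : PM μ X B bh R ℓ y =
    PE μ (fun ω => X ω = y.1 ∧
      bh (B ω) ∈ Set.Ico ((2 * y.2 + 1) * ℓ - ℓ) ((2 * y.2 + 1) * ℓ + ℓ) ∧ R ω) := by
  unfold PM Mx
  rw [PE_add]
  · refine PE_congr fun ω => ?_
    simp only [Set.mem_Ico]
    constructor
    · rintro (⟨h1, h2, h3⟩ | ⟨h1, h2, h3⟩)
      · exact ⟨h1, ⟨h2.1, by linarith [h2.2]⟩, h3⟩
      · exact ⟨h1, ⟨by linarith [h2.1], h2.2⟩, h3⟩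
    · rintro ⟨h1, h2, h3⟩
      rcases lt_or_ge (bh (B ω)) ((2 * y.2 + 1) * ℓ) with h | h
      · left; exact ⟨h1, ⟨h2.1, h⟩, h3⟩
      · right; exact ⟨h1, ⟨h, h2.2⟩, h3⟩
  · rintro ω ⟨-, h2, -⟩ ⟨-, h3, -⟩
    exact absurd h2.2 (not_lt.mpr h3.1)

/-- the pairs of a set of indices at one time digit -/
lemma sum_PM_le (hμ : IsProb μ) {ℓ : ℝ} (hℓ : 0 < ℓ) (x : ξ) (I : Finset ℤ) (K0 K1 : ℝ)
    (hI : ∀ i ∈ I, K0 ≤ (2 * i + 1) * ℓ - ℓ ∧ (2 * i + 1) * ℓ + ℓ ≤ K1) :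
    ∑ i ∈ I, PM μ X B bh R ℓ (x, i) ≤
      PE μ (fun ω => X ω = x ∧ bh (B ω) ∈ Set.Icc K0 K1 ∧ R ω) := by
  rw [sum_congr rfl fun i _ => PM_eq (μ := μ) (X := X) (B := B) (bh := bh) (R := R) ℓ hℓ.le (x, i)]
  refine sum_PE_le hμ I (fun (i : ℤ) ω => X ω = x ∧
    bh (B ω) ∈ Set.Ico ((2 * (i : ℝ) + 1) * ℓ - ℓ) ((2 * i + 1) * ℓ + ℓ) ∧ R ω) _ ?_ ?_
  · intro i hi ω h
    obtain ⟨h1, h2⟩ := hI i hi
    exact ⟨h.1, ⟨by linarith [h.2.1.1], by linarith [h.2.1.2]⟩, h.2.2⟩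
  · intro i hi j hj hij ω h h'
    wlog hlt : i < j generalizing i j
    · exact this j hj i hi (Ne.symm hij) h' h (by omega)
    have hi1 : (i : ℝ) + 1 ≤ j := by exact_mod_cast hlt
    have e1 : ((i : ℝ) + 1) * ℓ ≤ j * ℓ := mul_le_mul_of_nonneg_right hi1 hℓ.le
    linarith [h.2.1.2, h'.2.1.1]

open Classical in
/-- **one class of a box, local form** -/
theorem FBox.classL (D : FBox μ X E C B xh eh ch bh L R J0 J1 s e₁ e₂)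
    (hp0 : ∀ x, 0 ≤ p x) (hp : ∀ x, 0 < PE μ (fun ω => X ω = x ∧ L ω) → 0 < p x)
    (A₁ A₂ : Finset ξ) (hκ : 0 < κ) (hκ1 : κ ≤ 1) {w : ℝ}
    (hw : ∀ e, (e = e₁ ∨ e = e₂) → ∀ x ∈ A₁ ∪ A₂, ∀ ω, L ω → |eh e * (xh (X ω) - xh x)| ≤ w)
    (hw' : ∀ e, (e = e₁ ∨ e = e₂) → ∀ x ∈ A₁, ∀ x' ∈ A₂, |eh e * (xh x' - xh x)| ≤ w)
    (b : ∀ e, (e = e₁ ∨ e = e₂) → ∀ A, (A = A₁ ∨ A = A₂) →
      Budget μ X E C B xh eh ch bh L R J0 J1 p A (κ ^ 2 / 18) e) (hA1 : ∑ x ∈ A₁, p x ≤ 1)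
    {h0 h1 : ℝ} (hh0 : 0 < h0) (hh1 : 0 ≤ h1)
    (ℓ : ℝ) (N : ℕ) (hℓ0 : 0 < ℓ) (hN0 : 0 < N) (hℓ : 8 * h1 ≤ ℓ) (hsℓ : 16 * ℓ * s ≤ h0 ^ 2)
    (hN : 4 * N * h1 ≤ ℓ) (hw0 : 0 ≤ w) (I : Finset ℤ)
    (hI : ∀ i ∈ I, J0 + 5 * s + 2 * w + 2 * h1 ≤ (2 * i + 1) * ℓ - ℓ ∧
      (2 * i + 1) * ℓ + ℓ + 5 * s + 2 * w + 2 * h1 ≤ J1) (U : Finset (ξ × ℤ))
    (hU : ∀ y ∈ U, y.2 ∈ I ∧ y.1 ∈ A₁.filter (fun x => κ * ∑ x ∈ A₂, p x <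
      ∑ x' ∈ A₂.filter (fun x' => h0 ≤ |(eh e₁ - eh e₂) * (xh x' - xh x)| ∧
        |(eh e₁ - eh e₂) * (xh x' - xh x)| ≤ h1), p x')) :
    ∑ y ∈ U, PD μ X B bh R ℓ y ≤ 16 / N * ∑ y ∈ U, PM μ X B bh R ℓ y +
      PE μ R * (I.card * ((24 * (N ^ 2 + 3 * N) + N * (ℓ / h0)) / N * (8 * κ)) + 2 * κ) := by
  have hs := D.s0
  have hμ := D.prob
  have hq := D.posR
  set η : ℝ := κ ^ 2 / 18 with hη
  have hη0 : 0 ≤ η := by positivity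
  have hκ2 : κ ^ 2 ≤ 1 := by nlinarith
  have hη4 : η ≤ 1 / 4 := by rw [hη]; linarith
  have hηκ : 18 * η / κ = κ := by rw [hη]; field_simp
  obtain ⟨Bad, hBsub, hBm, hB⟩ := D.mainL hp0 hp A₁ A₂ hη0 hη4 hκ hw hw' b hh0 ℓ N hℓ hsℓ hN
  rw [hηκ] at hBm
  have hBm' : ∑ x ∈ Bad, p x ≤ κ := hBm.trans (mul_le_of_le_one_right hκ.le hA1)
  set Far := A₁.filter (fun x => κ * ∑ x ∈ A₂, p x < ∑ x' ∈ A₂.filter (fun x' =>
        h0 ≤ |(eh e₁ - eh e₂) * (xh x' - xh x)| ∧ |(eh e₁ - eh e₂) * (xh x' - xh x)| ≤ h1), p x')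
    with hFar
  set K : ℝ := 24 * (N ^ 2 + 3 * N) + N * (ℓ / h0) with hK
  have hK0 : 0 ≤ K := by positivity
  have hNpos : (0 : ℝ) < N := by exact_mod_cast hN0
  have hPM : ∀ x, ∑ i ∈ I, PM μ X B bh R ℓ (x, i) ≤ PE μ (fun ω => X ω = x ∧
      bh (B ω) ∈ Set.Icc (J0 + w + 2 * s) (J1 - w - 2 * s) ∧ R ω) := fun x =>
    sum_PM_le hμ hℓ0 x I _ _ fun i hi => by
      obtain ⟨g1, g2⟩ := hI i hi
      constructor <;> linarith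
  -- good digits
  have hgood : ∀ y ∈ U, y.1 ∉ Bad → PD μ X B bh R ℓ y ≤ 16 / N * PM μ X B bh R ℓ y +
      K / N * (8 * κ) * (PE μ R * p y.1) := by
    intro y hy hxb
    obtain ⟨hyI, hyF⟩ := hU y hy
    obtain ⟨hxA, hfar⟩ := mem_filter.mp hyF
    have n1 := PM_nonneg (X := X) (B := B) (bh := bh) (R := R) hμ ℓ y
    rcases (hp0 y.1).eq_or_lt with h | h
    · have h1 : PE μ (fun ω => X ω = y.1 ∧ L ω) = 0 := by
        by_contra hne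
        have := hp y.1 (lt_of_le_of_ne (PE_nonneg hμ _) (Ne.symm hne))
        linarith
      have h2 : PM μ X B bh R ℓ y ≤ 0 := by
        rw [← h1, PM_eq ℓ hℓ0.le y]
        exact PE_mono hμ fun ω h => ⟨h.1, D.RL ω h.2.2⟩
      have h3 := PD_le_PM (X := X) (B := B) (bh := bh) (R := R) hμ ℓ y
      rw [← h]
      have h5 : 0 ≤ 16 / (N : ℝ) * PM μ X B bh R ℓ y := by positivity
      linarith
    · obtain ⟨g1, g2⟩ := hI y.2 hyI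
      have h1 := hB y.1 hxA hxb h (by rw [hηκ]; exact hfar) ((2 * y.2 + 1) * ℓ) g1 (by linarith)
      have h2 : PD μ X B bh R ℓ y ≤
          (16 * PM μ X B bh R ℓ y + K * (8 * κ * (PE μ R * p y.1))) / N := by
        rw [le_div_iff₀ hNpos, mul_comm]
        exact h1
      refine h2.trans (le_of_eq ?_)
      field_simp
  have hsum1 : ∑ y ∈ U.filter (fun y => y.1 ∉ Bad), PD μ X B bh R ℓ y ≤
      16 / N * ∑ y ∈ U, PM μ X B bh R ℓ y + K / N * (8 * κ) * (PE μ R * I.card) := by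
    refine (sum_le_sum fun y hy => hgood y (mem_filter.mp hy).1 (mem_filter.mp hy).2).trans ?_
    rw [sum_add_distrib, ← mul_sum, ← mul_sum, ← mul_sum]
    have s1 : ∑ y ∈ U.filter (fun y => y.1 ∉ Bad), PM μ X B bh R ℓ y ≤
        ∑ y ∈ U, PM μ X B bh R ℓ y :=
      sum_le_sum_of_subset_of_nonneg (filter_subset _ _) fun y _ _ => PM_nonneg hμ ℓ y
    have s2 : ∑ y ∈ U.filter (fun y => y.1 ∉ Bad), p y.1 ≤ I.card := by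
      have h1 : ∑ y ∈ U.filter (fun y => y.1 ∉ Bad), p y.1 ≤ ∑ y ∈ A₁ ×ˢ I, p y.1 := by
        refine sum_le_sum_of_subset_of_nonneg ?_ fun y _ _ => hp0 y.1
        intro y hy
        obtain ⟨g1, g2⟩ := hU y (mem_filter.mp hy).1
        exact mem_product.mpr ⟨(mem_filter.mp g2).1, g1⟩
      refine h1.trans ?_
      rw [sum_product]
      have h2 : ∑ x ∈ A₁, ∑ _i ∈ I, p x = I.card * ∑ x ∈ A₁, p x := by
        rw [mul_sum]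
        exact sum_congr rfl fun x _ => by rw [sum_const, nsmul_eq_mul]
      rw [h2]
      exact mul_le_of_le_one_right (Nat.cast_nonneg _) hA1
    have c1 : 0 ≤ 16 / (N : ℝ) := by positivity
    have c2 : 0 ≤ K / N * (8 * κ) := by positivity
    exact add_le_add (mul_le_mul_of_nonneg_left s1 c1)
      (mul_le_mul_of_nonneg_left (mul_le_mul_of_nonneg_left s2 hq.le) c2)
  -- bad digits
  have hsum2 : ∑ y ∈ U.filter (fun y => y.1 ∈ Bad), PD μ X B bh R ℓ y ≤ PE μ R * (2 * κ) := by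
    set Z := Far.filter (fun x => x ∈ Bad) with hZ
    have hZA : Z ⊆ A₁ := fun x hx => (mem_filter.mp (mem_filter.mp hx).1).1
    have hZB : Z ⊆ Bad := fun x hx => (mem_filter.mp hx).2
    have b1 := b e₁ (Or.inl rfl) A₁ (Or.inl rfl)
    have hF := b1.posF
    have hww : ∀ x ∈ A₁, ∀ ω, L ω → |eh e₁ * (xh (X ω) - xh x)| ≤ w := fun x hx =>
      hw e₁ (Or.inl rfl) x (mem_union_left _ hx)
    obtain ⟨eL, eP⟩ := D.sum_err hp0 hp A₁ hη0 hη4 hww b1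
    have hbm := D.bad_mass hp0 Z (w := w) fun x hx => hww x (hZA hx)
    set F := PE μ (fun ω => E ω = e₁ ∧ R ω) with hFd
    have s1 : ∑ x ∈ Z, p x ≤ κ :=
      (sum_le_sum_of_subset_of_nonneg hZB fun x _ _ => hp0 x).trans hBm'
    have s2 : ∑ x ∈ Z, errL μ X E C xh eh ch L (J0 + w + s) (J1 - w - s) p e₁ x ≤
        3 * η * F := by
      refine (sum_le_sum_of_subset_of_nonneg hZA fun x _ _ => errL_nonneg e₁ x).trans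
        (eL.trans ?_)
      have : (∑ x ∈ A₁, p x) * F ≤ 1 * F := mul_le_mul_of_nonneg_right hA1 hF.le
      rw [one_mul] at this
      exact mul_le_mul_of_nonneg_left this (by positivity)
    have s3 : ∑ x ∈ Z, errP μ X E B bh R (J0 + w + 2 * s) (J1 - w - 2 * s) e₁ x ≤
        6 * η * F := by
      refine (sum_le_sum_of_subset_of_nonneg hZA fun x _ _ => errP_nonneg e₁ x).trans
        (eP.trans ?_)
      have : (∑ x ∈ A₁, p x) * F ≤ 1 * F := mul_le_mul_of_nonneg_right hA1 hF.le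
      rw [one_mul] at this
      exact mul_le_mul_of_nonneg_left this (by positivity)
    have s4 : (∑ x ∈ Z, p x) * F ≤ κ * F := mul_le_mul_of_nonneg_right s1 hF.le
    set W := ∑ x ∈ Z, PE μ (fun ω => X ω = x ∧
      bh (B ω) ∈ Set.Icc (J0 + w + 2 * s) (J1 - w - 2 * s) ∧ R ω) with hW
    have s5 : W * F / PE μ R ≤ (κ + 9 * η) * F := by linarith
    rw [div_le_iff₀ hq] at s5
    have s6 : W ≤ (κ + 9 * η) * PE μ R := by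
      have : W * F ≤ ((κ + 9 * η) * PE μ R) * F := by linarith
      exact le_of_mul_le_mul_right this hF
    have s7 : κ + 9 * η ≤ 2 * κ := by
      rw [hη]; nlinarith
    have s8 : ∑ y ∈ U.filter (fun y => y.1 ∈ Bad), PD μ X B bh R ℓ y ≤ W := by
      refine (sum_le_sum fun y _ => PD_le_PM hμ ℓ y).trans ?_
      have h1 : ∑ y ∈ U.filter (fun y => y.1 ∈ Bad), PM μ X B bh R ℓ y ≤
          ∑ y ∈ Z ×ˢ I, PM μ X B bh R ℓ y := by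
        refine sum_le_sum_of_subset_of_nonneg ?_ fun y _ _ => PM_nonneg hμ ℓ y
        intro y hy
        obtain ⟨g0, g3⟩ := mem_filter.mp hy
        obtain ⟨g1, g2⟩ := hU y g0
        exact mem_product.mpr ⟨mem_filter.mpr ⟨g2, g3⟩, g1⟩
      refine h1.trans ?_
      rw [sum_product, hW]
      exact sum_le_sum fun x _ => hPM x
    have s9 : (κ + 9 * η) * PE μ R ≤ 2 * κ * PE μ R := mul_le_mul_of_nonneg_right s7 hq.le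
    linarith
  rw [← sum_filter_add_sum_filter_not U (fun y => y.1 ∈ Bad)]
  have e : PE μ R * (I.card * (K / N * (8 * κ)) + 2 * κ) =
    PE μ R * (2 * κ) + K / N * (8 * κ) * (PE μ R * I.card) := by ring
  rw [e]
  linarith

/-- a bound without any hypothesis -/
lemma sum_PD_le (hμ : IsProb μ) {ℓ : ℝ} (hℓ : 0 < ℓ) (U : Finset (ξ × ℤ)) :
    ∑ y ∈ U, PD μ X B bh R ℓ y ≤ PE μ R := by
  refine (sum_le_sum fun y _ => PD_le_PM hμ ℓ y).trans ?_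
  rw [sum_congr rfl fun y _ => PM_eq (μ := μ) (X := X) (B := B) (bh := bh) (R := R) ℓ hℓ.le y]
  refine sum_PE_le hμ U (fun (y : ξ × ℤ) ω => X ω = y.1 ∧
    bh (B ω) ∈ Set.Ico ((2 * (y.2 : ℝ) + 1) * ℓ - ℓ) ((2 * y.2 + 1) * ℓ + ℓ) ∧ R ω) _
    (fun y _ ω h => h.2.2) ?_
  rintro ⟨x, i⟩ _ ⟨x', i'⟩ _ hne ω h h'
  have hx : x = x' := h.1.symm.trans h'.1
  have key : ∀ i i' : ℤ, i < i' → bh (B ω) < (2 * (i : ℝ) + 1) * ℓ + ℓ →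
      (2 * (i' : ℝ) + 1) * ℓ - ℓ ≤ bh (B ω) → False := by
    intro i i' hlt h1 h2
    have hi1 : (i : ℝ) + 1 ≤ i' := by exact_mod_cast hlt
    have e1 : ((i : ℝ) + 1) * ℓ ≤ i' * ℓ := mul_le_mul_of_nonneg_right hi1 hℓ.le
    linarith
  rcases lt_trichotomy i i' with hlt | heq | hgt
  · exact key i i' hlt h.2.1.2 h'.2.1.1
  · exact hne (by rw [hx, heq])
  · exact key i' i hgt h'.2.1.2 h.2.1.1

open Classical in
/-- **BOX, local form**: linear in the informations, no smallness hypothesis -/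
theorem FBox.boxL (D : FBox μ X E C B xh eh ch bh L R J0 J1 s e₁ e₂)
    (hp0 : ∀ x, 0 ≤ p x) (hp : ∀ x, 0 < PE μ (fun ω => X ω = x ∧ L ω) → 0 < p x)
    (hF1 : 0 < PE μ (fun ω => E ω = e₁ ∧ R ω)) (hF2 : 0 < PE μ (fun ω => E ω = e₂ ∧ R ω))
    (A₁ A₂ : Finset ξ) (hA₁ : ∀ x ∈ A₁, ∃ ω, X ω = x) (hA₂ : ∀ x ∈ A₂, ∃ ω, X ω = x)
    {ps : ℝ} (hps : 0 < ps)
    (hps1 : ps ≤ ∑ x ∈ A₁, p x) (hps2 : ps ≤ ∑ x ∈ A₂, p x) (hA1 : ∑ x ∈ A₁, p x ≤ 1)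
    (hκ : 0 < κ) (hκ1 : κ ≤ 1) {w : ℝ}
    (hww : ∀ e, (e = e₁ ∨ e = e₂) → ∀ x, (x ∈ A₁ ∨ x ∈ A₂) → ∀ ω, L ω →
      |eh e * (xh (X ω) - xh x)| ≤ w)
    (hw' : ∀ e, (e = e₁ ∨ e = e₂) → ∀ x ∈ A₁, ∀ x' ∈ A₂, |eh e * (xh x' - xh x)| ≤ w)
    {h0 h1 : ℝ} (hh0 : 0 < h0) (hh1 : 0 ≤ h1)
    (ℓ : ℝ) (N : ℕ) (hℓ0 : 0 < ℓ) (hN0 : 0 < N) (hℓ : 8 * h1 ≤ ℓ) (hsℓ : 16 * ℓ * s ≤ h0 ^ 2)
    (hN : 4 * N * h1 ≤ ℓ) (hw0 : 0 ≤ w) (I : Finset ℤ)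
    (hI : ∀ i ∈ I, J0 + 5 * s + 2 * w + 2 * h1 ≤ (2 * i + 1) * ℓ - ℓ ∧
      (2 * i + 1) * ℓ + ℓ + 5 * s + 2 * w + 2 * h1 ≤ J1) (U : Finset (ξ × ℤ))
    (hU : ∀ y ∈ U, y.2 ∈ I ∧ y.1 ∈ A₁.filter (fun x => κ * ∑ x ∈ A₂, p x <
      ∑ x' ∈ A₂.filter (fun x' => h0 ≤ |(eh e₁ - eh e₂) * (xh x' - xh x)| ∧
        |(eh e₁ - eh e₂) * (xh x' - xh x)| ≤ h1), p x')) :
    ∑ y ∈ U, PD μ X B bh R ℓ y ≤ 16 / N * ∑ y ∈ U, PM μ X B bh R ℓ y +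
      PE μ R * ((I.card * ((24 * (N ^ 2 + 3 * N) + N * (ℓ / h0)) / N * (8 * κ)) + 2 * κ) +
        1 / ((κ ^ 2 / 18) ^ 2 * ps) *
          (DL μ X E C xh eh ch L R J0 J1 p e₁ + DL μ X E C xh eh ch L R J0 J1 p e₂ +
          DP μ X E B R e₁ + DP μ X E B R e₂)) := by
  have hs := D.s0
  have hμ := D.prob
  have hq := D.posR
  have hw : ∀ e, (e = e₁ ∨ e = e₂) → ∀ x ∈ A₁ ∪ A₂, ∀ ω, L ω → |eh e * (xh (X ω) - xh x)| ≤ w :=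
    fun e he x hx => hww e he x (mem_union.mp hx)
  have hA₁' : A₁ ⊆ univ.image X := fun x hx => by
    obtain ⟨ω, h⟩ := hA₁ x hx
    exact mem_image.mpr ⟨ω, mem_univ ω, h⟩
  have hA₂' : A₂ ⊆ univ.image X := fun x hx => by
    obtain ⟨ω, h⟩ := hA₂ x hx
    exact mem_image.mpr ⟨ω, mem_univ ω, h⟩
  have d1 := DL_nonneg (xh := xh) (eh := eh) (ch := ch) (C := C) (E := E) (R := R) (J0 := J0)
    (J1 := J1) hμ hp0 hp e₁
  have d2 := DL_nonneg (xh := xh) (eh := eh) (ch := ch) (C := C) (E := E) (R := R) (J0 := J0)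
    (J1 := J1) hμ hp0 hp e₂
  have d3 := DP_nonneg (X := X) (E := E) (B := B) (R := R) hμ e₁
  have d4 := DP_nonneg (X := X) (E := E) (B := B) (R := R) hμ e₂
  set S := DL μ X E C xh eh ch L R J0 J1 p e₁ + DL μ X E C xh eh ch L R J0 J1 p e₂ +
          DP μ X E B R e₁ + DP μ X E B R e₂ with hS
  have hS0 : 0 ≤ S := by linarith
  have hc : 0 < (κ ^ 2 / 18) ^ 2 * ps := by positivity
  set M0 : ℝ := I.card * ((24 * (N ^ 2 + 3 * N) + N * (ℓ / h0)) / N * (8 * κ)) + 2 * κ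
    with hM0
  have hM00 : 0 ≤ M0 := by positivity
  have hNpos : (0 : ℝ) < N := by exact_mod_cast hN0
  by_cases hsm : S ≤ (κ ^ 2 / 18) ^ 2 * ps
  · have hb : ∀ e, (e = e₁ ∨ e = e₂) → ∀ A, (A = A₁ ∨ A = A₂) →
        Budget μ X E C B xh eh ch bh L R J0 J1 p A (κ ^ 2 / 18) e := by
      rintro e (rfl | rfl) A (rfl | rfl)
      · exact budget_of_le hμ hp0 hp _ _ hA₁' hF1 hps1 (by linarith) (by linarith)
      · exact budget_of_le hμ hp0 hp _ _ hA₂' hF1 hps2 (by linarith) (by linarith)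
      · exact budget_of_le hμ hp0 hp _ _ hA₁' hF2 hps1 (by linarith) (by linarith)
      · exact budget_of_le hμ hp0 hp _ _ hA₂' hF2 hps2 (by linarith) (by linarith)
    have h1 := D.classL hp0 hp A₁ A₂ hκ hκ1 hw hw' hb hA1 hh0 hh1 ℓ N hℓ0 hN0 hℓ hsℓ hN hw0 I hI
      U hU
    refine h1.trans (add_le_add le_rfl (mul_le_mul_of_nonneg_left ?_ hq.le))
    have : 0 ≤ 1 / ((κ ^ 2 / 18) ^ 2 * ps) * S := by positivity
    linarith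
  · push Not at hsm
    have h1 := sum_PD_le (X := X) (B := B) (bh := bh) (R := R) hμ hℓ0 U
    refine h1.trans ?_
    have h2 : 1 ≤ S / ((κ ^ 2 / 18) ^ 2 * ps) := by
      rw [le_div_iff₀ hc]; linarith
    have h3 : 1 / ((κ ^ 2 / 18) ^ 2 * ps) * S = S / ((κ ^ 2 / 18) ^ 2 * ps) := by ring
    have h4 : 0 ≤ 16 / (N : ℝ) * ∑ y ∈ U, PM μ X B bh R ℓ y :=
      mul_nonneg (by positivity) (sum_nonneg fun y _ => PM_nonneg hμ ℓ y)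
    rw [h3]
    have h5 : PE μ R * 1 ≤ PE μ R * (M0 + S / ((κ ^ 2 / 18) ^ 2 * ps)) :=
      mul_le_mul_of_nonneg_left (by linarith) hq.le
    linarith

end Vale.Agent.P065.H819
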