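import Vale.Agent.P065.H819.Nb1

/-!
# P065, package ROWS, version 2, part 2: one half of a box, local form
-/

set_option autoImplicit false
set_option linter.unusedSectionVars false

open Finset Real

noncomputable section

namespace Vale.Agent.P065.H819

open Vale.Agent.P065.Ent

variable {Ω : Type*} [Fintype Ω] {ξ η : Type*}

variable {μ : Ω → ℝ} {T f c : Ω → ℝ} {G L : Ω → Prop} {E : Ω → Option Bool} {X : Ω → ξ}
  {xd : ξ → ℤ} {C : Ω → η} {ch : η → ℝ} {dX P PC a : ℕ} {s₀ s₁ : ℕ} {d j : ℤ}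

/-- the constant in front of the divergences -/
def cL (κ ps : ℝ) : ℝ := 1 / ((κ ^ 2 / 18) ^ 2 * ps)

/-- the error -/
def eL (κ : ℝ) (a P0 g : ℕ) : ℝ := κ * 2 ^ (a + P0 + g + 8)

lemma cL_nonneg {κ ps : ℝ} (hps : 0 ≤ ps) : 0 ≤ cL κ ps := by unfold cL; positivity

lemma eL_nonneg {κ : ℝ} (hκ : 0 ≤ κ) (a P0 g : ℕ) : 0 ≤ eL κ a P0 g := by unfold eL; positivity

/-- the divergences of the box -/
def DDn (μ : Ω → ℝ) (T f c : Ω → ℝ) (G L : Ω → Prop) (E : Ω → Option Bool) (X : Ω → ξ)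
    (xd : ξ → ℤ) (C : Ω → η) (ch : η → ℝ) (dX P PB a : ℕ) (s₀ s₁ : ℕ) (d j : ℤ) : ℝ :=
  DL μ X E C (fun x => xhh dX d (xd x)) (ehh P s₀ s₁) ch L (RR G T f c a d j) (j * 2 ^ a)
    ((j + 1) * 2 ^ a - 1 / 2 ^ PB) (pX μ X L) (some false) +
  DL μ X E C (fun x => xhh dX d (xd x)) (ehh P s₀ s₁) ch L (RR G T f c a d j) (j * 2 ^ a)
    ((j + 1) * 2 ^ a - 1 / 2 ^ PB) (pX μ X L) (some true) +
  DP μ X E (dg PB (yy T f c)) (RR G T f c a d j) (some false) +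
  DP μ X E (dg PB (yy T f c)) (RR G T f c a d j) (some true)

lemma const_leL {κ : ℝ} (hκ : 0 < κ) {a lam P0 g : ℕ} (hla : lam + 4 ≤ a) (hlam : 3 ≤ lam)
    {n : ℕ} (hn : n ≤ 2 ^ (a - lam)) :
    (n : ℝ) * ((24 * ((((2 ^ (lam - 2) : ℕ) : ℕ) : ℝ) ^ 2 + 3 * (((2 ^ (lam - 2) : ℕ) : ℕ) : ℝ)) +
      (((2 ^ (lam - 2) : ℕ) : ℕ) : ℝ) * (2 ^ lam / (1 / 2 ^ (P0 + g)))) /
      (((2 ^ (lam - 2) : ℕ) : ℕ) : ℝ) * (8 * κ)) + 2 * κ ≤ eL κ a P0 g := by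
  have hpa : (2 : ℝ) ^ a = 2 ^ (a - lam) * 2 ^ lam := by
    rw [← pow_add]; congr 1; omega
  have hN : (((2 ^ (lam - 2) : ℕ) : ℕ) : ℝ) * 4 = 2 ^ lam := by
    push_cast
    rw [show (4 : ℝ) = 2 ^ 2 by norm_num, ← pow_add]; congr 1; omega
  have hN2 : (2 : ℝ) ≤ (((2 ^ (lam - 2) : ℕ) : ℕ) : ℝ) := by
    push_cast
    calc (2 : ℝ) = 2 ^ 1 := by norm_num
      _ ≤ 2 ^ (lam - 2) := pow_le_pow_right₀ (by norm_num) (by omega)
  have hn' : (n : ℝ) ≤ 2 ^ (a - lam) := by exact_mod_cast hn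
  have c3 : (2 : ℝ) ^ (a + P0 + g + 8) = 2 ^ a * 2 ^ (P0 + g) * 256 := by
    rw [show (256 : ℝ) = 2 ^ 8 by norm_num, ← pow_add, ← pow_add]; congr 1; ring
  have h1a : (1 : ℝ) ≤ 2 ^ a := one_le_pow₀ (by norm_num)
  have h1g : (1 : ℝ) ≤ 2 ^ (P0 + g) := one_le_pow₀ (by norm_num)
  have hl0 : (0 : ℝ) < 2 ^ lam := by positivity
  have hr0 : (0 : ℝ) < 2 ^ (a - lam) := by positivity
  unfold eL
  rw [c3]
  generalize (((2 ^ (lam - 2) : ℕ) : ℕ) : ℝ) = N at hN hN2 ⊢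
  generalize (2 : ℝ) ^ (P0 + g) = q at h1g ⊢
  generalize (2 : ℝ) ^ (a - lam) = r at hpa hn' hr0 ⊢
  generalize (2 : ℝ) ^ lam = l at hpa hN hl0 ⊢
  generalize (2 : ℝ) ^ a = A at hpa h1a ⊢
  have hN0 : N ≠ 0 := by linarith
  have e : (24 * (N ^ 2 + 3 * N) + N * (l / (1 / q))) / N = 24 * (N + 3) + l * q := by
    field_simp
  rw [e]
  have h3 : 24 * (N + 3) ≤ 24 * l := by linarith
  have h4 : 24 * (N + 3) + l * q ≤ 25 * (l * q) := by nlinarith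
  have hn0 : (0 : ℝ) ≤ n := Nat.cast_nonneg n
  have h5 : (n : ℝ) * ((24 * (N + 3) + l * q) * (8 * κ)) ≤ r * (25 * (l * q) * (8 * κ)) := by
    refine mul_le_mul hn' (mul_le_mul_of_nonneg_right h4 (by positivity)) ?_ hr0.le
    positivity
  have h6 : r * (25 * (l * q) * (8 * κ)) = 200 * κ * (A * q) := by rw [hpa]; ring
  have h7 : 1 ≤ A * q := by nlinarith
  have h8 : κ * 1 ≤ κ * (A * q) := mul_le_mul_of_nonneg_left h7 hκ.le
  linarith

open Classical in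
/-- **one half of a box, local form** -/
theorem NBox.half (D : NBox μ T f c G L E X xd C ch dX P PC a s₀ s₁ d j) (PB lam P0 g : ℕ)
    (hs : (1 : ℝ) / 2 ^ P0 ≤ |(s₀ : ℝ) / 2 ^ P - s₁ / 2 ^ P|)
    {ps : ℝ} (hps : 0 < ps) (hth : ∀ b, ps ≤ ∑ x ∈ hfX X xd dX d b, pX μ X L x)
    {κ : ℝ} (hκ : 0 < κ) (hκ1 : κ < 1)
    (hlam : 3 ≤ lam) (hla : lam + 4 ≤ a) (hdX : a + 2 * P0 + 2 * g + 10 ≤ dX)
    (hP : a + 2 * P0 + 2 * g + 10 ≤ P) (hPC : a + 2 * P0 + 2 * g + 10 ≤ PC)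
    (hPB : a + 2 * P0 + 2 * g + 10 ≤ PB) (b : Bool) (U : Finset (ξ × ℤ))
    (hU : ∀ y ∈ U, y.1 ∈ hfX X xd dX d b ∧ nn dX g d (xd y.1) ∧ y.2 ∈ In a lam j) :
    ∑ y ∈ U, PD μ X (dg PB (yy T f c)) (fun n => (n : ℝ) / 2 ^ PB) (RR G T f c a d j) (2 ^ lam) y ≤
      64 / 2 ^ lam * ∑ y ∈ U, PM μ X (dg PB (yy T f c)) (fun n => (n : ℝ) / 2 ^ PB)
        (RR G T f c a d j) (2 ^ lam) y +
      PE μ (RR G T f c a d j) * (eL κ a P0 g +
        cL κ ps * DDn μ T f c G L E X xd C ch dX P PB a s₀ s₁ d j) := by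
  have hμ := D.prob
  have hRpos := D.posR
  have DF := D.fbox PB
  have he0 := D.eh01
  have hp0 := fun x => NBox.pX_nonneg (X := X) (L := L) hμ x
  have hp := D.pX_pos
  -- small numbers
  set s : ℝ := 1 / 2 ^ PB + 1 / 2 ^ PC + 1 / 2 ^ P + 1 / 2 ^ dX with hsd
  have hsmall : ∀ n, a + 2 * P0 + 2 * g + 10 ≤ n →
      (1 : ℝ) / 2 ^ n ≤ 1 / 2 ^ (a + 2 * P0 + 2 * g + 10) := fun n hn =>
    div_le_div_of_nonneg_left zero_le_one (by positivity)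
      (pow_le_pow_right₀ (by norm_num) hn)
  have hs4 : s ≤ 4 * (1 / 2 ^ (a + 2 * P0 + 2 * g + 10)) := by
    have := hsmall PB hPB
    have := hsmall PC hPC
    have := hsmall P hP
    have := hsmall dX hdX
    linarith
  have hpowa : (2 : ℝ) ^ lam ≤ 2 ^ a := pow_le_pow_right₀ (by norm_num) (by omega)
  have hpw : (2 : ℝ) ^ (a + 2 * P0 + 2 * g + 10) = 2 ^ a * (2 ^ (P0 + g)) ^ 2 * 1024 := by
    rw [← pow_mul, show (1024 : ℝ) = 2 ^ 10 by norm_num, ← pow_add, ← pow_add]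
    congr 1; ring
  have hs1' : s ≤ 1 / 256 := by
    refine hs4.trans ?_
    have h1 : (1 : ℝ) ≤ 2 ^ a := one_le_pow₀ (by norm_num)
    have h2 : (1 : ℝ) ≤ (2 ^ (P0 + g)) ^ 2 := one_le_pow₀ (one_le_pow₀ (by norm_num))
    rw [hpw]
    have h3 : (1024 : ℝ) ≤ 2 ^ a * (2 ^ (P0 + g)) ^ 2 * 1024 := by nlinarith
    have h4 : (1 : ℝ) / (2 ^ a * (2 ^ (P0 + g)) ^ 2 * 1024) ≤ 1 / 1024 :=
      div_le_div_of_nonneg_left zero_le_one (by norm_num) h3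
    linarith
  have hs0' : 0 ≤ s := by positivity
  have hPB1 : (1 : ℝ) / 2 ^ PB ≤ 1 / 256 := by
    have h1 : (1 : ℝ) / 2 ^ PB ≤ s := by
      rw [hsd]
      have : (0 : ℝ) ≤ 1 / 2 ^ PC := by positivity
      have : (0 : ℝ) ≤ 1 / 2 ^ P := by positivity
      have : (0 : ℝ) ≤ 1 / 2 ^ dX := by positivity
      linarith
    linarith
  have hsl : 16 * (2 : ℝ) ^ lam * s ≤ (1 / 2 ^ (P0 + g)) ^ 2 := by
    have h1 : 16 * (2 : ℝ) ^ lam * s ≤ 16 * 2 ^ a * (4 * (1 / 2 ^ (a + 2 * P0 + 2 * g + 10))) :=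
      mul_le_mul (by linarith) hs4 hs0' (by positivity)
    refine h1.trans ?_
    rw [hpw]
    have ha0 : (0 : ℝ) < 2 ^ a := by positivity
    have hq0 : (0 : ℝ) < 2 ^ (P0 + g) := by positivity
    rw [div_pow, one_pow]
    have e : 16 * (2 : ℝ) ^ a * (4 * (1 / (2 ^ a * (2 ^ (P0 + g)) ^ 2 * 1024))) =
        (1 / 16) * (1 / (2 ^ (P0 + g)) ^ 2) := by
      field_simp; norm_num
    rw [e]
    have : (0 : ℝ) ≤ 1 / (2 ^ (P0 + g)) ^ 2 := by positivity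
    linarith
  have h8lam : (8 : ℝ) ≤ 2 ^ lam := by
    have : (2 : ℝ) ^ 3 ≤ 2 ^ lam := pow_le_pow_right₀ (by norm_num) hlam
    linarith
  have hpa : (2 : ℝ) ^ a = 2 ^ (a - lam) * 2 ^ lam := by
    rw [← pow_add]; congr 1; omega
  have hpa1 : (2 : ℝ) ^ (a - lam) = 2 * 2 ^ (a - lam - 1) := by
    obtain ⟨n, hn⟩ : ∃ n, a - lam = n + 1 := ⟨a - lam - 1, by omega⟩
    rw [hn]; simp [pow_succ]; ring
  have hN : (((2 ^ (lam - 2) : ℕ) : ℕ) : ℝ) * 4 = 2 ^ lam := by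
    push_cast
    rw [show (4 : ℝ) = 2 ^ 2 by norm_num, ← pow_add]; congr 1; omega
  -- the filter
  have hfar : ∀ x ∈ hfX X xd dX d b, nn dX g d (xd x) → x ∈ (hfX X xd dX d b).filter
      (fun x => κ * ∑ x ∈ hfX X xd dX d (!b), pX μ X L x <
        ∑ x' ∈ (hfX X xd dX d (!b)).filter (fun x' => (1 : ℝ) / 2 ^ (P0 + g) ≤
          |(ehh P s₀ s₁ (some false) - ehh P s₀ s₁ (some true)) *
            (xhh dX d (xd x') - xhh dX d (xd x))| ∧
          |(ehh P s₀ s₁ (some false) - ehh P s₀ s₁ (some true)) *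
            (xhh dX d (xd x') - xhh dX d (xd x))| ≤ 1), pX μ X L x') := by
    intro x hx1 hx2
    refine mem_filter.mpr ⟨hx1, ?_⟩
    have hall : (hfX X xd dX d (!b)).filter (fun x' => (1 : ℝ) / 2 ^ (P0 + g) ≤
          |(ehh P s₀ s₁ (some false) - ehh P s₀ s₁ (some true)) *
            (xhh dX d (xd x') - xhh dX d (xd x))| ∧
          |(ehh P s₀ s₁ (some false) - ehh P s₀ s₁ (some true)) *
            (xhh dX d (xd x') - xhh dX d (xd x))| ≤ 1) = hfX X xd dX d (!b) := by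
      refine filter_true_of_mem fun x' hx' => ?_
      have r1 := hfX_mem hx1
      have r2 := hfX_mem hx'
      rw [abs_mul]
      have hdist := hfX_dist hx1 hx' hx2
      constructor
      · have e1 : (1 : ℝ) / 2 ^ (P0 + g) = 1 / 2 ^ P0 * (1 / 2 ^ g) := by
          rw [pow_add]; field_simp
        rw [e1]
        exact mul_le_mul hs hdist (by positivity) (abs_nonneg _)
      · have c1 := he0 (some false) (Or.inl rfl)
        have c2 := he0 (some true) (Or.inr rfl)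
        have k1 : |ehh P s₀ s₁ (some false) - ehh P s₀ s₁ (some true)| ≤ 1 :=
          abs_le.mpr ⟨by linarith, by linarith⟩
        have k2 : |xhh dX d (xd x') - xhh dX d (xd x)| ≤ 1 :=
          abs_le.mpr ⟨by linarith, by linarith⟩
        calc _ ≤ (1 : ℝ) * 1 := mul_le_mul k1 k2 (abs_nonneg _) (by norm_num)
          _ = 1 := by ring
    rw [hall]
    have h1 := hth (!b)
    nlinarith
  have hIcc : ∀ i ∈ In a lam j, ((j : ℝ) * 2 ^ a + 5 * s + 2 * 1 + 2 * 1 ≤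
      (2 * (i : ℝ) + 1) * 2 ^ lam - 2 ^ lam) ∧
      (2 * (i : ℝ) + 1) * 2 ^ lam + 2 ^ lam + 5 * s + 2 * 1 + 2 * 1 ≤
        (j + 1) * 2 ^ a - 1 / 2 ^ PB := by
    intro i hi
    obtain ⟨i1, i2⟩ := Finset.mem_Ico.mp hi
    have j1 : (j : ℝ) * 2 ^ (a - lam - 1) + 2 ≤ i := by exact_mod_cast i1
    have j2 : (i : ℝ) + 1 ≤ (j + 1) * 2 ^ (a - lam - 1) - 2 := by
      have : i + 1 ≤ (j + 1) * 2 ^ (a - lam - 1) - 2 := i2
      exact_mod_cast this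
    have hl0 : (0 : ℝ) < 2 ^ lam := by positivity
    constructor
    · rw [hpa, hpa1]
      nlinarith
    · rw [hpa, hpa1]
      nlinarith
  have key := DF.boxL hp0 hp (D.hF false) (D.hF true) (hfX X xd dX d b) (hfX X xd dX d (!b))
    (fun x hx => hfX_img hx) (fun x hx => hfX_img hx) hps (hth b) (hth (!b))
    (D.sum_pX_le_one _) hκ hκ1.le (w := 1)
    (by
      intro e he x hx ω hω
      have r1 : 0 ≤ xhh dX d (xd x) ∧ xhh dX d (xd x) < 1 := by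
        rcases hx with h | h
        · exact hfX_mem h
        · exact hfX_mem h
      have r2 := D.xmem ω hω
      exact abs_mul_sub_le_one (he0 e he).1 (he0 e he).2 r2.1 r2.2.le r1.1 r1.2.le)
    (by
      intro e he x hx x' hx'
      have r1 := hfX_mem hx
      have r2 := hfX_mem hx'
      exact abs_mul_sub_le_one (he0 e he).1 (he0 e he).2 r2.1 r2.2.le r1.1 r1.2.le)
    (h0 := 1 / 2 ^ (P0 + g)) (h1 := 1) (by positivity) zero_le_one (2 ^ lam) (2 ^ (lam - 2))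
    (by positivity) (by positivity) (by linarith) hsl (by linarith) (by norm_num) (In a lam j)
    (by simpa using hIcc) U (fun y hy => ⟨(hU y hy).2.2, hfar y.1 (hU y hy).1 (hU y hy).2.1⟩)
  refine key.trans (add_le_add (le_of_eq ?_) ?_)
  · congr 1
    rw [← hN]
    have hNpos : (0 : ℝ) < (((2 ^ (lam - 2) : ℕ) : ℕ) : ℝ) := by positivity
    field_simp
    norm_num
  · refine mul_le_mul_of_nonneg_left ?_ hRpos.le
    refine add_le_add (const_leL hκ hla hlam ?_) le_rfl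
    unfold In
    rw [Int.card_Ico]
    have h2 : (2 : ℤ) ^ (a - lam) = 2 * 2 ^ (a - lam - 1) := by
      obtain ⟨n, hn⟩ : ∃ n, a - lam = n + 1 := ⟨a - lam - 1, by omega⟩
      rw [hn]; simp [pow_succ]; ring
    have h3 : (0 : ℤ) ≤ 2 ^ (a - lam - 1) := by positivity
    have h4 : (j + 1) * 2 ^ (a - lam - 1) - 2 - (j * 2 ^ (a - lam - 1) + 2) ≤
        ((2 ^ (a - lam) : ℕ) : ℤ) := by
      push_cast
      rw [h2]
      nlinarith
    exact Int.toNat_le.mpr h4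

end Vale.Agent.P065.H819
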