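import Vale.Agent.P065.H819.RowQ

/-!
# P065, package ROWS, part 4: the box inequality for a law `q` close to `μ (· | R)`, final form
-/

set_option autoImplicit false
set_option linter.unusedSectionVars false

open Finset Real

noncomputable section

namespace Vale.Agent.P065.H819

open Vale.Agent.P065.Ent
open Vale.Agent.P065.H700 (KL AC)

variable {Ω : Type*} [Fintype Ω] {μ q : Ω → ℝ} {T f c : Ω → ℝ} {G : Ω → Prop}
  {E : Ω → Option Bool} {γ : Type*}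

open Classical in
lemma PE_eq_sum_Pr (q : Ω → ℝ) (Y : Ω → γ) (S : Set γ) :
    PE q (fun ω => Y ω ∈ S) = ∑ y ∈ (univ.image Y).filter (fun y => y ∈ S), Pr q Y y := by
  have h := PE_sum_values (μ := q) Y S (fun _ => True)
  have e1 : PE q (fun ω => Y ω ∈ S ∧ True) = PE q (fun ω => Y ω ∈ S) :=
    PE_congr fun ω => by simp
  rw [e1] at h
  rw [h]
  refine sum_congr rfl fun y _ => ?_
  rw [PE_def]
  unfold Pr
  refine sum_congr rfl fun ω _ => ?_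
  by_cases hy : Y ω = y
  · rw [if_pos ⟨hy, trivial⟩, if_pos hy]
  · rw [if_neg fun h => hy h.1, if_neg hy]

/-- probabilities of events which depend on `Y` only -/
lemma PE_sub_le (hq : IsProb q) (hν : IsProb μ) (hac : AC q μ) (Y : Ω → γ) (S : Set γ) :
    PE q (fun ω => Y ω ∈ S) ≤ PE μ (fun ω => Y ω ∈ S) + 2 * √ (KL q μ Y) := by
  classical
  rw [PE_eq_sum_Pr q Y S, PE_eq_sum_Pr μ Y S]
  have h1 := tv_KL hq hν hac Y ((univ.image Y).filter (fun y => y ∈ S))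
  have h2 : ∑ y ∈ (univ.image Y).filter (fun y => y ∈ S), Pr q Y y -
      ∑ y ∈ (univ.image Y).filter (fun y => y ∈ S), Pr μ Y y ≤
      ∑ y ∈ (univ.image Y).filter (fun y => y ∈ S), |Pr q Y y - Pr μ Y y| := by
    rw [← sum_sub_distrib]
    exact sum_le_sum fun y _ => le_abs_self _
  linarith

lemma one_le_sum_px (hμ : IsProb μ) (dX a2 : ℕ) (d jl : ℤ) (hL : 0 < PE μ (LL G T c a2 d jl)) :
    1 ≤ ∑ x ∈ univ.image (dg dX T), px μ T c G dX a2 d jl x := by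
  unfold px
  rw [← sum_div, le_div_iff₀ hL, one_mul]
  exact PE_le_sum hμ _ (fun x ω => dg dX T ω = x ∧ LL G T c a2 d jl ω) _ fun ω h =>
    ⟨dg dX T ω, mem_image_of_mem _ (mem_univ ω), rfl, h⟩


lemma budget_of_le' {ξ ε η₁ η₂ : Type*} {X : Ω → ξ} {E : Ω → ε} {C : Ω → η₁} {B : Ω → η₂}
    {xh : ξ → ℝ} {eh : ε → ℝ} {ch : η₁ → ℝ} {bh : η₂ → ℝ} {L R : Ω → Prop} {J0 J1 : ℝ}
    {p : ξ → ℝ} {η : ℝ} (hμ : IsProb μ) (hp0 : ∀ x, 0 ≤ p x)
    (hp : ∀ x, 0 < PE μ (fun ω => X ω = x ∧ L ω) → 0 < p x) (e : ε) (A : Finset ξ)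
    (hA : ∀ x ∈ A, ∃ ω, X ω = x) (hF : 0 < PE μ (fun ω => E ω = e ∧ R ω)) {ps : ℝ}
    (hps : ps ≤ ∑ x ∈ A, p x) (h1 : DL μ X E C xh eh ch L R J0 J1 p e ≤ η ^ 2 * ps)
    (h2 : DP μ X E B R e ≤ η ^ 2 * ps) : Budget μ X E C B xh eh ch bh L R J0 J1 p A η e := by
  classical
  refine budget_of_le hμ hp0 hp e A (fun x hx => ?_) hF hps h1 h2
  obtain ⟨ω, h⟩ := hA x hx
  exact mem_image.mpr ⟨ω, mem_univ ω, h⟩

/-- the mass of one half of the time cell in the line cell -/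
theorem half_mass (hμ : IsProb μ) (hf0 : ∀ ω, 0 ≤ f ω) (hf1 : ∀ ω, f ω < 1)
    (dX P PC PB a a2 lam : ℕ) (s₀ s₁ : ℕ)
    (hE : ∀ ω b, E ω = some b →
      (blk s₀ s₁ b : ℝ) / 2 ^ P ≤ f ω ∧ f ω < (blk s₀ s₁ b : ℝ) / 2 ^ P + 1 / 2 ^ P)
    (hs0 : s₀ ≤ 2 ^ P)
    (d j jl : ℤ) (hj0 : jl * 2 ^ a2 + 1 ≤ j * 2 ^ a) (hj1 : (j + 1) * 2 ^ a ≤ (jl + 1) * 2 ^ a2)
    (hF : 0 < PE μ (fun ω => E ω = some false ∧ RR G T f c a d j ω))
    {η : ℝ} (hη : 0 ≤ η) (hη4 : η ≤ 1 / 4)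
    (hDL : DL μ (dg dX T) E (dg PC c) (xhh dX d) (ehh P s₀ s₁) (fun n => (n : ℝ) / 2 ^ PC)
      (LL G T c a2 d jl) (RR G T f c a d j) (j * 2 ^ a) ((j + 1) * 2 ^ a - 1 / 2 ^ PB)
      (px μ T c G dX a2 d jl) (some false) ≤ η ^ 2)
    (hDP : DP μ (dg dX T) E (dg PB (yy T f c)) (RR G T f c a d j) (some false) ≤ η ^ 2)
    (hlam : 2 ≤ lam) (hla : lam + 4 ≤ a) (hdX : 4 ≤ dX) (hP : 4 ≤ P) (hPC : 4 ≤ PC) (hPB : 4 ≤ PB)
    (b : Bool) :
    PE (cE μ (RR G T f c a d j)) (fun ω => inh T d b ω ∧ inn T f c a lam j ω) ≤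
      ∑ x ∈ half dX T d b, px μ T c G dX a2 d jl x + 9 * η := by
  classical
  have hRpos : 0 < PE μ (RR G T f c a d j) := hF.trans_le (PE_mono hμ fun ω h => h.2)
  have D := fbox hμ hf0 hf1 dX P PC PB a a2 s₀ s₁ hE d j jl hj0 hj1 hRpos
  have hLpos : 0 < PE μ (LL G T c a2 d jl) := hRpos.trans_le (PE_mono hμ D.RL)
  have hp0 := fun x => px_nonneg (T := T) (c := c) (G := G) hμ dX a2 d jl x
  have hp : ∀ x, 0 < PE μ (fun ω => dg dX T ω = x ∧ LL G T c a2 d jl ω) →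
      0 < px μ T c G dX a2 d jl x := fun x hx => div_pos hx hLpos
  set F := PE μ (fun ω => E ω = some false ∧ RR G T f c a d j ω) with hFd
  -- the slope
  have he0 : 0 ≤ ehh P s₀ s₁ (some false) ∧ ehh P s₀ s₁ (some false) ≤ 1 := by
    have hs0' : (s₀ : ℝ) ≤ 2 ^ P := by exact_mod_cast hs0
    exact ⟨by unfold ehh; positivity, (div_le_one (by positivity)).mpr hs0'⟩
  have habs1 : ∀ (e x y : ℝ), 0 ≤ e → e ≤ 1 → 0 ≤ x → x ≤ 1 → 0 ≤ y → y ≤ 1 →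
      |e * (x - y)| ≤ 1 := by
    intro e x y h1 h2 h3 h4 h5 h6
    rw [abs_mul, abs_of_nonneg h1]
    have : |x - y| ≤ 1 := abs_le.mpr ⟨by linarith, by linarith⟩
    calc e * |x - y| ≤ 1 * 1 := mul_le_mul h2 this (abs_nonneg _) (by norm_num)
      _ = 1 := by ring
  -- all time digits of the line cell
  set A : Finset ℤ := (univ.image (dg dX T)).filter fun x => 0 ≤ xhh dX d x ∧ xhh dX d x < 1
    with hA
  have hA1 : 1 ≤ ∑ x ∈ A, px μ T c G dX a2 d jl x := by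
    have h1 := one_le_sum_px (T := T) (c := c) (G := G) hμ dX a2 d jl hLpos
    rw [← sum_filter_add_sum_filter_not _ (fun x => 0 ≤ xhh dX d x ∧ xhh dX d x < 1)] at h1
    have h2 : ∑ x ∈ (univ.image (dg dX T)).filter (fun x => ¬ (0 ≤ xhh dX d x ∧ xhh dX d x < 1)),
        px μ T c G dX a2 d jl x = 0 := by
      refine sum_eq_zero fun x hx => ?_
      have h3 := (mem_filter.mp hx).2
      unfold px
      rw [PE_false fun ω hω => ?_, zero_div]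
      have h4 := xhh_mem (T := T) dX d ω hω.2.2.1
      rw [hω.1] at h4
      exact h3 h4
    rw [h2, add_zero] at h1
    exact h1
  have hA2 : ∑ x ∈ A, px μ T c G dX a2 d jl x ≤ 1 := sum_px_le_one hμ dX a2 d jl hLpos _
  have hbud : Budget μ (dg dX T) E (dg PC c) (dg PB (yy T f c)) (xhh dX d) (ehh P s₀ s₁)
      (fun n => (n : ℝ) / 2 ^ PC) (fun n => (n : ℝ) / 2 ^ PB) (LL G T c a2 d jl)
      (RR G T f c a d j) (j * 2 ^ a) ((j + 1) * 2 ^ a - 1 / 2 ^ PB) (px μ T c G dX a2 d jl)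
      A η (some false) :=
    budget_of_le' hμ hp0 hp (some false) A (fun x hx => by
      obtain ⟨ω, -, h⟩ := mem_image.mp (mem_filter.mp hx).1
      exact ⟨ω, h⟩) hF hA1 (by linarith) (by linarith)
  have hhalfA : half dX T d b ⊆ A := by
    intro x hx
    obtain ⟨h1, h2⟩ := mem_filter.mp hx
    refine mem_filter.mpr ⟨h1, ?_⟩
    cases b
    · simp only [Bool.false_eq_true, if_false] at h2
      exact ⟨h2.1, by linarith [h2.2]⟩
    · simp only [if_true] at h2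
      exact ⟨by linarith [h2.1], h2.2⟩
  have hw : ∀ x ∈ A, ∀ ω, LL G T c a2 d jl ω →
      |ehh P s₀ s₁ (some false) * (xhh dX d (dg dX T ω) - xhh dX d x)| ≤ 1 := by
    intro x hx ω hω
    have r1 := (mem_filter.mp hx).2
    have r2 := xhh_mem (T := T) dX d ω hω.2.1
    exact habs1 _ _ _ he0.1 he0.2 r2.1 r2.2.le r1.1 r1.2.le
  obtain ⟨eL, eP⟩ := D.sum_err hp0 hp A hη hη4 hw hbud
  have hbm := D.bad_mass hp0 (half dX T d b) (w := 1) fun x hx => hw x (hhalfA hx)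
  set s : ℝ := 1 / 2 ^ PB + 1 / 2 ^ PC + 1 / 2 ^ P + 1 / 2 ^ dX with hsd
  -- small numbers
  have hsm : ∀ n, 4 ≤ n → (1 : ℝ) / 2 ^ n ≤ 1 / 16 := fun n hn => by
    have : (2 : ℝ) ^ 4 ≤ 2 ^ n := pow_le_pow_right₀ (by norm_num) hn
    exact div_le_div_of_nonneg_left zero_le_one (by norm_num) (by linarith)
  have hs14 : s ≤ 1 / 4 := by
    have := hsm PB hPB
    have := hsm PC hPC
    have := hsm P hP
    have := hsm dX hdX
    linarith
  have hsPB := hsm PB hPB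
  -- the errors
  have s2 : ∑ x ∈ half dX T d b, errL μ (dg dX T) E (dg PC c) (xhh dX d) (ehh P s₀ s₁)
      (fun n => (n : ℝ) / 2 ^ PC) (LL G T c a2 d jl) (j * 2 ^ a + 1 + s)
      ((j + 1) * 2 ^ a - 1 / 2 ^ PB - 1 - s) (px μ T c G dX a2 d jl) (some false) x ≤
        3 * η * F := by
    refine (sum_le_sum_of_subset_of_nonneg hhalfA fun x _ _ => errL_nonneg _ x).trans
      (eL.trans ?_)
    have : (∑ x ∈ A, px μ T c G dX a2 d jl x) * F ≤ 1 * F := mul_le_mul_of_nonneg_right hA2 hF.le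
    rw [one_mul] at this
    exact mul_le_mul_of_nonneg_left this (by positivity)
  have s3 : ∑ x ∈ half dX T d b, errP μ (dg dX T) E (dg PB (yy T f c))
      (fun n => (n : ℝ) / 2 ^ PB) (RR G T f c a d j) (j * 2 ^ a + 1 + 2 * s)
      ((j + 1) * 2 ^ a - 1 / 2 ^ PB - 1 - 2 * s) (some false) x ≤ 6 * η * F := by
    refine (sum_le_sum_of_subset_of_nonneg hhalfA fun x _ _ => errP_nonneg _ x).trans
      (eP.trans ?_)
    have : (∑ x ∈ A, px μ T c G dX a2 d jl x) * F ≤ 1 * F := mul_le_mul_of_nonneg_right hA2 hF.le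
    rw [one_mul] at this
    exact mul_le_mul_of_nonneg_left this (by positivity)
  set W := ∑ x ∈ half dX T d b, PE μ (fun ω => dg dX T ω = x ∧
      ((dg PB (yy T f c) ω : ℤ) : ℝ) / 2 ^ PB ∈ Set.Icc ((j : ℝ) * 2 ^ a + 1 + 2 * s)
        ((j + 1) * 2 ^ a - 1 / 2 ^ PB - 1 - 2 * s) ∧ RR G T f c a d j ω) with hW
  have s5 : W * F / PE μ (RR G T f c a d j) ≤
      (∑ x ∈ half dX T d b, px μ T c G dX a2 d jl x + 9 * η) * F := by
    refine hbm.trans ?_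
    linarith
  have s6 : W ≤ (∑ x ∈ half dX T d b, px μ T c G dX a2 d jl x + 9 * η) *
      PE μ (RR G T f c a d j) := by
    rw [div_le_iff₀ hRpos] at s5
    have : W * F ≤ ((∑ x ∈ half dX T d b, px μ T c G dX a2 d jl x + 9 * η) *
      PE μ (RR G T f c a d j)) * F := by linarith
    exact le_of_mul_le_mul_right this hF
  rw [PE_cE, div_le_iff₀ hRpos]
  refine le_trans ?_ s6
  rw [hW]
  refine PE_le_sum hμ _ (fun x ω => dg dX T ω = x ∧
      ((dg PB (yy T f c) ω : ℤ) : ℝ) / 2 ^ PB ∈ Set.Icc ((j : ℝ) * 2 ^ a + 1 + 2 * s)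
        ((j + 1) * 2 ^ a - 1 / 2 ^ PB - 1 - 2 * s) ∧ RR G T f c a d j ω) _ ?_
  rintro ω ⟨⟨hh, hi⟩, hR⟩
  refine ⟨dg dX T ω, (inh_iff dX (by omega) d b ω).mp hh, rfl, ?_, hR⟩
  have hpa : (2 : ℝ) ^ a = 2 ^ (a - lam) * 2 ^ lam := by
    rw [← pow_add]; congr 1; omega
  have h4lam : (4 : ℝ) ≤ 2 ^ lam := by
    have : (2 : ℝ) ^ 2 ≤ 2 ^ lam := pow_le_pow_right₀ (by norm_num) hlam
    linarith
  have hl : (0 : ℝ) < 2 ^ lam := by positivity
  obtain ⟨hi1, hi2⟩ := hi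
  have y1 : (((j * 2 ^ (a - lam) + 4) * 2 ^ lam : ℤ) : ℝ) ≤ yy T f c ω := by
    have h1 : ((j * 2 ^ (a - lam) + 4 : ℤ) : ℝ) ≤ yy T f c ω / 2 ^ lam := Int.le_floor.mp hi1
    rw [le_div_iff₀ hl] at h1
    push_cast at h1 ⊢
    exact h1
  have y2 : yy T f c ω < (j + 1) * 2 ^ a - 4 * 2 ^ lam := by
    have h1 : yy T f c ω / 2 ^ lam < (((j + 1) * 2 ^ (a - lam) - 4 : ℤ) : ℝ) :=
      Int.floor_lt.mp hi2
    rw [div_lt_iff₀ hl] at h1
    push_cast at h1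
    rw [hpa]
    linarith
  have y3 := (dg_Ico PB (yy T f c) ω ((j * 2 ^ (a - lam) + 4) * 2 ^ lam)).mpr y1
  push_cast at y3
  have y4 := (dg_bounds PB (yy T f c) ω).1
  constructor
  · rw [hpa]
    linarith
  · linarith

end Vale.Agent.P065.H819
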