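import Vale.Agent.P065.H819.Nb2
import Vale.Agent.P065.H819.RowQ2

/-!
# P065, package ROWS, version 2, part 3: the mass of the halves
-/

set_option autoImplicit false
set_option linter.unusedSectionVars false

open Finset Real

noncomputable section

namespace Vale.Agent.P065.H819

open Vale.Agent.P065.Ent
open Vale.Agent.P065.H700 (KL AC)

variable {Ω : Type*} [Fintype Ω] {ξ η : Type*}

variable {μ : Ω → ℝ} {T f c : Ω → ℝ} {G L : Ω → Prop} {E : Ω → Option Bool} {X : Ω → ξ}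
  {xd : ξ → ℤ} {C : Ω → η} {ch : η → ℝ} {dX P PC a : ℕ} {s₀ s₁ : ℕ} {d j : ℤ}

open Classical in
/-- the values of the time variable in the time cell -/
def XA (X : Ω → ξ) (xd : ξ → ℤ) (dX : ℕ) (d : ℤ) : Finset ξ :=
  (univ.image X).filter fun x => 0 ≤ xhh dX d (xd x) ∧ xhh dX d (xd x) < 1

lemma hfX_sub (b : Bool) : hfX X xd dX d b ⊆ XA X xd dX d := by
  classical
  intro x hx
  exact mem_filter.mpr ⟨(mem_filter.mp hx).1, hfX_mem hx⟩

lemma XA_img {x : ξ} (hx : x ∈ XA X xd dX d) : ∃ ω, X ω = x := by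
  classical
  obtain ⟨ω, -, h⟩ := Finset.mem_image.mp (mem_filter.mp hx).1
  exact ⟨ω, h⟩

lemma NBox.one_le_sum_XA (D : NBox μ T f c G L E X xd C ch dX P PC a s₀ s₁ d j) :
    1 ≤ ∑ x ∈ XA X xd dX d, pX μ X L x := by
  classical
  have h1 := D.one_le_sum_pX
  rw [← sum_filter_add_sum_filter_not _
    (fun x => 0 ≤ xhh dX d (xd x) ∧ xhh dX d (xd x) < 1)] at h1
  have h2 : ∑ x ∈ (univ.image X).filter (fun x => ¬ (0 ≤ xhh dX d (xd x) ∧
      xhh dX d (xd x) < 1)), pX μ X L x = 0 := by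
    refine sum_eq_zero fun x hx => ?_
    have h3 := (mem_filter.mp hx).2
    unfold pX
    rw [PE_false fun ω hω => ?_, zero_div]
    have h4 := D.xmem ω hω.2
    rw [hω.1] at h4
    exact h3 h4
  rw [h2, add_zero] at h1
  exact h1

/-- the half of a flag -/
lemma NBox.mem_hfX (D : NBox μ T f c G L E X xd C ch dX P PC a s₀ s₁ d j) (hdX : 1 ≤ dX)
    (b : Bool) {ω : Ω} (hL : L ω) : inh T d b ω ↔ X ω ∈ hfX X xd dX d b := by
  classical
  rw [inh_iff dX hdX d b ω]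
  unfold Vale.Agent.P065.H819.half hfX
  rw [mem_filter, mem_filter, D.hX ω hL]
  constructor
  · rintro ⟨-, h⟩
    exact ⟨mem_image_of_mem X (mem_univ ω), h⟩
  · rintro ⟨-, h⟩
    exact ⟨mem_image_of_mem _ (mem_univ ω), h⟩

/-- the mass of one half of the time cell in the line cell -/
theorem NBox.half_mass (D : NBox μ T f c G L E X xd C ch dX P PC a s₀ s₁ d j) (PB lam : ℕ)
    {η' : ℝ} (hη : 0 ≤ η') (hη4 : η' ≤ 1 / 4)
    (hDL : DL μ X E C (fun x => xhh dX d (xd x)) (ehh P s₀ s₁) ch L (RR G T f c a d j)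
      (j * 2 ^ a) ((j + 1) * 2 ^ a - 1 / 2 ^ PB) (pX μ X L) (some false) ≤ η' ^ 2)
    (hDP : DP μ X E (dg PB (yy T f c)) (RR G T f c a d j) (some false) ≤ η' ^ 2)
    (hlam : 2 ≤ lam) (hla : lam + 4 ≤ a) (hdX : 4 ≤ dX) (hP : 4 ≤ P) (hPC : 4 ≤ PC) (hPB : 4 ≤ PB)
    (b : Bool) :
    PE (cE μ (RR G T f c a d j)) (fun ω => inh T d b ω ∧ inn T f c a lam j ω) ≤
      ∑ x ∈ hfX X xd dX d b, pX μ X L x + 9 * η' := by
  classical
  have hμ := D.prob
  have hRpos := D.posR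
  have DF := D.fbox PB
  have hp0 := fun x => NBox.pX_nonneg (X := X) (L := L) hμ x
  have hp := D.pX_pos
  have hF := D.hF false
  set F := PE μ (fun ω => E ω = some false ∧ RR G T f c a d j ω) with hFd
  have he0 := D.eh01 (some false) (Or.inl rfl)
  set A := XA X xd dX d with hA
  have hA1 : 1 ≤ ∑ x ∈ A, pX μ X L x := D.one_le_sum_XA
  have hA2 : ∑ x ∈ A, pX μ X L x ≤ 1 := D.sum_pX_le_one _
  have hbud : Budget μ X E C (dg PB (yy T f c)) (fun x => xhh dX d (xd x)) (ehh P s₀ s₁)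
      ch (fun n => (n : ℝ) / 2 ^ PB) L
      (RR G T f c a d j) (j * 2 ^ a) ((j + 1) * 2 ^ a - 1 / 2 ^ PB) (pX μ X L)
      A η' (some false) :=
    budget_of_le' hμ hp0 hp (some false) A (fun x hx => XA_img hx) hF hA1 (by linarith)
      (by linarith)
  have hhalfA : hfX X xd dX d b ⊆ A := hfX_sub b
  have hw : ∀ x ∈ A, ∀ ω, L ω →
      |ehh P s₀ s₁ (some false) * (xhh dX d (xd (X ω)) - xhh dX d (xd x))| ≤ 1 := by
    intro x hx ω hω
    have r1 := (mem_filter.mp hx).2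
    have r2 := D.xmem ω hω
    exact abs_mul_sub_le_one he0.1 he0.2 r2.1 r2.2.le r1.1 r1.2.le
  obtain ⟨eL, eP⟩ := DF.sum_err hp0 hp A hη hη4 hw hbud
  have hbm := DF.bad_mass hp0 (hfX X xd dX d b) (w := 1) fun x hx => hw x (hhalfA hx)
  set s : ℝ := 1 / 2 ^ PB + 1 / 2 ^ PC + 1 / 2 ^ P + 1 / 2 ^ dX with hsd
  -- small numbers
  have hsm : ∀ n, 4 ≤ n → (1 : ℝ) / 2 ^ n ≤ 1 / 16 := fun n hn => by
    have : (2 : ℝ) ^ 4 ≤ 2 ^ n := pow_le_pow_right₀ (by norm_num) hn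
    exact div_le_div_of_nonneg_left zero_le_one (by norm_num) (by linarith)
  have hs14 : s ≤ 1 / 4 := by
    have := hsm PB hPB
    have := hsm PC hPC
    have := hsm P hP
    have := hsm dX hdX
    linarith
  have hsPB := hsm PB hPB
  -- the errors
  have s2 : ∑ x ∈ hfX X xd dX d b, errL μ X E C (fun x => xhh dX d (xd x)) (ehh P s₀ s₁)
      ch L (j * 2 ^ a + 1 + s)
      ((j + 1) * 2 ^ a - 1 / 2 ^ PB - 1 - s) (pX μ X L) (some false) x ≤
        3 * η' * F := by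
    refine (sum_le_sum_of_subset_of_nonneg hhalfA fun x _ _ => errL_nonneg _ x).trans
      (eL.trans ?_)
    have : (∑ x ∈ A, pX μ X L x) * F ≤ 1 * F := mul_le_mul_of_nonneg_right hA2 hF.le
    rw [one_mul] at this
    exact mul_le_mul_of_nonneg_left this (by positivity)
  have s3 : ∑ x ∈ hfX X xd dX d b, errP μ X E (dg PB (yy T f c))
      (fun n => (n : ℝ) / 2 ^ PB) (RR G T f c a d j) (j * 2 ^ a + 1 + 2 * s)
      ((j + 1) * 2 ^ a - 1 / 2 ^ PB - 1 - 2 * s) (some false) x ≤ 6 * η' * F := by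
    refine (sum_le_sum_of_subset_of_nonneg hhalfA fun x _ _ => errP_nonneg _ x).trans
      (eP.trans ?_)
    have : (∑ x ∈ A, pX μ X L x) * F ≤ 1 * F := mul_le_mul_of_nonneg_right hA2 hF.le
    rw [one_mul] at this
    exact mul_le_mul_of_nonneg_left this (by positivity)
  set W := ∑ x ∈ hfX X xd dX d b, PE μ (fun ω => X ω = x ∧
      ((dg PB (yy T f c) ω : ℤ) : ℝ) / 2 ^ PB ∈ Set.Icc ((j : ℝ) * 2 ^ a + 1 + 2 * s)
        ((j + 1) * 2 ^ a - 1 / 2 ^ PB - 1 - 2 * s) ∧ RR G T f c a d j ω) with hW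
  have s5 : W * F / PE μ (RR G T f c a d j) ≤
      (∑ x ∈ hfX X xd dX d b, pX μ X L x + 9 * η') * F := by
    refine hbm.trans ?_
    linarith
  have s6 : W ≤ (∑ x ∈ hfX X xd dX d b, pX μ X L x + 9 * η') *
      PE μ (RR G T f c a d j) := by
    rw [div_le_iff₀ hRpos] at s5
    have : W * F ≤ ((∑ x ∈ hfX X xd dX d b, pX μ X L x + 9 * η') *
      PE μ (RR G T f c a d j)) * F := by linarith
    exact le_of_mul_le_mul_right this hF
  rw [PE_cE, div_le_iff₀ hRpos]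
  refine le_trans ?_ s6
  rw [hW]
  refine PE_le_sum hμ _ (fun x ω => X ω = x ∧
      ((dg PB (yy T f c) ω : ℤ) : ℝ) / 2 ^ PB ∈ Set.Icc ((j : ℝ) * 2 ^ a + 1 + 2 * s)
        ((j + 1) * 2 ^ a - 1 / 2 ^ PB - 1 - 2 * s) ∧ RR G T f c a d j ω) _ ?_
  rintro ω ⟨⟨hh, hi⟩, hR⟩
  refine ⟨X ω, (D.mem_hfX (by omega) b (D.RL ω hR)).mp hh, rfl, ?_, hR⟩
  have hpa : (2 : ℝ) ^ a = 2 ^ (a - lam) * 2 ^ lam := by
    rw [← pow_add]; congr 1; omega
  have h4lam : (4 : ℝ) ≤ 2 ^ lam := by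
    have : (2 : ℝ) ^ 2 ≤ 2 ^ lam := pow_le_pow_right₀ (by norm_num) hlam
    linarith
  have hl : (0 : ℝ) < 2 ^ lam := by positivity
  obtain ⟨hi1, hi2⟩ := hi
  have y1 : (((j * 2 ^ (a - lam) + 4) * 2 ^ lam : ℤ) : ℝ) ≤ yy T f c ω := by
    have h1 : ((j * 2 ^ (a - lam) + 4 : ℤ) : ℝ) ≤ yy T f c ω / 2 ^ lam := Int.le_floor.mp hi1
    rw [le_div_iff₀ hl] at h1
    push_cast at h1 ⊢
    exact h1
  have y2 : yy T f c ω < (j + 1) * 2 ^ a - 4 * 2 ^ lam := by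
    have h1 : yy T f c ω / 2 ^ lam < (((j + 1) * 2 ^ (a - lam) - 4 : ℤ) : ℝ) :=
      Int.floor_lt.mp hi2
    rw [div_lt_iff₀ hl] at h1
    push_cast at h1
    rw [hpa]
    linarith
  have y3 := (dg_Ico PB (yy T f c) ω ((j * 2 ^ (a - lam) + 4) * 2 ^ lam)).mpr y1
  push_cast at y3
  have y4 := (dg_bounds PB (yy T f c) ω).1
  constructor
  · rw [hpa]
    linarith
  · linarith

end Vale.Agent.P065.H819
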