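import Vale.Agent.P065.H819.RowQ2

/-!
# P065, package ROWS, part 5: the box inequality for a law `q`, all time digits
-/

set_option autoImplicit false
set_option linter.unusedSectionVars false

open Finset Real

noncomputable section

namespace Vale.Agent.P065.H819

open Vale.Agent.P065.Ent
open Vale.Agent.P065.H700 (KL AC)

/-- the cells of the pairs in `I` -/
def pairs (I : Finset ℤ) : Finset ℤ := I.image (fun i => 2 * i) ∪ I.image (fun i => 2 * i + 1)

lemma sum_pairs (I : Finset ℤ) (g : ℤ → ℝ) :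
    ∑ i ∈ I, (g (2 * i) + g (2 * i + 1)) = ∑ i ∈ pairs I, g i := by
  unfold pairs
  rw [sum_union, sum_image, sum_image, sum_add_distrib]
  · intro a _ b _ h
    simp only at h
    omega
  · intro a _ b _ h
    simp only at h
    omega
  · rw [disjoint_left]
    intro x hx hx'
    obtain ⟨a, -, ha⟩ := mem_image.mp hx
    obtain ⟨b, -, hb⟩ := mem_image.mp hx'
    omega

variable {Ω : Type*} [Fintype Ω] {μ q : Ω → ℝ} {T f c : Ω → ℝ} {G : Ω → Prop}
  {E : Ω → Option Bool} {γ : Type*}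

open Classical in
/-- the time digits of the cell `d` which are not close to its middle -/
def Xn (dX : ℕ) (T : Ω → ℝ) (g : ℕ) (d : ℤ) : Finset ℤ :=
  ((univ.image (dg dX T)).filter fun x => 0 ≤ xhh dX d x ∧ xhh dX d x < 1).filter (nn dX g d)

open Classical in
lemma sum_Xn (dX g : ℕ) (d : ℤ) (F : ℤ → ℝ) :
    ∑ x ∈ Xn dX T g d, F x = ∑ x ∈ (half dX T d false).filter (nn dX g d), F x +
      ∑ x ∈ (half dX T d true).filter (nn dX g d), F x := by
  have hdis : Disjoint ((half dX T d false).filter (nn dX g d))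
      ((half dX T d true).filter (nn dX g d)) := by
    rw [disjoint_left]
    intro x hx hx'
    have h1 := (mem_filter.mp (mem_filter.mp hx).1).2
    have h2 := (mem_filter.mp (mem_filter.mp hx').1).2
    simp only [Bool.false_eq_true, if_false] at h1
    simp only [if_true] at h2
    linarith [h1.2, h2.1]
  rw [← sum_union hdis]
  refine sum_congr ?_ fun _ _ => rfl
  ext x
  unfold Xn half
  simp only [mem_filter, mem_union, Bool.false_eq_true, if_false, if_true]
  constructor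
  · rintro ⟨⟨h1, h2, h3⟩, h4⟩
    rcases lt_or_ge (xhh dX d x) (1 / 2) with h | h
    · left; exact ⟨⟨h1, h2, h⟩, h4⟩
    · right; exact ⟨⟨h1, h, h3⟩, h4⟩
  · rintro (⟨⟨h1, h2, h3⟩, h4⟩ | ⟨⟨h1, h2, h3⟩, h4⟩)
    · exact ⟨⟨h1, h2, by linarith⟩, h4⟩
    · exact ⟨⟨h1, by linarith, h3⟩, h4⟩

/-- the constant in front of the informations -/
def CQ (κ ps e' : ℝ) : ℝ := 2 * cB κ (ps / 2) + 1 / e' + (36 / ps) ^ 2

/-- the information of the box -/
def SQ (μ q : Ω → ℝ) (T f c : Ω → ℝ) (G : Ω → Prop) (E : Ω → Option Bool)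
    (dX P PC PB a a2 lam : ℕ) (s₀ s₁ : ℕ) (d j jl : ℤ) : ℝ :=
  DD μ T f c G E dX P PC PB a a2 s₀ s₁ d j jl +
    KL q (cE μ (RR G T f c a d j)) (YY T f c dX lam)

open Classical in
/-- **ROWBOX, law `q`** -/
theorem rowboxQ (hμ : IsProb μ) (hf0 : ∀ ω, 0 ≤ f ω) (hf1 : ∀ ω, f ω < 1)
    (dX P PC PB a a2 lam P0 g : ℕ) (s₀ s₁ : ℕ)
    (hE : ∀ ω b, E ω = some b →
      (blk s₀ s₁ b : ℝ) / 2 ^ P ≤ f ω ∧ f ω < (blk s₀ s₁ b : ℝ) / 2 ^ P + 1 / 2 ^ P)
    (hs0 : s₀ ≤ 2 ^ P) (hs1 : s₁ ≤ 2 ^ P)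
    (hs : (1 : ℝ) / 2 ^ P0 ≤ |(s₀ : ℝ) / 2 ^ P - s₁ / 2 ^ P|)
    (d j jl : ℤ) (hj0 : jl * 2 ^ a2 + 1 ≤ j * 2 ^ a) (hj1 : (j + 1) * 2 ^ a ≤ (jl + 1) * 2 ^ a2)
    (hF : ∀ b, 0 < PE μ (fun ω => E ω = some b ∧ RR G T f c a d j ω))
    (hq : IsProb q) (hac : AC q (cE μ (RR G T f c a d j)))
    {ps : ℝ} (hps : 0 < ps) (hps1 : ps ≤ 1)
    (hth : ∀ b, ps ≤ PE q (fun ω => inh T d b ω ∧ inn T f c a lam j ω))
    {κ : ℝ} (hκ : 0 < κ) (hκ1 : κ < 1) {e' : ℝ} (he' : 0 < e')
    (hlam : 2 ≤ lam) (hla : lam + 4 ≤ a) (hdX : a + 2 * P0 + 2 * g + 10 ≤ dX)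
    (hP : a + 2 * P0 + 2 * g + 10 ≤ P) (hPC : a + 2 * P0 + 2 * g + 10 ≤ PC)
    (hPB : a + 2 * P0 + 2 * g + 10 ≤ PB) :
    ∑ x ∈ Xn dX T g d, ∑ i ∈ In a lam j, cq q T f c dX lam x i ≤
      2 * eB κ a lam P0 g + e' +
        CQ κ ps e' * SQ μ q T f c G E dX P PC PB a a2 lam s₀ s₁ d j jl := by
  have hRpos : 0 < PE μ (RR G T f c a d j) :=
    (hF false).trans_le (PE_mono hμ fun ω h => h.2)
  have D := fbox hμ hf0 hf1 dX P PC PB a a2 s₀ s₁ hE d j jl hj0 hj1 hRpos
  have hLpos : 0 < PE μ (LL G T c a2 d jl) := hRpos.trans_le (PE_mono hμ D.RL)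
  have hν : IsProb (cE μ (RR G T f c a d j)) := cnd_isProb hμ hRpos
  set ν := cE μ (RR G T f c a d j) with hνd
  have hp0 := fun x => px_nonneg (T := T) (c := c) (G := G) hμ dX a2 d jl x
  have hp : ∀ x, 0 < PE μ (fun ω => dg dX T ω = x ∧ LL G T c a2 d jl ω) →
      0 < px μ T c G dX a2 d jl x := fun x hx => div_pos hx hLpos
  -- the five informations
  set K := KL q ν (YY T f c dX lam) with hK
  have hK0 : 0 ≤ K := H700.KL_nonneg hq hν hac _
  set D1 := DL μ (dg dX T) E (dg PC c) (xhh dX d) (ehh P s₀ s₁) (fun n => (n : ℝ) / 2 ^ PC)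
    (LL G T c a2 d jl) (RR G T f c a d j) (j * 2 ^ a) ((j + 1) * 2 ^ a - 1 / 2 ^ PB)
    (px μ T c G dX a2 d jl) (some false) with hD1
  set D2 := DL μ (dg dX T) E (dg PC c) (xhh dX d) (ehh P s₀ s₁) (fun n => (n : ℝ) / 2 ^ PC)
    (LL G T c a2 d jl) (RR G T f c a d j) (j * 2 ^ a) ((j + 1) * 2 ^ a - 1 / 2 ^ PB)
    (px μ T c G dX a2 d jl) (some true) with hD2
  set D3 := DP μ (dg dX T) E (dg PB (yy T f c)) (RR G T f c a d j) (some false) with hD3
  set D4 := DP μ (dg dX T) E (dg PB (yy T f c)) (RR G T f c a d j) (some true) with hD4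
  have hD10 : 0 ≤ D1 := DL_nonneg hμ hp0 hp _
  have hD20 : 0 ≤ D2 := DL_nonneg hμ hp0 hp _
  have hD30 : 0 ≤ D3 := DP_nonneg hμ _
  have hD40 : 0 ≤ D4 := DP_nonneg hμ _
  have hDD : DD μ T f c G E dX P PC PB a a2 s₀ s₁ d j jl = D1 + D2 + D3 + D4 := rfl
  have hSQ : SQ μ q T f c G E dX P PC PB a a2 lam s₀ s₁ d j jl = D1 + D2 + D3 + D4 + K := rfl
  have heB : 0 ≤ eB κ a lam P0 g := by unfold eB; positivity
  have hcB : 0 ≤ cB κ (ps / 2) := by unfold cB; positivity
  rw [hSQ]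
  set S := D1 + D2 + D3 + D4 + K with hS
  have hS0 : 0 ≤ S := by linarith
  set Y := YY T f c dX lam with hY
  have htriv : ∑ x ∈ Xn dX T g d, ∑ i ∈ In a lam j, cq q T f c dX lam x i ≤ 1 := by
    have h1 : ∀ x ∈ Xn dX T g d, ∑ i ∈ In a lam j, cq q T f c dX lam x i ≤
        ∑ i ∈ pairs (In a lam j), Pr q Y (x, i) := by
      intro x _
      rw [← sum_pairs (In a lam j) (fun i => Pr q Y (x, i))]
      refine sum_le_sum fun i _ => ?_
      unfold cq
      have n1 := Pr_nonneg hq Y (x, 2 * i)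
      have n2 := Pr_nonneg hq Y (x, 2 * i + 1)
      rw [abs_le]
      constructor <;> linarith
    refine (sum_le_sum h1).trans ?_
    rw [← sum_product']
    have h2 : ∀ y ∈ Xn dX T g d ×ˢ pairs (In a lam j), y ∉ univ.image Y → Pr q Y y = 0 := by
      intro y _ hy
      exact Pr_eq_zero Y fun ω h => hy (h ▸ mem_image_of_mem Y (mem_univ ω))
    rw [← sum_Pr hq Y]
    rw [← sum_filter_add_sum_filter_not (Xn dX T g d ×ˢ pairs (In a lam j))
      (fun y => y ∈ univ.image Y)]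
    rw [sum_eq_zero (s := (Xn dX T g d ×ˢ pairs (In a lam j)).filter
      (fun y => y ∉ univ.image Y)) fun y hy => h2 y (mem_filter.mp hy).1 (mem_filter.mp hy).2,
      add_zero]
    exact sum_le_sum_of_subset_of_nonneg (fun y hy => (mem_filter.mp hy).2)
      fun y _ _ => Pr_nonneg hq Y y
  by_cases hsm : S ≤ (ps / 36) ^ 2
  · -- the halves are thick in the line cell
    have hη0 : 0 ≤ ps / 36 := by positivity
    have hη4 : ps / 36 ≤ 1 / 4 := by linarith
    have hsqK : √ K ≤ ps / 36 := by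
      rw [← sqrt_sq hη0]
      exact sqrt_le_sqrt (by linarith)
    have hthick : ∀ b, ps / 2 ≤ ∑ x ∈ half dX T d b, px μ T c G dX a2 d jl x := by
      intro b
      have h1 := half_mass hμ hf0 hf1 dX P PC PB a a2 lam s₀ s₁ hE hs0 d j jl hj0 hj1 (hF false)
        hη0 hη4 (by rw [← hD1]; linarith) (by rw [← hD3]; linarith) hlam hla (by omega)
        (by omega) (by omega) (by omega) b
      have h2 : PE q (fun ω => inh T d b ω ∧ inn T f c a lam j ω) ≤
          PE ν (fun ω => inh T d b ω ∧ inn T f c a lam j ω) + 2 * √ K := by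
        have h3 := PE_sub_le hq hν hac Y
          {y : ℤ × ℤ | y.1 ∈ half dX T d b ∧ j * 2 ^ (a - lam) + 4 ≤ y.2 ∧
            y.2 < (j + 1) * 2 ^ (a - lam) - 4}
        have h4 : ∀ ω, Y ω ∈ {y : ℤ × ℤ | y.1 ∈ half dX T d b ∧ j * 2 ^ (a - lam) + 4 ≤ y.2 ∧
            y.2 < (j + 1) * 2 ^ (a - lam) - 4} ↔ (inh T d b ω ∧ inn T f c a lam j ω) := by
          intro ω
          rw [inh_iff dX (by omega) d b ω]
          rfl
        rw [PE_congr h4, PE_congr h4] at h3
        exact h3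
      have h5 := hth b
      linarith
    have hrow : ∀ b, ∑ x ∈ (half dX T d b).filter (nn dX g d),
        ∑ i ∈ In a lam j, cs μ T f c G dX a lam d j x i ≤
        PE μ (RR G T f c a d j) * (eB κ a lam P0 g + cB κ (ps / 2) * (D1 + D2 + D3 + D4)) :=
      fun b => rowbox hμ hf0 hf1 dX P PC PB a a2 lam P0 g s₀ s₁ hE hs0 hs1 hs d j jl hj0 hj1 hF
        (half_pos hps) hthick hκ hκ1 hlam hla hdX hP hPC hPB b
    -- pointwise comparison
    have hpt : ∀ x i, cq q T f c dX lam x i ≤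
        cs μ T f c G dX a lam d j x i / PE μ (RR G T f c a d j) +
        (|Pr q Y (x, 2 * i) - Pr ν Y (x, 2 * i)| +
          |Pr q Y (x, 2 * i + 1) - Pr ν Y (x, 2 * i + 1)|) := by
      intro x i
      have e1 : ∀ i', Pr ν Y (x, i') = PE μ (fun ω => dg dX T ω = x ∧
          ⌊yy T f c ω / 2 ^ lam⌋ = i' ∧ RR G T f c a d j ω) / PE μ (RR G T f c a d j) := by
        intro i'
        rw [hνd, Pr_cE]
        congr 1
        refine PE_congr fun ω => ?_
        rw [hY]
        unfold YY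
        simp only [Prod.mk.injEq]
        tauto
      have e2 : cs μ T f c G dX a lam d j x i / PE μ (RR G T f c a d j) =
          |Pr ν Y (x, 2 * i) - Pr ν Y (x, 2 * i + 1)| := by
        rw [e1, e1, ← sub_div, abs_div, abs_of_pos hRpos]
        rfl
      rw [e2]
      unfold cq
      rw [← hY]
      set A := Pr q Y (x, 2 * i)
      set B := Pr q Y (x, 2 * i + 1)
      set A' := Pr ν Y (x, 2 * i)
      set B' := Pr ν Y (x, 2 * i + 1)
      have h1 : A - B = (A' - B') + ((A - A') - (B - B')) := by ring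
      rw [h1]
      have h2 := abs_add_le (A' - B') ((A - A') - (B - B'))
      have h3 := abs_sub (A - A') (B - B')
      linarith
    have hsum : ∑ x ∈ Xn dX T g d, ∑ i ∈ In a lam j, cq q T f c dX lam x i ≤
        (∑ x ∈ Xn dX T g d, ∑ i ∈ In a lam j, cs μ T f c G dX a lam d j x i) /
          PE μ (RR G T f c a d j) + 2 * √ K := by
      refine (sum_le_sum fun x _ => sum_le_sum fun i _ => hpt x i).trans ?_
      have e1 : ∀ x ∈ Xn dX T g d, ∑ i ∈ In a lam j,
          (cs μ T f c G dX a lam d j x i / PE μ (RR G T f c a d j) +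
          (|Pr q Y (x, 2 * i) - Pr ν Y (x, 2 * i)| +
          |Pr q Y (x, 2 * i + 1) - Pr ν Y (x, 2 * i + 1)|)) =
          (∑ i ∈ In a lam j, cs μ T f c G dX a lam d j x i) / PE μ (RR G T f c a d j) +
          ∑ i ∈ pairs (In a lam j), |Pr q Y (x, i) - Pr ν Y (x, i)| := by
        intro x _
        rw [sum_add_distrib, ← sum_div,
          sum_pairs (In a lam j) (fun i => |Pr q Y (x, i) - Pr ν Y (x, i)|)]
      rw [sum_congr rfl e1, sum_add_distrib, ← sum_div]
      have h1 := tv_KL hq hν hac Y (Xn dX T g d ×ˢ pairs (In a lam j))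
      rw [sum_product] at h1
      linarith
    rw [sum_Xn dX g d (fun x => ∑ i ∈ In a lam j, cs μ T f c G dX a lam d j x i)] at hsum
    have h1 := hrow false
    have h2 := hrow true
    have h3 : (∑ x ∈ (half dX T d false).filter (nn dX g d),
        ∑ i ∈ In a lam j, cs μ T f c G dX a lam d j x i +
        ∑ x ∈ (half dX T d true).filter (nn dX g d),
        ∑ i ∈ In a lam j, cs μ T f c G dX a lam d j x i) / PE μ (RR G T f c a d j) ≤
        2 * (eB κ a lam P0 g + cB κ (ps / 2) * (D1 + D2 + D3 + D4)) := by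
      rw [div_le_iff₀ hRpos]
      linarith
    have h4 := two_sqrt_le hK0 he'
    have h5 : K / e' = 1 / e' * K := by ring
    have h6 : 1 / e' * K ≤ 1 / e' * S := mul_le_mul_of_nonneg_left (by linarith) (by positivity)
    have h7 : cB κ (ps / 2) * (D1 + D2 + D3 + D4) ≤ cB κ (ps / 2) * S :=
      mul_le_mul_of_nonneg_left (by linarith) hcB
    have h8 : 0 ≤ (36 / ps) ^ 2 * S := by positivity
    unfold CQ
    nlinarith
  · push Not at hsm
    refine htriv.trans ?_
    have h1 : 1 ≤ (36 / ps) ^ 2 * S := by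
      have h2 : (36 / ps) ^ 2 * (ps / 36) ^ 2 = 1 := by
        rw [← mul_pow]
        have : 36 / ps * (ps / 36) = 1 := by field_simp
        rw [this, one_pow]
      have h3 : (36 / ps) ^ 2 * (ps / 36) ^ 2 ≤ (36 / ps) ^ 2 * S :=
        mul_le_mul_of_nonneg_left hsm.le (by positivity)
      linarith
    have h2 : 0 ≤ (2 * cB κ (ps / 2) + 1 / e') * S := by positivity
    unfold CQ
    nlinarith

end Vale.Agent.P065.H819
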