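import Vale.Agent.P065.H819.Nb3
import Vale.Agent.P065.H819.RowQ3

/-!
# P065, package ROWS, version 2, part 4: the box inequality for a law `q`, any set of digit cells
-/

set_option autoImplicit false
set_option linter.unusedSectionVars false

open Finset Real

noncomputable section

namespace Vale.Agent.P065.H819

open Vale.Agent.P065.Ent
open Vale.Agent.P065.H700 (KL AC)

variable {Ω : Type*} [Fintype Ω] {ξ η : Type*}

variable {μ q : Ω → ℝ} {T f c : Ω → ℝ} {G L : Ω → Prop} {E : Ω → Option Bool} {X : Ω → ξ}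
  {xd : ξ → ℤ} {C : Ω → η} {ch : η → ℝ} {dX P PC a : ℕ} {s₀ s₁ : ℕ} {d j : ℤ}

/-- the fine variable of the box: time variable and row -/
def YX (X : Ω → ξ) (T f c : Ω → ℝ) (lam : ℕ) (ω : Ω) : ξ × ℤ := (X ω, ⌊yy T f c ω / 2 ^ lam⌋)

/-- the difference of the two cells of a pair -/
def qD (q : Ω → ℝ) (X : Ω → ξ) (T f c : Ω → ℝ) (lam : ℕ) (y : ξ × ℤ) : ℝ :=
  |Pr q (YX X T f c lam) (y.1, 2 * y.2) - Pr q (YX X T f c lam) (y.1, 2 * y.2 + 1)|

/-- the mass of a pair -/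
def qM (q : Ω → ℝ) (X : Ω → ξ) (T f c : Ω → ℝ) (lam : ℕ) (y : ξ × ℤ) : ℝ :=
  Pr q (YX X T f c lam) (y.1, 2 * y.2) + Pr q (YX X T f c lam) (y.1, 2 * y.2 + 1)

lemma qM_nonneg (hq : IsProb q) (lam : ℕ) (y : ξ × ℤ) : 0 ≤ qM q X T f c lam y :=
  add_nonneg (Pr_nonneg hq _ _) (Pr_nonneg hq _ _)

lemma qD_le_qM (hq : IsProb q) (lam : ℕ) (y : ξ × ℤ) :
    qD q X T f c lam y ≤ qM q X T f c lam y := by
  unfold qD qM
  have n1 := Pr_nonneg hq (YX X T f c lam) (y.1, 2 * y.2)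
  have n2 := Pr_nonneg hq (YX X T f c lam) (y.1, 2 * y.2 + 1)
  rw [abs_le]
  constructor <;> linarith

/-- sums over pairs are sums over cells -/
lemma sum_pairs' [DecidableEq ξ] (U : Finset (ξ × ℤ)) (g : ξ × ℤ → ℝ) :
    ∑ y ∈ U, (g (y.1, 2 * y.2) + g (y.1, 2 * y.2 + 1)) =
      ∑ y ∈ U.image (fun y => (y.1, 2 * y.2)) ∪ U.image (fun y => (y.1, 2 * y.2 + 1)), g y := by
  rw [sum_union, sum_image, sum_image, sum_add_distrib]
  · rintro ⟨a1, a2⟩ _ ⟨b1, b2⟩ _ h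
    simp only [Prod.mk.injEq] at h ⊢
    exact ⟨h.1, by omega⟩
  · rintro ⟨a1, a2⟩ _ ⟨b1, b2⟩ _ h
    simp only [Prod.mk.injEq] at h ⊢
    exact ⟨h.1, by omega⟩
  · rw [disjoint_left]
    intro x hx hx'
    obtain ⟨a, -, rfl⟩ := mem_image.mp hx
    obtain ⟨b, -, hb⟩ := mem_image.mp hx'
    simp only [Prod.mk.injEq] at hb
    omega

lemma sum_qM_le_one (hq : IsProb q) (lam : ℕ) (U : Finset (ξ × ℤ)) :
    ∑ y ∈ U, qM q X T f c lam y ≤ 1 := by
  classical
  unfold qM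
  rw [sum_pairs' U (fun y => Pr q (YX X T f c lam) y)]
  set S := U.image (fun y => (y.1, 2 * y.2)) ∪ U.image (fun y => (y.1, 2 * y.2 + 1))
  rw [← sum_Pr hq (YX X T f c lam)]
  rw [← sum_filter_add_sum_filter_not S (fun y => y ∈ univ.image (YX X T f c lam))]
  have h0 : ∑ y ∈ S.filter (fun y => y ∉ univ.image (YX X T f c lam)),
      Pr q (YX X T f c lam) y = 0 := by
    refine sum_eq_zero fun y hy => Pr_eq_zero _ fun ω h => (mem_filter.mp hy).2 ?_
    rw [← h]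
    exact mem_image_of_mem _ (mem_univ ω)
  rw [h0, add_zero]
  exact sum_le_sum_of_subset_of_nonneg (fun y hy => (mem_filter.mp hy).2)
    fun y _ _ => Pr_nonneg hq _ y

/-- the constant in front of the informations -/
def CQ' (κ ps e' : ℝ) : ℝ := 2 * cL κ (ps / 2) + 2 / e' + (36 / ps) ^ 2

lemma CQ'_nonneg {κ ps e' : ℝ} (hps : 0 < ps) (he' : 0 < e') : 0 ≤ CQ' κ ps e' := by
  unfold CQ'
  have := cL_nonneg (κ := κ) (half_pos hps).le
  positivity

/-- the information of the box -/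
def SX (μ q : Ω → ℝ) (T f c : Ω → ℝ) (G L : Ω → Prop) (E : Ω → Option Bool) (X : Ω → ξ)
    (xd : ξ → ℤ) (C : Ω → η) (ch : η → ℝ) (dX P PB a lam : ℕ) (s₀ s₁ : ℕ) (d j : ℤ) : ℝ :=
  DDn μ T f c G L E X xd C ch dX P PB a s₀ s₁ d j +
    KL q (cE μ (RR G T f c a d j)) (YX X T f c lam)

open Classical in
/-- **ROWBOX, law `q`, any set of digit cells** -/
theorem NBox.boxQ (D : NBox μ T f c G L E X xd C ch dX P PC a s₀ s₁ d j) (PB lam P0 g : ℕ)
    (hs : (1 : ℝ) / 2 ^ P0 ≤ |(s₀ : ℝ) / 2 ^ P - s₁ / 2 ^ P|)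
    (hq : IsProb q) (hac : AC q (cE μ (RR G T f c a d j)))
    {ps : ℝ} (hps : 0 < ps) (hps1 : ps ≤ 1)
    (hth : ∀ b, ps ≤ PE q (fun ω => L ω ∧ inh T d b ω ∧ inn T f c a lam j ω))
    {κ : ℝ} (hκ : 0 < κ) (hκ1 : κ < 1) {e' : ℝ} (he' : 0 < e')
    (hlam : 6 ≤ lam) (hla : lam + 4 ≤ a) (hdX : a + 2 * P0 + 2 * g + 10 ≤ dX)
    (hP : a + 2 * P0 + 2 * g + 10 ≤ P) (hPC : a + 2 * P0 + 2 * g + 10 ≤ PC)
    (hPB : a + 2 * P0 + 2 * g + 10 ≤ PB) (U : Finset (ξ × ℤ))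
    (hU : ∀ y ∈ U, (∃ ω, X ω = y.1) ∧ 0 ≤ xhh dX d (xd y.1) ∧ xhh dX d (xd y.1) < 1 ∧
      nn dX g d (xd y.1) ∧ y.2 ∈ In a lam j) :
    ∑ y ∈ U, qD q X T f c lam y ≤ 64 / 2 ^ lam * ∑ y ∈ U, qM q X T f c lam y +
      (2 * eL κ a P0 g + 2 * e' + CQ' κ ps e' *
        SX μ q T f c G L E X xd C ch dX P PB a lam s₀ s₁ d j) := by
  have hμ := D.prob
  have hRpos := D.posR
  have hν : IsProb (cE μ (RR G T f c a d j)) := cnd_isProb hμ hRpos
  set ν := cE μ (RR G T f c a d j) with hνd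
  have hp0 := fun x => NBox.pX_nonneg (X := X) (L := L) hμ x
  have hp := D.pX_pos
  -- the five informations
  set K := KL q ν (YX X T f c lam) with hK
  have hK0 : 0 ≤ K := H700.KL_nonneg hq hν hac _
  set D1 := DL μ X E C (fun x => xhh dX d (xd x)) (ehh P s₀ s₁) ch L (RR G T f c a d j)
    (j * 2 ^ a) ((j + 1) * 2 ^ a - 1 / 2 ^ PB) (pX μ X L) (some false) with hD1
  set D2 := DL μ X E C (fun x => xhh dX d (xd x)) (ehh P s₀ s₁) ch L (RR G T f c a d j)
    (j * 2 ^ a) ((j + 1) * 2 ^ a - 1 / 2 ^ PB) (pX μ X L) (some true) with hD2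
  set D3 := DP μ X E (dg PB (yy T f c)) (RR G T f c a d j) (some false) with hD3
  set D4 := DP μ X E (dg PB (yy T f c)) (RR G T f c a d j) (some true) with hD4
  have hD10 : 0 ≤ D1 := DL_nonneg hμ hp0 hp _
  have hD20 : 0 ≤ D2 := DL_nonneg hμ hp0 hp _
  have hD30 : 0 ≤ D3 := DP_nonneg hμ _
  have hD40 : 0 ≤ D4 := DP_nonneg hμ _
  have hDD : DDn μ T f c G L E X xd C ch dX P PB a s₀ s₁ d j = D1 + D2 + D3 + D4 := rfl
  have hSX : SX μ q T f c G L E X xd C ch dX P PB a lam s₀ s₁ d j = D1 + D2 + D3 + D4 + K := rfl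
  have heL : 0 ≤ eL κ a P0 g := eL_nonneg hκ.le a P0 g
  have hcL : 0 ≤ cL κ (ps / 2) := cL_nonneg (half_pos hps).le
  rw [hSX]
  set S := D1 + D2 + D3 + D4 + K with hS
  have hS0 : 0 ≤ S := by linarith
  set Y := YX X T f c lam with hY
  have hsq0 : 0 ≤ ∑ y ∈ U, qM q X T f c lam y := sum_nonneg fun y _ => qM_nonneg hq lam y
  have h64 : (64 : ℝ) / 2 ^ lam ≤ 1 := by
    rw [div_le_one (by positivity)]
    have : (2 : ℝ) ^ 6 ≤ 2 ^ lam := pow_le_pow_right₀ (by norm_num) hlam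
    linarith
  have h640 : (0 : ℝ) ≤ 64 / 2 ^ lam := by positivity
  by_cases hsm : S ≤ (ps / 36) ^ 2
  · -- the halves are thick in the line cell
    have hη0 : 0 ≤ ps / 36 := by positivity
    have hη4 : ps / 36 ≤ 1 / 4 := by linarith
    have hsqK : √ K ≤ ps / 36 := by
      rw [← sqrt_sq hη0]
      exact sqrt_le_sqrt (by linarith)
    have hthick : ∀ b, ps / 2 ≤ ∑ x ∈ hfX X xd dX d b, pX μ X L x := by
      intro b
      have h1 := D.half_mass PB lam hη0 hη4 (by rw [← hD1]; linarith) (by rw [← hD3]; linarith)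
        (by omega) hla (by omega) (by omega) (by omega) (by omega) b
      have h2 : PE q (fun ω => L ω ∧ inh T d b ω ∧ inn T f c a lam j ω) ≤
          PE ν (fun ω => inh T d b ω ∧ inn T f c a lam j ω) + 2 * √ K := by
        have h3 := PE_sub_le hq hν hac Y
          {y : ξ × ℤ | y.1 ∈ hfX X xd dX d b ∧ j * 2 ^ (a - lam) + 4 ≤ y.2 ∧
            y.2 < (j + 1) * 2 ^ (a - lam) - 4}
        have h4 : PE q (fun ω => L ω ∧ inh T d b ω ∧ inn T f c a lam j ω) ≤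
            PE q (fun ω => Y ω ∈ {y : ξ × ℤ | y.1 ∈ hfX X xd dX d b ∧
              j * 2 ^ (a - lam) + 4 ≤ y.2 ∧ y.2 < (j + 1) * 2 ^ (a - lam) - 4}) := by
          refine PE_mono hq ?_
          rintro ω ⟨hL, hh, hi⟩
          exact ⟨(D.mem_hfX (by omega) b hL).mp hh, hi⟩
        have h5 : PE ν (fun ω => Y ω ∈ {y : ξ × ℤ | y.1 ∈ hfX X xd dX d b ∧
              j * 2 ^ (a - lam) + 4 ≤ y.2 ∧ y.2 < (j + 1) * 2 ^ (a - lam) - 4}) ≤
            PE ν (fun ω => inh T d b ω ∧ inn T f c a lam j ω) := by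
          rw [hνd, PE_cE, PE_cE]
          refine div_le_div_of_nonneg_right (PE_mono hμ ?_) hRpos.le
          rintro ω ⟨⟨hh, hi⟩, hR⟩
          exact ⟨⟨(D.mem_hfX (by omega) b (D.RL ω hR)).mpr hh, hi⟩, hR⟩
        linarith
      have h5 := hth b
      linarith
    -- the two halves
    set Ub : Bool → Finset (ξ × ℤ) := fun b => U.filter fun y => y.1 ∈ hfX X xd dX d b with hUb
    have hsplit : ∀ F : ξ × ℤ → ℝ, ∑ y ∈ U, F y = ∑ y ∈ Ub false, F y + ∑ y ∈ Ub true, F y := by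
      intro F
      rw [← sum_filter_add_sum_filter_not U (fun y => y.1 ∈ hfX X xd dX d false)]
      congr 1
      refine sum_congr ?_ fun _ _ => rfl
      ext y
      simp only [hUb, mem_filter]
      constructor
      · rintro ⟨h1, h2⟩
        refine ⟨h1, ?_⟩
        obtain ⟨⟨ω, hω⟩, h3, h4, -⟩ := hU y h1
        unfold hfX at h2 ⊢
        rw [mem_filter] at h2 ⊢
        have hmem : y.1 ∈ univ.image X := hω ▸ mem_image_of_mem X (mem_univ ω)
        refine ⟨hmem, ?_⟩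
        simp only [if_true]
        refine ⟨?_, h4⟩
        by_contra hcon
        push Not at hcon
        exact h2 ⟨hmem, by simp only [Bool.false_eq_true, if_false]; exact ⟨h3, hcon⟩⟩
      · rintro ⟨h1, h2⟩
        refine ⟨h1, fun h3 => ?_⟩
        unfold hfX at h2 h3
        rw [mem_filter] at h2 h3
        have g1 := h2.2
        have g2 := h3.2
        simp only [if_true] at g1
        simp only [Bool.false_eq_true, if_false] at g2
        linarith [g1.1, g2.2]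
    set B : ξ × ℤ → ℝ := fun y => PD μ X (dg PB (yy T f c)) (fun n => (n : ℝ) / 2 ^ PB)
      (RR G T f c a d j) (2 ^ lam) y with hB
    set M : ξ × ℤ → ℝ := fun y => PM μ X (dg PB (yy T f c)) (fun n => (n : ℝ) / 2 ^ PB)
      (RR G T f c a d j) (2 ^ lam) y with hM
    have hrow : ∀ b, ∑ y ∈ Ub b, B y ≤ 64 / 2 ^ lam * ∑ y ∈ Ub b, M y +
        PE μ (RR G T f c a d j) * (eL κ a P0 g + cL κ (ps / 2) * (D1 + D2 + D3 + D4)) :=
      fun b => D.half PB lam P0 g hs (half_pos hps) hthick hκ hκ1 (by omega) hla hdX hP hPC hPB b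
        (Ub b) fun y hy => ⟨(mem_filter.mp hy).2, (hU y (mem_filter.mp hy).1).2.2.2.1,
          (hU y (mem_filter.mp hy).1).2.2.2.2⟩
    have hUB : ∑ y ∈ U, B y ≤ 64 / 2 ^ lam * ∑ y ∈ U, M y +
        PE μ (RR G T f c a d j) * (2 * (eL κ a P0 g + cL κ (ps / 2) * (D1 + D2 + D3 + D4))) := by
      rw [hsplit B, hsplit M]
      have h1 := hrow false
      have h2 := hrow true
      linarith
    -- the law `ν`
    have e1 : ∀ (x : ξ) (i : ℤ), Pr ν Y (x, i) = PE μ (fun ω => X ω = x ∧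
        ⌊yy T f c ω / 2 ^ lam⌋ = i ∧ RR G T f c a d j ω) / PE μ (RR G T f c a d j) := by
      intro x i
      rw [hνd, Pr_cE]
      congr 1
      refine PE_congr fun ω => ?_
      rw [hY]
      unfold YX
      simp only [Prod.mk.injEq]
      tauto
    have eB : ∀ y, B y = PE μ (RR G T f c a d j) *
        |Pr ν Y (y.1, 2 * y.2) - Pr ν Y (y.1, 2 * y.2 + 1)| := by
      intro y
      simp only [hB]
      rw [PD_cell, e1, e1, ← sub_div, abs_div, abs_of_pos hRpos, mul_div_cancel₀ _ hRpos.ne']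
    have eM : ∀ y, M y = PE μ (RR G T f c a d j) *
        (Pr ν Y (y.1, 2 * y.2) + Pr ν Y (y.1, 2 * y.2 + 1)) := by
      intro y
      simp only [hM]
      rw [PM_cell, e1, e1, ← add_div, mul_div_cancel₀ _ hRpos.ne']
    simp only [eB, eM] at hUB
    rw [← mul_sum, ← mul_sum] at hUB
    have hν1 : ∑ y ∈ U, |Pr ν Y (y.1, 2 * y.2) - Pr ν Y (y.1, 2 * y.2 + 1)| ≤
        64 / 2 ^ lam * ∑ y ∈ U, (Pr ν Y (y.1, 2 * y.2) + Pr ν Y (y.1, 2 * y.2 + 1)) +
          2 * (eL κ a P0 g + cL κ (ps / 2) * (D1 + D2 + D3 + D4)) := by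
      refine le_of_mul_le_mul_left ?_ hRpos
      linarith
    -- comparison
    set V : ℝ := ∑ y ∈ U, (|Pr q Y (y.1, 2 * y.2) - Pr ν Y (y.1, 2 * y.2)| +
      |Pr q Y (y.1, 2 * y.2 + 1) - Pr ν Y (y.1, 2 * y.2 + 1)|) with hV
    have hVle : V ≤ 2 * √ K := by
      rw [hV, sum_pairs' U (fun y => |Pr q Y y - Pr ν Y y|)]
      exact tv_KL hq hν hac Y _
    have c1 : ∑ y ∈ U, qD q X T f c lam y ≤
        ∑ y ∈ U, |Pr ν Y (y.1, 2 * y.2) - Pr ν Y (y.1, 2 * y.2 + 1)| + V := by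
      rw [hV, ← sum_add_distrib]
      refine sum_le_sum fun y _ => ?_
      unfold qD
      rw [← hY]
      set A := Pr q Y (y.1, 2 * y.2)
      set B := Pr q Y (y.1, 2 * y.2 + 1)
      set A' := Pr ν Y (y.1, 2 * y.2)
      set B' := Pr ν Y (y.1, 2 * y.2 + 1)
      have h1 : A - B = (A' - B') + ((A - A') - (B - B')) := by ring
      rw [h1]
      have h2 := abs_add_le (A' - B') ((A - A') - (B - B'))
      have h3 := abs_sub (A - A') (B - B')
      linarith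
    have c2 : ∑ y ∈ U, (Pr ν Y (y.1, 2 * y.2) + Pr ν Y (y.1, 2 * y.2 + 1)) ≤
        ∑ y ∈ U, qM q X T f c lam y + V := by
      rw [hV, ← sum_add_distrib]
      refine sum_le_sum fun y _ => ?_
      unfold qM
      rw [← hY]
      have h1 := neg_abs_le (Pr q Y (y.1, 2 * y.2) - Pr ν Y (y.1, 2 * y.2))
      have h2 := neg_abs_le (Pr q Y (y.1, 2 * y.2 + 1) - Pr ν Y (y.1, 2 * y.2 + 1))
      linarith
    have c3 : (64 : ℝ) / 2 ^ lam * ∑ y ∈ U, (Pr ν Y (y.1, 2 * y.2) + Pr ν Y (y.1, 2 * y.2 + 1)) ≤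
        64 / 2 ^ lam * ∑ y ∈ U, qM q X T f c lam y + V := by
      have hV0 : 0 ≤ V := sum_nonneg fun y _ => add_nonneg (abs_nonneg _) (abs_nonneg _)
      have h1 := mul_le_mul_of_nonneg_left c2 h640
      have h2 : (64 : ℝ) / 2 ^ lam * V ≤ 1 * V := mul_le_mul_of_nonneg_right h64 hV0
      rw [mul_add] at h1
      linarith
    have h4 := two_sqrt_le hK0 he'
    have h5 : K / e' = 1 / e' * K := by ring
    have h6 : 1 / e' * K ≤ 1 / e' * S := mul_le_mul_of_nonneg_left (by linarith) (by positivity)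
    have h7 : cL κ (ps / 2) * (D1 + D2 + D3 + D4) ≤ cL κ (ps / 2) * S :=
      mul_le_mul_of_nonneg_left (by linarith) hcL
    have h8 : 0 ≤ (36 / ps) ^ 2 * S := by positivity
    have h9 : 2 / e' * S = 2 * (1 / e' * S) := by ring
    unfold CQ'
    rw [add_mul, add_mul, h9]
    linarith
  · push Not at hsm
    refine (sum_le_sum fun y _ => qD_le_qM hq lam y).trans ((sum_qM_le_one hq lam U).trans ?_)
    have h1 : 1 ≤ (36 / ps) ^ 2 * S := by
      have h2 : (36 / ps) ^ 2 * (ps / 36) ^ 2 = 1 := by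
        rw [← mul_pow]
        have : 36 / ps * (ps / 36) = 1 := by field_simp
        rw [this, one_pow]
      have h3 : (36 / ps) ^ 2 * (ps / 36) ^ 2 ≤ (36 / ps) ^ 2 * S :=
        mul_le_mul_of_nonneg_left hsm.le (by positivity)
      linarith
    have h2 : 0 ≤ (2 * cL κ (ps / 2) + 2 / e') * S := by positivity
    have h3 := mul_nonneg h640 hsq0
    unfold CQ'
    rw [add_mul]
    linarith

end Vale.Agent.P065.H819
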