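import Vale.Agent.P065.H819.FairBox

/-!
# P065, package ROWS, part 1: the box inequality in normalised coordinates

For one column and one time level: `T` is the normalised time (cell `⌊T⌋`), `f ∈ [0, 1)` the
normalised slope inside the slope cell, `c` the normalised height of the line at the left end of the
time cell, `y = c + f * fract T` the normalised height of the flag. `G` is the event fixing the
slope cell.
-/

set_option autoImplicit false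
set_option linter.unusedSectionVars false

open Finset Real

noncomputable section

namespace Vale.Agent.P065.H819

open Vale.Agent.P065.Ent

variable {Ω : Type*} [Fintype Ω]

/-- normalised heights -/
def yy (T f c : Ω → ℝ) (ω : Ω) : ℝ := c ω + f ω * Int.fract (T ω)

/-- the point box -/
def RR (G : Ω → Prop) (T f c : Ω → ℝ) (a : ℕ) (d j : ℤ) (ω : Ω) : Prop :=
  G ω ∧ ⌊T ω⌋ = d ∧ ⌊yy T f c ω / 2 ^ a⌋ = j

/-- the line cell -/
def LL (G : Ω → Prop) (T c : Ω → ℝ) (a2 : ℕ) (d jl : ℤ) (ω : Ω) : Prop :=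
  G ω ∧ ⌊T ω⌋ = d ∧ ⌊c ω / 2 ^ a2⌋ = jl

/-- digits of a real number -/
def dg (n : ℕ) (u : Ω → ℝ) (ω : Ω) : ℤ := ⌊2 ^ n * u ω⌋

/-- the time of a digit, relative to the cell `d` -/
def xhh (n : ℕ) (d : ℤ) (x : ℤ) : ℝ := x / 2 ^ n - d

/-- slope of a block -/
def ehh (P : ℕ) (s₀ s₁ : ℕ) : Option Bool → ℝ
  | none => 0
  | some false => s₀ / 2 ^ P
  | some true => s₁ / 2 ^ P

/-- the block of a label -/
def blk (s₀ s₁ : ℕ) (b : Bool) : ℕ := if b then s₁ else s₀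

lemma ehh_some (P s₀ s₁ : ℕ) (b : Bool) : ehh P s₀ s₁ (some b) = blk s₀ s₁ b / 2 ^ P := by
  cases b <;> rfl

lemma dg_bounds (n : ℕ) (u : Ω → ℝ) (ω : Ω) :
    (dg n u ω : ℝ) / 2 ^ n ≤ u ω ∧ u ω < (dg n u ω : ℝ) / 2 ^ n + 1 / 2 ^ n := by
  have h1 := Int.floor_le (2 ^ n * u ω)
  have h2 := Int.lt_floor_add_one (2 ^ n * u ω)
  have hp : (0 : ℝ) < 2 ^ n := by positivity
  unfold dg
  constructor
  · rw [div_le_iff₀ hp]; linarith
  · rw [← add_div, lt_div_iff₀ hp]; linarith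

lemma dg_Ico (n : ℕ) (u : Ω → ℝ) (ω : Ω) (m : ℤ) :
    (m : ℝ) ≤ (dg n u ω : ℝ) / 2 ^ n ↔ (m : ℝ) ≤ u ω := by
  have hp : (0 : ℝ) < 2 ^ n := by positivity
  rw [le_div_iff₀ hp]
  constructor
  · intro h
    have h1 := (dg_bounds n u ω).1
    rw [div_le_iff₀ hp] at h1
    have h2 : (m : ℝ) * 2 ^ n ≤ u ω * 2 ^ n := h.trans h1
    exact le_of_mul_le_mul_right h2 hp
  · intro h
    have h1 : ((m * 2 ^ n : ℤ) : ℝ) ≤ 2 ^ n * u ω := by
      push_cast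
      nlinarith
    have h2 : m * 2 ^ n ≤ dg n u ω := Int.le_floor.mpr h1
    exact_mod_cast h2

variable {μ : Ω → ℝ} {T f c : Ω → ℝ} {G : Ω → Prop} {E : Ω → Option Bool}

/-- the geometric data of a normalised box -/
theorem fbox (hμ : IsProb μ) (hf0 : ∀ ω, 0 ≤ f ω) (hf1 : ∀ ω, f ω < 1) (dX P PC PB a a2 : ℕ)
    (s₀ s₁ : ℕ) (hE : ∀ ω b, E ω = some b →
      (blk s₀ s₁ b : ℝ) / 2 ^ P ≤ f ω ∧ f ω < (blk s₀ s₁ b : ℝ) / 2 ^ P + 1 / 2 ^ P)
    (d j jl : ℤ) (hj0 : jl * 2 ^ a2 + 1 ≤ j * 2 ^ a) (hj1 : (j + 1) * 2 ^ a ≤ (jl + 1) * 2 ^ a2)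
    (hpos : 0 < PE μ (RR G T f c a d j)) :
    FBox μ (dg dX T) E (dg PC c) (dg PB (yy T f c)) (xhh dX d) (ehh P s₀ s₁)
      (fun n => (n : ℝ) / 2 ^ PC) (fun n => (n : ℝ) / 2 ^ PB) (LL G T c a2 d jl)
      (RR G T f c a d j) (j * 2 ^ a) ((j + 1) * 2 ^ a - 1 / 2 ^ PB)
      (1 / 2 ^ PB + 1 / 2 ^ PC + 1 / 2 ^ P + 1 / 2 ^ dX) (some false) (some true) := by
  have ha : (0 : ℝ) < 2 ^ a := by positivity
  have ha2 : (0 : ℝ) < 2 ^ a2 := by positivity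
  have hj0' : (jl : ℝ) * 2 ^ a2 + 1 ≤ j * 2 ^ a := by exact_mod_cast hj0
  have hj1' : ((j : ℝ) + 1) * 2 ^ a ≤ (jl + 1) * 2 ^ a2 := by exact_mod_cast hj1
  -- `fract T` on the cell
  have hfr : ∀ ω, ⌊T ω⌋ = d → Int.fract (T ω) = T ω - d := fun ω h => by
    rw [← h]; rfl
  refine ⟨hμ, by positivity, ?_, ?_, ?_, hpos⟩
  · intro ω hL hE'
    obtain ⟨-, hT, -⟩ := hL
    obtain ⟨b, hb⟩ : ∃ b, E ω = some b := by
      rcases hE' with h | h
      · exact ⟨_, h⟩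
      · exact ⟨_, h⟩
    rw [hb, ehh_some]
    obtain ⟨f1, f2⟩ := hE ω b hb
    have t1 := dg_bounds dX T ω
    have c1 := dg_bounds PC c ω
    have y1 := dg_bounds PB (yy T f c) ω
    set fb : ℝ := (blk s₀ s₁ b : ℝ) / 2 ^ P with hfb
    have hfb0 : 0 ≤ fb := by positivity
    have hfb1 : fb ≤ 1 := f1.trans (hf1 ω).le
    have hu := hfr ω hT
    have hu0 := Int.fract_nonneg (T ω)
    have hu1 := Int.fract_lt_one (T ω)
    set u := Int.fract (T ω) with hud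
    have hx1 : xhh dX d (dg dX T ω) ≤ u := by
      unfold xhh; linarith
    have hx2 : u < xhh dX d (dg dX T ω) + 1 / 2 ^ dX := by
      unfold xhh; linarith
    set x := xhh dX d (dg dX T ω) with hx
    have hyy : yy T f c ω = c ω + f ω * u := rfl
    have hP : (0 : ℝ) < 1 / 2 ^ P := by positivity
    have hX : (0 : ℝ) < 1 / 2 ^ dX := by positivity
    -- the product
    have e1 : f ω * u ≤ fb * x + 1 / 2 ^ P + 1 / 2 ^ dX := by
      have g1 : f ω * u ≤ fb * u + 1 / 2 ^ P := by nlinarith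
      have g2 : fb * u ≤ fb * x + 1 / 2 ^ dX := by nlinarith
      linarith
    have e2 : fb * x ≤ f ω * u := by
      have g1 : fb * u ≤ f ω * u := by nlinarith
      have g2 : fb * x ≤ fb * u := mul_le_mul_of_nonneg_left hx1 hfb0
      linarith
    rw [abs_le]
    constructor
    · linarith [c1.1, c1.2, y1.1, y1.2]
    · linarith [c1.1, c1.2, y1.1, y1.2]
  · -- `R → L`
    rintro ω ⟨hG, hT, hy⟩
    refine ⟨hG, hT, ?_⟩
    have h1 := Int.floor_eq_iff.mp hy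
    rw [le_div_iff₀ ha, div_lt_iff₀ ha] at h1
    have hu0 := Int.fract_nonneg (T ω)
    have hu1 := Int.fract_lt_one (T ω)
    have h2 : yy T f c ω = c ω + f ω * Int.fract (T ω) := rfl
    have h3 : 0 ≤ f ω * Int.fract (T ω) := mul_nonneg (hf0 ω) hu0
    have h4 : f ω * Int.fract (T ω) < 1 := by nlinarith [hf0 ω, hf1 ω]
    rw [Int.floor_eq_iff, le_div_iff₀ ha2, div_lt_iff₀ ha2]
    constructor
    · linarith
    · linarith
  · -- `L ∧ range → R`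
    rintro ω ⟨hG, hT, -⟩ - hb
    refine ⟨hG, hT, ?_⟩
    have y1 := dg_bounds PB (yy T f c) ω
    rw [Int.floor_eq_iff, le_div_iff₀ ha, div_lt_iff₀ ha]
    constructor
    · linarith [hb.1]
    · linarith [hb.2]

/-- the two halves of the time cell -/
def half (dX : ℕ) (T : Ω → ℝ) (d : ℤ) (b : Bool) : Finset ℤ :=
  (univ.image (dg dX T)).filter fun x => if b then (1 : ℝ) / 2 ≤ xhh dX d x ∧ xhh dX d x < 1
    else 0 ≤ xhh dX d x ∧ xhh dX d x < 1 / 2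

/-- the digits which are not close to the middle of the cell -/
def nn (dX : ℕ) (g : ℕ) (d : ℤ) (x : ℤ) : Prop := 1 / 2 ^ g ≤ |xhh dX d x - 1 / 2|

/-- the interior pairs of cells of length `2 ^ lam` in the row `j` -/
def In (a lam : ℕ) (j : ℤ) : Finset ℤ :=
  Finset.Ico (j * 2 ^ (a - lam - 1) + 2) ((j + 1) * 2 ^ (a - lam - 1) - 2)

/-- conditional probability of the time digit in the line cell -/
def px (μ : Ω → ℝ) (T c : Ω → ℝ) (G : Ω → Prop) (dX a2 : ℕ) (d jl : ℤ) (x : ℤ) : ℝ :=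
  PE μ (fun ω => dg dX T ω = x ∧ LL G T c a2 d jl ω) / PE μ (LL G T c a2 d jl)

/-- the cell sum of one time digit -/
def cs (μ : Ω → ℝ) (T f c : Ω → ℝ) (G : Ω → Prop) (dX a lam : ℕ) (d j : ℤ) (x i : ℤ) : ℝ :=
  |PE μ (fun ω => dg dX T ω = x ∧ ⌊yy T f c ω / 2 ^ lam⌋ = 2 * i ∧ RR G T f c a d j ω) -
    PE μ (fun ω => dg dX T ω = x ∧ ⌊yy T f c ω / 2 ^ lam⌋ = 2 * i + 1 ∧ RR G T f c a d j ω)|

lemma floor_div_iff (PB lam : ℕ) (u : Ω → ℝ) (ω : Ω) (i : ℤ) :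
    ⌊u ω / 2 ^ lam⌋ = i ↔
      (dg PB u ω : ℝ) / 2 ^ PB ∈ Set.Ico ((i : ℝ) * 2 ^ lam) ((i + 1) * 2 ^ lam) := by
  have hl : (0 : ℝ) < 2 ^ lam := by positivity
  rw [Int.floor_eq_iff, le_div_iff₀ hl, div_lt_iff₀ hl, Set.mem_Ico]
  have h1 := dg_Ico PB u ω (i * 2 ^ lam)
  have h2 := dg_Ico PB u ω ((i + 1) * 2 ^ lam)
  push_cast at h1 h2
  rw [← h1, ← not_le, ← h2, not_le]

lemma sum_cs_le (μ : Ω → ℝ) (T f c : Ω → ℝ) (G : Ω → Prop) (dX PB a lam : ℕ)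
    (hlam : lam + 4 ≤ a) (d j x : ℤ) :
    ∑ i ∈ In a lam j, cs μ T f c G dX a lam d j x i ≤ ∑ n ∈ range ((2 ^ (a - lam) - 10) + 1),
      |Mx μ (dg dX T) (dg PB (yy T f c)) (fun n => (n : ℝ) / 2 ^ PB) (RR G T f c a d j) x
        (Set.Ico (((j : ℝ) * 2 ^ a + 4 * 2 ^ lam) + n * 2 ^ lam)
          (((j : ℝ) * 2 ^ a + 4 * 2 ^ lam) + (n + 1) * 2 ^ lam)) -
        Mx μ (dg dX T) (dg PB (yy T f c)) (fun n => (n : ℝ) / 2 ^ PB) (RR G T f c a d j) x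
        (Set.Ico (((j : ℝ) * 2 ^ a + 4 * 2 ^ lam) + (n + 1) * 2 ^ lam)
          (((j : ℝ) * 2 ^ a + 4 * 2 ^ lam) + (n + 2) * 2 ^ lam))| := by
  classical
  set F : ℕ → ℝ := fun n => |Mx μ (dg dX T) (dg PB (yy T f c)) (fun n => (n : ℝ) / 2 ^ PB)
        (RR G T f c a d j) x
        (Set.Ico (((j : ℝ) * 2 ^ a + 4 * 2 ^ lam) + n * 2 ^ lam)
          (((j : ℝ) * 2 ^ a + 4 * 2 ^ lam) + (n + 1) * 2 ^ lam)) -
        Mx μ (dg dX T) (dg PB (yy T f c)) (fun n => (n : ℝ) / 2 ^ PB) (RR G T f c a d j) x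
        (Set.Ico (((j : ℝ) * 2 ^ a + 4 * 2 ^ lam) + (n + 1) * 2 ^ lam)
          (((j : ℝ) * 2 ^ a + 4 * 2 ^ lam) + (n + 2) * 2 ^ lam))| with hF
  have hpow : (2 : ℤ) ^ (a - lam) = 2 * 2 ^ (a - lam - 1) := by
    obtain ⟨k, hk⟩ : ∃ k, a - lam = k + 1 := ⟨a - lam - 1, by omega⟩
    rw [hk]; simp [pow_succ]; ring
  have hpow2 : (2 : ℤ) ^ a = 2 ^ (a - lam) * 2 ^ lam := by
    rw [← pow_add]; congr 1; omega
  have hbig : (16 : ℤ) ≤ 2 ^ (a - lam) := by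
    have : (2 : ℤ) ^ 4 ≤ 2 ^ (a - lam) := pow_le_pow_right₀ (by norm_num) (by omega)
    linarith
  set n : ℤ → ℕ := fun i => (2 * i - (j * 2 ^ (a - lam) + 4)).toNat with hn
  have hmem : ∀ i ∈ In a lam j, 0 ≤ 2 * i - (j * 2 ^ (a - lam) + 4) ∧
      2 * i - (j * 2 ^ (a - lam) + 4) < 2 ^ (a - lam) - 9 := by
    intro i hi
    obtain ⟨h1, h2⟩ := Finset.mem_Ico.mp hi
    rw [hpow]
    constructor
    · nlinarith
    · nlinarith
  have hcast : ∀ i ∈ In a lam j, ((n i : ℕ) : ℤ) = 2 * i - (j * 2 ^ (a - lam) + 4) := fun i hi =>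
    Int.toNat_of_nonneg (hmem i hi).1
  have hval : ∀ i ∈ In a lam j, cs μ T f c G dX a lam d j x i = F (n i) := by
    intro i hi
    have h1 : ((n i : ℕ) : ℝ) = 2 * i - (j * 2 ^ (a - lam) + 4) := by
      have := hcast i hi
      exact_mod_cast this
    have h2 : (2 : ℝ) ^ a = 2 ^ (a - lam) * 2 ^ lam := by exact_mod_cast hpow2
    have e1 : ((j : ℝ) * 2 ^ a + 4 * 2 ^ lam) + (n i : ℕ) * 2 ^ lam = (2 * i : ℤ) * 2 ^ lam := by
      rw [h1, h2]; push_cast; ring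
    have e2 : ((j : ℝ) * 2 ^ a + 4 * 2 ^ lam) + ((n i : ℕ) + 1) * 2 ^ lam =
        (2 * i : ℤ) * 2 ^ lam + 2 ^ lam := by
      rw [h1, h2]; push_cast; ring
    have e3 : ((j : ℝ) * 2 ^ a + 4 * 2 ^ lam) + ((n i : ℕ) + 2) * 2 ^ lam =
        (2 * i + 1 : ℤ) * 2 ^ lam + 2 ^ lam := by
      rw [h1, h2]; push_cast; ring
    simp only [hF]
    rw [e1, e2, e3]
    unfold cs Mx
    congr 2
    · refine PE_congr fun ω => ?_
      have h3 := floor_div_iff PB lam (yy T f c) ω (2 * i)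
      rw [h3]
      have e4 : (((2 * i : ℤ) : ℝ) + 1) * 2 ^ lam = (2 * i : ℤ) * 2 ^ lam + 2 ^ lam := by ring
      rw [e4]
    · refine PE_congr fun ω => ?_
      have h3 := floor_div_iff PB lam (yy T f c) ω (2 * i + 1)
      rw [h3]
      have e4 : (((2 * i + 1 : ℤ) : ℝ) + 1) * 2 ^ lam = (2 * i + 1 : ℤ) * 2 ^ lam + 2 ^ lam := by
        ring
      have e5 : ((2 * i + 1 : ℤ) : ℝ) * 2 ^ lam = (2 * i : ℤ) * 2 ^ lam + 2 ^ lam := by
        push_cast; ring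
      rw [e4, e5]
  rw [sum_congr rfl hval]
  have hinj : Set.InjOn n (In a lam j) := by
    intro i hi i' hi' h
    have h1 := hcast i hi
    have h2 := hcast i' hi'
    rw [h] at h1
    omega
  rw [← sum_image hinj]
  refine sum_le_sum_of_subset_of_nonneg ?_ fun _ _ _ => abs_nonneg _
  intro k hk
  obtain ⟨i, hi, rfl⟩ := mem_image.mp hk
  have h1 := hcast i hi
  have h2 := (hmem i hi).2
  rw [mem_range]
  have h3 : ((2 ^ (a - lam) : ℕ) : ℤ) = 2 ^ (a - lam) := by push_cast; rfl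
  have h4 : (16 : ℕ) ≤ 2 ^ (a - lam) := by
    have : ((16 : ℕ) : ℤ) ≤ ((2 ^ (a - lam) : ℕ) : ℤ) := by rw [h3]; exact_mod_cast hbig
    exact_mod_cast this
  omega

end Vale.Agent.P065.H819
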