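import Vale.Agent.P065.H819.RowFr1

/-!
# P065, package ROWS on the frame, part 2: digit cells and boxes
-/

set_option autoImplicit false

open Finset Real

noncomputable section

namespace Vale.Agent.P065.H819

open Vale.Agent.P065.UB Vale.Agent.P065.Ent Vale.Agent.P065.H154

variable {Ω : Type*} {F : Fr Ω} {ln : Ω → Pt} {p : Prm}

/-! ## Levels: `v + gam = t + 1 + lm` -/

lemma N_lm {v gam t lm : ℕ} (e1 : v + gam = t + 1 + lm) (c : p.Col) (x : ℝ) (l : Pt) :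
    Prm.N lm v c x l = Prm.N gam (t + 1) c x l := by
  unfold Prm.N
  congr 1
  rw [div_eq_div_iff (by positivity) (by positivity)]
  have h : (2 : ℝ) ^ v * 2 ^ gam = 2 ^ (t + 1) * 2 ^ lm := by
    rw [← pow_add, ← pow_add, e1]
  calc 2 ^ v * Prm.h c x l * 2 ^ gam = (2 ^ v * 2 ^ gam) * Prm.h c x l := by ring
    _ = (2 ^ (t + 1) * 2 ^ lm) * Prm.h c x l := by rw [h]
    _ = 2 ^ (t + 1) * Prm.h c x l * 2 ^ lm := by ring

lemma N_a {v gam t lm a : ℕ} (e1 : v + gam = t + 1 + lm) (hla : lm + 1 ≤ a) (c : p.Col) (x : ℝ)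
    (l : Pt) : Prm.N a v c x l = Prm.N gam t c x l / 2 ^ (a - lm - 1) := by
  unfold Prm.N
  have e : (2 : ℝ) ^ v * Prm.h c x l / 2 ^ a =
      2 ^ t * Prm.h c x l / 2 ^ gam / ((2 ^ (a - lm - 1) : ℕ) : ℝ) := by
    push_cast
    rw [div_div, div_eq_div_iff (by positivity) (by positivity)]
    have h : (2 : ℝ) ^ v * (2 ^ gam * 2 ^ (a - lm - 1)) = 2 ^ t * 2 ^ a := by
      rw [← pow_add, ← pow_add, ← pow_add]
      congr 1
      omega
    calc 2 ^ v * Prm.h c x l * (2 ^ gam * 2 ^ (a - lm - 1))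
        = (2 ^ v * (2 ^ gam * 2 ^ (a - lm - 1))) * Prm.h c x l := by ring
      _ = (2 ^ t * 2 ^ a) * Prm.h c x l := by rw [h]
      _ = 2 ^ t * Prm.h c x l * 2 ^ a := by ring
  rw [e, Int.floor_div_natCast]
  push_cast
  rfl

lemma Nf_alive {v gam t lm PB : ℕ} (e1 : v + gam = t + 1 + lm) (c : p.Col) {ω : Ω}
    (hal : v + PB ≤ F.T' ω) : Nf F ln p gam t c ω = Prm.N gam t c (F.P.x ω) (ln ω) ∧
      Nf F ln p gam (t + 1) c ω = Prm.N gam (t + 1) c (F.P.x ω) (ln ω) := by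
  unfold Nf
  rw [min_eq_left (by omega), min_eq_left (by omega)]
  exact ⟨rfl, rfl⟩

lemma D_div (u : ℝ) (v n : ℕ) (ω : Ω) : F.D u v ω = F.D u (v + n) ω / 2 ^ n := by
  unfold Fr.D
  have e : (2 : ℝ) ^ v * (F.P.x ω + u) = 2 ^ (v + n) * (F.P.x ω + u) / ((2 ^ n : ℕ) : ℝ) := by
    rw [pow_add]; push_cast; field_simp
  rw [e, Int.floor_div_natCast]
  push_cast
  rfl

/-! ## The conditioning variable -/

section defs

variable (F : Fr Ω) (ln : Ω → Pt) (p : Prm)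

/-- own box at the level `v` -/
def bxF (u : ℝ) (a v : ℕ) (q : p.Col × Ω) : ℤ × ℤ × ℤ :=
  (Prm.S q.1.1 (ln q.2), F.D u v q.2, Prm.N a v q.1 (F.P.x q.2) (ln q.2))

/-- the conditioning variable: column, slope cell, time digits, row -/
def ZF (u : ℝ) (PB gam dd t : ℕ) (q : p.Col × Ω) : p.Col × ℤ × (ℤ × ℕ) × ℤ :=
  (q.1, Prm.S q.1.1 (ln q.2), Xt F u PB (t + 1 + dd) q.2, Nf F ln p gam t q.1 q.2)

/-- the row digit -/
def DgF (gam t : ℕ) (q : p.Col × Ω) : Prop :=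
  Nf F ln p gam (t + 1) q.1 q.2 = 2 * Nf F ln p gam t q.1 q.2

/-- the box of a value of the conditioning variable -/
def bz (dX a lm : ℕ) (z : p.Col × ℤ × (ℤ × ℕ) × ℤ) : p.Col × (ℤ × ℤ × ℤ) :=
  (z.1, (z.2.1, z.2.2.1.1 / 2 ^ dX, z.2.2.2 / 2 ^ (a - lm - 1)))

/-- the geometric part of the covering condition -/
def cvG (u : ℝ) (PB gam dd a g lm t : ℕ) (q : p.Col × Ω) : Prop :=
  gam ≤ t + 1 + lm ∧ (t + 1 + lm - gam) + PB ≤ F.T' q.2 ∧
    nn (dd + gam - lm) g (F.D u (t + 1 + lm - gam) q.2) (F.D u (t + 1 + dd) q.2) ∧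
    Nf F ln p gam t q.1 q.2 ∈
      In a lm (Prm.N a (t + 1 + lm - gam) q.1 (F.P.x q.2) (ln q.2))

end defs

/-- own box and value of the conditioning variable -/
lemma bz_ZF {u : ℝ} {PB gam dd a lm t v : ℕ} (e1 : v + gam = t + 1 + lm) (hla : lm + 1 ≤ a)
    (hlg : lm ≤ gam + dd) {q : p.Col × Ω} (hal : v + PB ≤ F.T' q.2) :
    bz p (dd + gam - lm) a lm (ZF F ln p u PB gam dd t q) = (q.1, bxF F ln p u a v q) := by
  unfold bz ZF bxF Xt
  simp only [Prod.mk.injEq, true_and]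
  constructor
  · have e2 : t + 1 + dd = v + (dd + gam - lm) := by omega
    rw [e2, ← D_div u v (dd + gam - lm) q.2]
  · rw [N_a e1 hla, (Nf_alive e1 q.1 hal).1]

/-- aliveness is a property of the conditioning variable -/
lemma alive_congr {u : ℝ} {PB gam dd t v : ℕ} (hv : v ≤ t + 1 + dd) {q q' : p.Col × Ω}
    (h : ZF F ln p u PB gam dd t q = ZF F ln p u PB gam dd t q') (hal : v + PB ≤ F.T' q.2) :
    v + PB ≤ F.T' q'.2 := by
  unfold ZF Xt at h
  simp only [Prod.mk.injEq] at h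
  have := h.2.2.1.2
  omega

/-- the covering condition is a property of the conditioning variable -/
lemma cvG_congr {u : ℝ} {PB gam dd a g lm t : ℕ} (hla : lm + 1 ≤ a) (hlg : lm ≤ gam + dd)
    {q q' : p.Col × Ω} (h : ZF F ln p u PB gam dd t q = ZF F ln p u PB gam dd t q')
    (hc : cvG F ln p u PB gam dd a g lm t q) : cvG F ln p u PB gam dd a g lm t q' ∧
      bxF F ln p u a (t + 1 + lm - gam) q = bxF F ln p u a (t + 1 + lm - gam) q' := by
  obtain ⟨h1, h2, h3, h4⟩ := hc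
  have e1 : (t + 1 + lm - gam) + gam = t + 1 + lm := by omega
  have h2' := alive_congr (v := t + 1 + lm - gam) (by omega) h h2
  have hb1 := bz_ZF (F := F) (ln := ln) (p := p) (u := u) (dd := dd) e1 hla hlg h2
  have hb2 := bz_ZF (F := F) (ln := ln) (p := p) (u := u) (dd := dd) e1 hla hlg h2'
  rw [h, hb2] at hb1
  have hb := (Prod.mk.inj hb1).2.symm
  refine ⟨⟨h1, h2', ?_, ?_⟩, hb⟩
  · have e3 : F.D u (t + 1 + dd) q.2 = F.D u (t + 1 + dd) q'.2 := by
      unfold ZF Xt at h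
      simp only [Prod.mk.injEq] at h
      exact h.2.2.1.1
    have e4 : F.D u (t + 1 + lm - gam) q.2 = F.D u (t + 1 + lm - gam) q'.2 := by
      unfold bxF at hb
      simp only [Prod.mk.injEq] at hb
      exact hb.2.1
    rwa [e3, e4] at h3
  · have e3 : Nf F ln p gam t q.1 q.2 = Nf F ln p gam t q'.1 q'.2 := by
      unfold ZF at h
      simp only [Prod.mk.injEq] at h
      exact h.2.2.2
    have e4 : Prm.N a (t + 1 + lm - gam) q.1 (F.P.x q.2) (ln q.2) =
        Prm.N a (t + 1 + lm - gam) q'.1 (F.P.x q'.2) (ln q'.2) := by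
      unfold bxF at hb
      simp only [Prod.mk.injEq] at hb
      exact hb.2.2
    rwa [e3, e4] at h4

/-- the conditioning variable of the digit is finer than the one of BOOK -/
lemma ZF_det (u : ℝ) (PB gam dd t : ℕ) : Det (ZF F ln p u PB gam dd t)
    (fun q => (F.D u (t + 1) q.2, Rt F ln p u gam t q)) := by
  rintro ⟨c, ω⟩ ⟨c', ω'⟩ h
  unfold ZF Xt at h
  simp only [Prod.mk.injEq] at h
  obtain ⟨rfl, hS, ⟨hD, -⟩, hN⟩ := h
  have h1 : F.D u (t + 1) ω = F.D u (t + 1) ω' :=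
    F.D_det_le u (show t + 1 ≤ t + 1 + dd by omega) _ _ hD
  have h2 : F.D u t ω = F.D u t ω' :=
    F.D_det_le u (show t ≤ t + 1 + dd by omega) _ _ hD
  show (F.D u (t + 1) ω, Rt F ln p u gam t (c, ω)) = (F.D u (t + 1) ω', Rt F ln p u gam t (c, ω'))
  unfold Rt
  simp only [h1, h2, hS, hN]

/-- **cells**: a value of the conditioning variable and the digit -/
lemma cell_iff {u : ℝ} {PB gam dd a lm t v : ℕ} (e1 : v + gam = t + 1 + lm) (hla : lm + 1 ≤ a)
    (hlg : lm ≤ gam + dd) {q₀ : p.Col × Ω} (hal : v + PB ≤ F.T' q₀.2) (b : Bool) (ω : Ω) :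
    (ZF F ln p u PB gam dd t (q₀.1, ω) = ZF F ln p u PB gam dd t q₀ ∧
      (if b then ¬ DgF F ln p gam t (q₀.1, ω) else DgF F ln p gam t (q₀.1, ω))) ↔
    (BF F ln p u PB a v q₀.1 (bxF F ln p u a v q₀) ω ∧
      YX (Xt F u PB (v + (dd + gam - lm))) (Tv (xs F u) v) (fF ln p q₀.1)
        (cv (xs F u) (htF F ln p q₀.1) (fF ln p q₀.1) v) lm ω =
      (Xt F u PB (t + 1 + dd) q₀.2,
        2 * Nf F ln p gam t q₀.1 q₀.2 + (if b then 1 else 0))) := by
  have e2 : v + (dd + gam - lm) = t + 1 + dd := by omega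
  have hY : YX (Xt F u PB (v + (dd + gam - lm))) (Tv (xs F u) v) (fF ln p q₀.1)
        (cv (xs F u) (htF F ln p q₀.1) (fF ln p q₀.1) v) lm ω =
      (Xt F u PB (t + 1 + dd) ω, Prm.N gam (t + 1) q₀.1 (F.P.x ω) (ln ω)) := by
    unfold YX
    have e : yy (Tv (xs F u) v) (fF ln p q₀.1) (cv (xs F u) (htF F ln p q₀.1) (fF ln p q₀.1) v) ω =
      2 ^ v * htF F ln p q₀.1 ω := by unfold yy cv; ring
    rw [e, e2, ← N_lm e1]
    rfl
  rw [hY, BF_iff]
  have hnn : v + PB ≤ F.T' ω → (Prm.N gam (t + 1) q₀.1 (F.P.x ω) (ln ω) =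
      2 * Nf F ln p gam t q₀.1 ω ∨ Prm.N gam (t + 1) q₀.1 (F.P.x ω) (ln ω) =
      2 * Nf F ln p gam t q₀.1 ω + 1) := by
    intro h
    rw [(Nf_alive e1 q₀.1 h).1, Prm.N_succ gam t]
    omega
  constructor
  · rintro ⟨h1, h2⟩
    have h3 : v + PB ≤ F.T' ω := alive_congr (v := v) (q := q₀) (q' := (q₀.1, ω)) (by omega)
      h1.symm hal
    have hb1 := bz_ZF (F := F) (ln := ln) (p := p) (u := u) (dd := dd) (q := (q₀.1, ω)) e1 hla hlg h3
    have hb2 := bz_ZF (F := F) (ln := ln) (p := p) (u := u) (dd := dd) (q := q₀) e1 hla hlg hal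
    rw [h1, hb2] at hb1
    have hb := (Prod.mk.inj hb1).2
    unfold bxF at hb ⊢
    simp only [Prod.mk.injEq] at hb ⊢
    have hZ := h1
    unfold ZF at hZ
    simp only [Prod.mk.injEq, true_and] at hZ
    refine ⟨⟨⟨hb.1.symm, h3⟩, hb.2.1.symm, hb.2.2.symm⟩, ?_⟩
    have h10 : Prm.N gam (t + 1) q₀.1 (F.P.x ω) (ln ω) =
        2 * Nf F ln p gam t q₀.1 q₀.2 + (if b then 1 else 0) := by
      have h4 := hnn h3
      rw [← hZ.2.2]
      unfold DgF at h2
      simp only [(Nf_alive (t := t) e1 q₀.1 h3).2] at h2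
      cases b
      · simp only [Bool.false_eq_true, if_false] at h2 ⊢
        omega
      · simp only [if_true] at h2 ⊢
        omega
    exact ⟨hZ.2.1, h10⟩
  · rintro ⟨⟨⟨h1, h3⟩, h4, h5⟩, h67⟩
    obtain ⟨h6, h7⟩ := Prod.mk.inj h67
    have h8 := hnn h3
    have h9 : Nf F ln p gam t q₀.1 ω = Nf F ln p gam t q₀.1 q₀.2 := by
      cases b
      · simp only [Bool.false_eq_true, if_false] at h7
        omega
      · simp only [if_true] at h7
        omega
    constructor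
    · unfold ZF
      simp only [Prod.mk.injEq, true_and]
      exact ⟨h1, h6, h9⟩
    · unfold DgF
      simp only [(Nf_alive (t := t) e1 q₀.1 h3).2]
      rw [h9] at h8
      rw [h9]
      cases b
      · simp only [Bool.false_eq_true, if_false] at h7 ⊢
        omega
      · simp only [if_true] at h7 ⊢
        omega

end Vale.Agent.P065.H819
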