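import Vale.Agent.P065.H819.RowFr2

/-!
# P065, package ROWS on the frame, part 3: one digit
-/

set_option autoImplicit false

open Finset Real

noncomputable section

namespace Vale.Agent.P065.H819

open Vale.Agent.P065.UB Vale.Agent.P065.Ent Vale.Agent.P065.H154
open Vale.Agent.P065.H700 (KL AC)

variable {Ω : Type*} [Fintype Ω]

/-- the conditions on the numbers -/
structure RH (p : Prm) (PB gam dd a g lm0 lm1 P0 PC PY : ℕ) : Prop where
  h0 : 6 ≤ lm0
  h1 : lm1 + 4 ≤ a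
  hPP : a + 2 * P0 + 2 * g + 10 ≤ p.PP
  hPC : a + 2 * P0 + 2 * g + 10 ≤ PC
  hPY : a + 2 * P0 + 2 * g + 10 ≤ PY
  hPB : PY ≤ PB
  hdd : lm1 + (a + 2 * P0 + 2 * g + 10) ≤ dd + gam

section defs

variable (F : Fr Ω) (ln : Ω → Pt) (p : Prm) (Q : p.Col × Ω → ℝ)

/-- **good boxes**: both halves of the time cell have share at least `ps`, in the middle of the
row -/
structure GoodF (u : ℝ) (PB a lm1 v : ℕ) (ps : ℝ) (c : p.Col) (r : ℤ × ℤ × ℤ) : Prop where
  pos : 0 < MF F ln p Q u PB a v c r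
  thick : ∀ b : Bool, ps * MF F ln p Q u PB a v c r ≤ PE (QC Q c) (fun ω =>
    BF F ln p u PB a v c r ω ∧ inh (Tv (xs F u) v) r.2.1 b ω ∧
      inn (Tv (xs F u) v) (fF ln p c) (cv (xs F u) (htF F ln p c) (fF ln p c) v) a lm1 r.2.2 ω)

open Classical in
/-- the good boxes of a column and a level -/
def GBs (u : ℝ) (PB a lm1 : ℕ) (ps : ℝ) (v : ℕ) (c : p.Col) : Finset (ℤ × ℤ × ℤ) :=
  (univ.image fun ω => bxF F ln p u a v (c, ω)).filter (GoodF F ln p Q u PB a lm1 v ps c)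

/-- the digit `t` is covered through a box of the level `t + 1 + lm - gam` -/
def covL (u : ℝ) (PB gam dd a g lm1 : ℕ) (ps : ℝ) (lm t : ℕ) (q : p.Col × Ω) : Prop :=
  cvG F ln p u PB gam dd a g lm t q ∧
    GoodF F ln p Q u PB a lm1 (t + 1 + lm - gam) ps q.1 (bxF F ln p u a (t + 1 + lm - gam) q)

/-- **the digit `t` is covered** -/
def covF (u : ℝ) (PB gam dd a g lm0 lm1 : ℕ) (ps : ℝ) (t : ℕ) (q : p.Col × Ω) : Prop :=
  ∃ lm ∈ Icc lm0 lm1, covL F ln p Q u PB gam dd a g lm1 ps lm t q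

end defs

variable {F : Fr Ω} {ln : Ω → Pt} {p : Prm} {Q : p.Col × Ω → ℝ} {μ : Ω → ℝ}

lemma mem_GBs {u : ℝ} {PB a lm1 v : ℕ} {ps : ℝ} {c : p.Col} {r : ℤ × ℤ × ℤ} :
    r ∈ GBs F ln p Q u PB a lm1 ps v c ↔ (∃ ω, bxF F ln p u a v (c, ω) = r) ∧
      GoodF F ln p Q u PB a lm1 v ps c r := by
  classical
  unfold GBs
  rw [mem_filter, mem_image]
  simp

lemma covL_congr {u : ℝ} {PB gam dd a g lm1 lm t : ℕ} {ps : ℝ} (hla : lm + 1 ≤ a)
    (hlg : lm ≤ gam + dd) {q q' : p.Col × Ω}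
    (h : ZF F ln p u PB gam dd t q = ZF F ln p u PB gam dd t q')
    (hc : covL F ln p Q u PB gam dd a g lm1 ps lm t q) :
    covL F ln p Q u PB gam dd a g lm1 ps lm t q' := by
  obtain ⟨h1, h2⟩ := hc
  obtain ⟨h3, h4⟩ := cvG_congr hla hlg h h1
  refine ⟨h3, ?_⟩
  have h5 : q.1 = q'.1 := congrArg (fun z : p.Col × ℤ × (ℤ × ℕ) × ℤ => z.1) h
  rw [h4, h5] at h2
  exact h2

open Classical in
/-- the mass of one cell -/
lemma PE_cell {u : ℝ} {PB gam dd a lm t v : ℕ} (e1 : v + gam = t + 1 + lm) (hla : lm + 1 ≤ a)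
    (hlg : lm ≤ gam + dd) {q₀ : p.Col × Ω} (hal : v + PB ≤ F.T' q₀.2)
    (hM : 0 < MF F ln p Q u PB a v q₀.1 (bxF F ln p u a v q₀)) (b : Bool) :
    PE Q (fun q => ZF F ln p u PB gam dd t q = ZF F ln p u PB gam dd t q₀ ∧
      (if b then ¬ DgF F ln p gam t q else DgF F ln p gam t q)) =
    MF F ln p Q u PB a v q₀.1 (bxF F ln p u a v q₀) *
      Pr (qF F ln p Q u PB a v q₀.1 (bxF F ln p u a v q₀))
        (YX (Xt F u PB (v + (dd + gam - lm))) (Tv (xs F u) v) (fF ln p q₀.1)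
        (cv (xs F u) (htF F ln p q₀.1) (fF ln p q₀.1) v) lm)
        (Xt F u PB (t + 1 + dd) q₀.2, 2 * Nf F ln p gam t q₀.1 q₀.2 + (if b then 1 else 0)) := by
  unfold qF
  rw [Pr_cE, mul_comm, div_mul_eq_mul_div]
  unfold MF at hM ⊢
  rw [mul_div_assoc, div_self hM.ne', mul_one]
  rw [PE_def, PE_def, Fintype.sum_prod_type, sum_eq_single q₀.1]
  · refine sum_congr rfl fun ω _ => ?_
    have h := cell_iff (F := F) (ln := ln) (p := p) (u := u) (dd := dd) e1 hla hlg hal b ω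
    unfold QC
    by_cases h1 : ZF F ln p u PB gam dd t (q₀.1, ω) = ZF F ln p u PB gam dd t q₀ ∧
      (if b then ¬ DgF F ln p gam t (q₀.1, ω) else DgF F ln p gam t (q₀.1, ω))
    · have h2 := h.mp h1
      rw [if_pos h1, if_pos ⟨h2.2, h2.1⟩]
    · have h2 : ¬ _ := fun hh => h1 (h.mpr hh)
      rw [if_neg h1, if_neg fun hh => h2 ⟨hh.2, hh.1⟩]
  · intro c _ hc
    refine sum_eq_zero fun ω _ => if_neg ?_
    rintro ⟨h1, -⟩
    exact hc (congrArg (fun z : p.Col × ℤ × (ℤ × ℕ) × ℤ => z.1) h1)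
  · intro h
    exact absurd (mem_univ _) h

/-- the divergences of a box are nonnegative -/
lemma SXF_nonneg (hμ : IsProb μ) (hQ : IsProb Q) (hac : ∀ c ω, 0 < Q (c, ω) → 0 < μ ω) (u : ℝ)
    {PB PC PY a dX lm v : ℕ} {c : p.Col} {r : ℤ × ℤ × ℤ} (hM : 0 < MF F ln p Q u PB a v c r)
    (hpos : ∀ b : Bool, 0 < PE μ (fun ω => lb ln p c ω = some b ∧ BF F ln p u PB a v c r ω)) :
    0 ≤ SXF F ln p μ Q u PB PC PY a dX lm v c r := by
  classical
  have D := nboxF (F := F) (ln := ln) hμ u PB PC a dX v c r hpos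
  have hp0 := fun x => NBox.pX_nonneg (X := Xt F u PB (v + dX))
    (L := LF F ln p u (thG p a (gB p u a v c r)) PB (a + 3) v c r.1 r.2.1 (gJ p u a v c r)) hμ x
  have hp := D.pX_pos
  set A := BF F ln p u PB a v c r with hA
  have hM' : 0 < Pr (QC Q c) A True := hM
  have hqv : ∀ ω, qF F ln p Q u PB a v c r ω = if A ω then Q (c, ω) / PE (QC Q c) A else 0 := by
    intro ω
    unfold qF cE cnd QC
    by_cases h : A ω
    · rw [if_pos h, if_pos (eq_true h)]
    · rw [if_neg h, if_neg (fun hh => h (of_eq_true hh))]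
  have hq : IsProb (qF F ln p Q u PB a v c r) := by
    constructor
    · intro ω
      rw [hqv]
      split_ifs
      · exact div_nonneg (hQ.nonneg _) hM'.le
      · exact le_rfl
    · have : ∀ ω, qF F ln p Q u PB a v c r ω =
          (if A ω then QC Q c ω else 0) / PE (QC Q c) A := by
        intro ω
        rw [hqv]
        split_ifs
        · rfl
        · simp
      rw [sum_congr rfl fun ω _ => this ω, ← sum_div, ← PE_def]
      exact div_self hM'.ne'
  have hac' : AC (qF F ln p Q u PB a v c r) (cE μ A) := by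
    intro ω hω
    rw [hqv] at hω
    split_ifs at hω with hB
    · have h1 : 0 < Q (c, ω) := by
        rcases (hQ.nonneg (c, ω)).eq_or_lt with h0 | h0
        · rw [← h0, zero_div] at hω
          exact absurd hω (lt_irrefl _)
        · exact h0
      have h2 := hac c ω h1
      have h3 : 0 < PE μ A := by
        rw [PE_def]
        refine lt_of_lt_of_le h2 ?_
        have := single_le_sum (f := fun ω => if A ω then μ ω else 0)
          (fun ω _ => by
            show 0 ≤ if A ω then μ ω else 0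
            split_ifs
            · exact hμ.nonneg ω
            · exact le_rfl) (mem_univ ω)
        simpa [hB] using this
      have h4 : cE μ A ω = μ ω / PE μ A := by
        unfold cE cnd
        rw [if_pos (eq_true hB)]
      show 0 < cE μ A ω
      rw [h4]
      exact div_pos h2 h3
    · exact absurd hω (lt_irrefl _)
  have hν : IsProb (cE μ A) := cnd_isProb hμ D.posR
  unfold SXF SX DDn
  have a1 := DL_nonneg (X := Xt F u PB (v + dX)) (E := lb ln p c)
    (C := CF F ln p u (thG p a (gB p u a v c r)) PC v c) (xh := fun x => xhh dX r.2.1 x.1)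
    (eh := ehh p.PP (Prm.b0 c.1) (Prm.b1 c.1))
    (ch := chF p u (thG p a (gB p u a v c r)) PC v c r.1 r.2.1)
    (R := RR (Gv F ln p PB v c r.1) (Tv (xs F u) v) (fF ln p c)
      (cv (xs F u) (htF F ln p c) (fF ln p c) v) a r.2.1 r.2.2)
    (J0 := (r.2.2 : ℝ) * 2 ^ a) (J1 := ((r.2.2 : ℝ) + 1) * 2 ^ a - 1 / 2 ^ PY) hμ hp0 hp
  have a2 := DP_nonneg (X := Xt F u PB (v + dX)) (E := lb ln p c)
    (B := dg PY (yy (Tv (xs F u) v) (fF ln p c) (cv (xs F u) (htF F ln p c) (fF ln p c) v)))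
    (R := RR (Gv F ln p PB v c r.1) (Tv (xs F u) v) (fF ln p c)
      (cv (xs F u) (htF F ln p c) (fF ln p c) v) a r.2.1 r.2.2) hμ
  have a3 := H700.KL_nonneg hq hν hac' (YX (Xt F u PB (v + dX)) (Tv (xs F u) v) (fF ln p c)
      (cv (xs F u) (htF F ln p c) (fF ln p c) v) lm)
  have b1 := a1 (some false)
  have b2 := a1 (some true)
  have b3 := a2 (some false)
  have b4 := a2 (some true)
  have a3' : 0 ≤ KL (qF F ln p Q u PB a v c r) (cE μ (RR (Gv F ln p PB v c r.1) (Tv (xs F u) v)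
      (fF ln p c) (cv (xs F u) (htF F ln p c) (fF ln p c) v) a r.2.1 r.2.2))
      (YX (Xt F u PB (v + dX)) (Tv (xs F u) v) (fF ln p c)
      (cv (xs F u) (htF F ln p c) (fF ln p c) v) lm) := a3
  linarith

end Vale.Agent.P065.H819
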