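import Vale.Agent.P065.H819.RowFr3

/-!
# P065, package ROWS on the frame, part 4: one digit, main inequality
-/

set_option autoImplicit false

open Finset Real

noncomputable section

namespace Vale.Agent.P065.H819

open Vale.Agent.P065.UB Vale.Agent.P065.Ent Vale.Agent.P065.H154
open Vale.Agent.P065.H700 (KL AC)

variable {Ω : Type*} [Fintype Ω] {F : Fr Ω} {ln : Ω → Pt} {p : Prm} {Q : p.Col × Ω → ℝ}
  {μ : Ω → ℝ}

/-- the hypotheses on the law `Q` -/
structure QH (F : Fr Ω) (ln : Ω → Pt) (p : Prm) (μ : Ω → ℝ) (Q : p.Col × Ω → ℝ) (P0 : ℕ) :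
    Prop where
  prob : IsProb μ
  probQ : IsProb Q
  ac : ∀ c ω, 0 < Q (c, ω) → 0 < μ ω
  /-- both labels occur in the box of a flag of positive mass -/
  lab : ∀ (u : ℝ) (PB a v : ℕ) (c : p.Col) (r : ℤ × ℤ × ℤ), a ≤ PB →
    0 < MF F ln p Q u PB a v c r →
    ∀ b : Bool, 0 < PE μ (fun ω => lb ln p c ω = some b ∧ BF F ln p u PB a v c r ω)
  sep : ∀ c ω, 0 < Q (c, ω) →
    (1 : ℝ) / 2 ^ P0 ≤ |(Prm.b0 c.1 : ℝ) / 2 ^ p.PP - Prm.b1 c.1 / 2 ^ p.PP|

/-- a box of positive mass contains a flag of positive mass -/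
lemma exists_of_MF {u : ℝ} {PB a v : ℕ} {c : p.Col} {r : ℤ × ℤ × ℤ}
    (h : 0 < MF F ln p Q u PB a v c r) : ∃ ω, 0 < Q (c, ω) ∧ BF F ln p u PB a v c r ω := by
  classical
  by_contra hcon
  push Not at hcon
  unfold MF at h
  rw [PE_def] at h
  refine absurd h (not_lt.mpr (sum_nonpos fun ω _ => ?_))
  split_ifs with hB
  · by_contra hc
    push Not at hc
    exact hcon ω hc hB
  · exact le_rfl

/-- the error of one box -/
def errB (F : Fr Ω) (ln : Ω → Pt) (p : Prm) (μ : Ω → ℝ) (Q : p.Col × Ω → ℝ) (u : ℝ)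
    (PB PC PY gam dd a g P0 : ℕ) (κ e' ps : ℝ) (lm v : ℕ) (c : p.Col) (r : ℤ × ℤ × ℤ) : ℝ :=
  MF F ln p Q u PB a v c r * (2 * eL κ a P0 g + 2 * e' +
    CQ' κ ps e' * SXF F ln p μ Q u PB PC PY a (dd + gam - lm) lm v c r)

/-- absolute difference of the masses of the two digits -/
def dfZ (F : Fr Ω) (ln : Ω → Pt) (p : Prm) (Q : p.Col × Ω → ℝ) (u : ℝ) (PB gam dd t : ℕ)
    (z : p.Col × ℤ × (ℤ × ℕ) × ℤ) : ℝ :=
  |PE Q (fun q => ZF F ln p u PB gam dd t q = z ∧ DgF F ln p gam t q) -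
    PE Q (fun q => ZF F ln p u PB gam dd t q = z ∧ ¬ DgF F ln p gam t q)|

open Classical in
/-- **one good box** -/
theorem fiber_le {PB gam dd a g lm0 lm1 P0 PC PY : ℕ} (hR : RH p PB gam dd a g lm0 lm1 P0 PC PY)
    (hQ : QH F ln p μ Q P0) (u : ℝ) {ps : ℝ} (hps : 0 < ps) (hps1 : ps ≤ 1) {κ e' : ℝ}
    (hκ : 0 < κ) (hκ1 : κ < 1) (he' : 0 < e') {lm t : ℕ} (hl0 : lm0 ≤ lm) (hl1 : lm ≤ lm1)
    (S : Finset (p.Col × ℤ × (ℤ × ℕ) × ℤ)) (c : p.Col) (r : ℤ × ℤ × ℤ)
    (hS : ∀ z ∈ S, ∃ q, covL F ln p Q u PB gam dd a g lm1 ps lm t q ∧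
      z = ZF F ln p u PB gam dd t q ∧ q.1 = c ∧ bxF F ln p u a (t + 1 + lm - gam) q = r)
    (hG : GoodF F ln p Q u PB a lm1 (t + 1 + lm - gam) ps c r) :
    ∑ z ∈ S, dfZ F ln p Q u PB gam dd t z ≤
      64 / 2 ^ lm * ∑ z ∈ S, PE Q (fun q => ZF F ln p u PB gam dd t q = z) +
      errB F ln p μ Q u PB PC PY gam dd a g P0 κ e' ps lm (t + 1 + lm - gam) c r := by
  have k0 := hR.h0
  have k1 := hR.h1
  have k2 := hR.hdd
  have k3 := hR.hPY
  have k4 := hR.hPB
  -- the empty case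
  rcases S.eq_empty_or_nonempty with rfl | ⟨z₀, hz₀⟩
  · simp only [sum_empty, mul_zero, zero_add]
    unfold errB
    refine mul_nonneg hG.pos.le ?_
    have h1 := SXF_nonneg (PC := PC) (PY := PY) (dX := dd + gam - lm) (lm := lm) hQ.prob hQ.probQ
      hQ.ac u hG.pos (hQ.lab u PB a _ c r (by omega) hG.pos)
    have h2 := CQ'_nonneg (κ := κ) hps he'
    have h3 := eL_nonneg hκ.le a P0 g
    positivity
  -- the level
  obtain ⟨q₀, hc₀, -, -, -⟩ := hS z₀ hz₀
  obtain ⟨⟨hg0, -, -, -⟩, -⟩ := hc₀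
  set v := t + 1 + lm - gam with hv
  have e1 : v + gam = t + 1 + lm := by omega
  have hM := hG.pos
  have hlab := hQ.lab u PB a v c r (by omega) hM
  -- the set of the digit cells
  set U : Finset ((ℤ × ℕ) × ℤ) := S.image (fun z => (z.2.2.1, z.2.2.2)) with hU
  have hz : ∀ z ∈ S, z = (c, r.1, z.2.2.1, z.2.2.2) := by
    intro z hz
    obtain ⟨q, -, rfl, hq1, hq2⟩ := hS z hz
    unfold ZF
    simp only [Prod.mk.injEq, and_true]
    refine ⟨hq1, ?_⟩
    rw [← hq2]
    rfl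
  have hinj : ∀ z ∈ S, ∀ z' ∈ S, (z.2.2.1, z.2.2.2) = (z'.2.2.1, z'.2.2.2) → z = z' := by
    intro z h z' h' e
    obtain ⟨e1, e2⟩ := Prod.mk.inj e
    rw [hz z h, hz z' h', e1, e2]
  -- one cell
  have hcell : ∀ z ∈ S, ∀ b : Bool,
      PE Q (fun q => ZF F ln p u PB gam dd t q = z ∧
        (if b then ¬ DgF F ln p gam t q else DgF F ln p gam t q)) =
      MF F ln p Q u PB a v c r * Pr (qF F ln p Q u PB a v c r)
        (YX (Xt F u PB (v + (dd + gam - lm))) (Tv (xs F u) v) (fF ln p c)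
        (cv (xs F u) (htF F ln p c) (fF ln p c) v) lm)
        (z.2.2.1, 2 * z.2.2.2 + (if b then 1 else 0)) := by
    intro z h b
    obtain ⟨q, hq, rfl, hq1, hq2⟩ := hS z h
    subst hq1
    subst hq2
    exact PE_cell e1 (by omega) (by omega) hq.1.2.1 hM b
  have hdf : ∀ z ∈ S, dfZ F ln p Q u PB gam dd t z = MF F ln p Q u PB a v c r *
      qD (qF F ln p Q u PB a v c r) (Xt F u PB (v + (dd + gam - lm))) (Tv (xs F u) v) (fF ln p c)
        (cv (xs F u) (htF F ln p c) (fF ln p c) v) lm (z.2.2.1, z.2.2.2) := by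
    intro z h
    have c1 := hcell z h false
    have c2 := hcell z h true
    simp only [Bool.false_eq_true, if_false, add_zero] at c1
    simp only [if_true] at c2
    unfold dfZ qD
    rw [c1, c2, ← mul_sub, abs_mul, abs_of_pos hM]
  have hmz : ∀ z ∈ S, PE Q (fun q => ZF F ln p u PB gam dd t q = z) =
      MF F ln p Q u PB a v c r *
      qM (qF F ln p Q u PB a v c r) (Xt F u PB (v + (dd + gam - lm))) (Tv (xs F u) v) (fF ln p c)
        (cv (xs F u) (htF F ln p c) (fF ln p c) v) lm (z.2.2.1, z.2.2.2) := by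
    intro z h
    have c1 := hcell z h false
    have c2 := hcell z h true
    simp only [Bool.false_eq_true, if_false, add_zero] at c1
    simp only [if_true] at c2
    unfold qM
    rw [mul_add, ← c1, ← c2, PE_add _ _ (fun q h h' => h'.2 h.2)]
    exact PE_congr fun q => by tauto
  -- the box theorem
  obtain ⟨ω₁, hω₁, -⟩ := exists_of_MF hM
  have hbox := box_leF (F := F) (ln := ln) (PC := PC) (PY := PY) (g := g) hQ.prob hQ.probQ hQ.ac u
    (hQ.sep c ω₁ hω₁) hM hlab hps hps1 (lm := lm) (dX := dd + gam - lm) (fun b => by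
      have h1 := hG.thick b
      unfold qF
      have hM2 : 0 < PE (QC Q c) (BF F ln p u PB a v c r) := hM
      rw [PE_cE, le_div_iff₀ hM2]
      refine h1.trans ?_
      have hnn : ∀ ω, 0 ≤ QC Q c ω := fun ω => hQ.probQ.nonneg _
      rw [PE_def, PE_def]
      refine sum_le_sum fun ω _ => ?_
      by_cases h2 : BF F ln p u PB a v c r ω ∧ inh (Tv (xs F u) v) r.2.1 b ω ∧
        inn (Tv (xs F u) v) (fF ln p c) (cv (xs F u) (htF F ln p c) (fF ln p c) v) a lm1 r.2.2 ω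
      · rw [if_pos h2, if_pos ⟨⟨h2.2.1, inn_mono hl1 (by omega) h2.2.2⟩, h2.1⟩]
      · rw [if_neg h2]
        split_ifs
        · exact hnn ω
        · exact le_rfl) hκ hκ1 he' (by omega) (by omega) (by omega) hR.hPP hR.hPC hR.hPY U (by
      intro y hy
      obtain ⟨z, hzS, rfl⟩ := mem_image.mp hy
      obtain ⟨q, hq, rfl, hq1, hq2⟩ := hS z hzS
      subst hq1
      subst hq2
      obtain ⟨⟨g1, g2, g3, g4⟩, -⟩ := hq
      have e2 : v + (dd + gam - lm) = t + 1 + dd := by omega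
      have hm := xhh_mem (T := Tv (xs F u) v) (dd + gam - lm) (F.D u v q.2) q.2 rfl
      rw [← D_add, e2] at hm
      refine ⟨⟨q.2, by rw [e2]; rfl⟩, hm.1, hm.2, g3, g4⟩)
  -- sums
  have s1 : ∑ z ∈ S, dfZ F ln p Q u PB gam dd t z = MF F ln p Q u PB a v c r * ∑ y ∈ U,
      qD (qF F ln p Q u PB a v c r) (Xt F u PB (v + (dd + gam - lm))) (Tv (xs F u) v) (fF ln p c)
        (cv (xs F u) (htF F ln p c) (fF ln p c) v) lm y := by
    rw [hU, sum_image hinj, mul_sum]
    exact sum_congr rfl hdf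
  have s2 : ∑ z ∈ S, PE Q (fun q => ZF F ln p u PB gam dd t q = z) =
      MF F ln p Q u PB a v c r * ∑ y ∈ U,
      qM (qF F ln p Q u PB a v c r) (Xt F u PB (v + (dd + gam - lm))) (Tv (xs F u) v) (fF ln p c)
        (cv (xs F u) (htF F ln p c) (fF ln p c) v) lm y := by
    rw [hU, sum_image hinj, mul_sum]
    exact sum_congr rfl hmz
  rw [s1, s2]
  unfold errB
  have h5 := mul_le_mul_of_nonneg_left hbox hM.le
  linarith

open Classical in
/-- **one digit, one size of the digit cells** -/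
theorem lm_le {PB gam dd a g lm0 lm1 P0 PC PY : ℕ} (hR : RH p PB gam dd a g lm0 lm1 P0 PC PY)
    (hQ : QH F ln p μ Q P0) (u : ℝ) {ps : ℝ} (hps : 0 < ps) (hps1 : ps ≤ 1) {κ e' : ℝ}
    (hκ : 0 < κ) (hκ1 : κ < 1) (he' : 0 < e') {lm t : ℕ} (hl0 : lm0 ≤ lm) (hl1 : lm ≤ lm1) :
    ∑ z ∈ (univ.filter (covL F ln p Q u PB gam dd a g lm1 ps lm t)).image
        (ZF F ln p u PB gam dd t), dfZ F ln p Q u PB gam dd t z ≤
      64 / 2 ^ lm * PE Q (covL F ln p Q u PB gam dd a g lm1 ps lm t) +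
      if gam ≤ t + 1 + lm then ∑ c, ∑ r ∈ GBs F ln p Q u PB a lm1 ps (t + 1 + lm - gam) c,
        errB F ln p μ Q u PB PC PY gam dd a g P0 κ e' ps lm (t + 1 + lm - gam) c r else 0 := by
  have k0 := hR.h0
  have k1 := hR.h1
  have k2 := hR.hdd
  have k3 := hR.hPY
  have k4 := hR.hPB
  set T := (univ.filter (covL F ln p Q u PB gam dd a g lm1 ps lm t)).image
        (ZF F ln p u PB gam dd t) with hT
  have hmemT : ∀ z ∈ T, ∃ q, covL F ln p Q u PB gam dd a g lm1 ps lm t q ∧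
      z = ZF F ln p u PB gam dd t q := by
    intro z hz
    obtain ⟨q, hq, rfl⟩ := mem_image.mp hz
    exact ⟨q, (mem_filter.mp hq).2, rfl⟩
  by_cases hg : gam ≤ t + 1 + lm
  · rw [if_pos hg]
    set v := t + 1 + lm - gam with hv
    have e1 : v + gam = t + 1 + lm := by omega
    set f := bz p (dd + gam - lm) a lm with hf
    have hfz : ∀ q, covL F ln p Q u PB gam dd a g lm1 ps lm t q →
        f (ZF F ln p u PB gam dd t q) = (q.1, bxF F ln p u a v q) := fun q hq =>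
      bz_ZF e1 (by omega) (by omega) hq.1.2.1
    -- fibres
    have hfib : ∀ b ∈ T.image f, ∑ z ∈ T.filter (fun z => f z = b), dfZ F ln p Q u PB gam dd t z ≤
        64 / 2 ^ lm * ∑ z ∈ T.filter (fun z => f z = b),
          PE Q (fun q => ZF F ln p u PB gam dd t q = z) +
        errB F ln p μ Q u PB PC PY gam dd a g P0 κ e' ps lm v b.1 b.2 := by
      rintro ⟨c, r⟩ hb
      obtain ⟨z, hz, hzb⟩ := mem_image.mp hb
      obtain ⟨q, hq, rfl⟩ := hmemT z hz
      rw [hfz q hq] at hzb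
      obtain ⟨rfl, rfl⟩ := Prod.mk.inj hzb
      refine fiber_le hR hQ u hps hps1 hκ hκ1 he' hl0 hl1 _ _ _ ?_ hq.2
      intro z' hz'
      obtain ⟨h1, h2⟩ := mem_filter.mp hz'
      obtain ⟨q', hq', rfl⟩ := hmemT z' h1
      rw [hfz q' hq'] at h2
      obtain ⟨h3, h4⟩ := Prod.mk.inj h2
      exact ⟨q', hq', rfl, h3, h4⟩
    have hmaps : ∀ z ∈ T, f z ∈ T.image f := fun z hz => mem_image_of_mem f hz
    rw [← sum_fiberwise_of_maps_to hmaps]
    refine (sum_le_sum hfib).trans ?_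
    rw [sum_add_distrib, ← mul_sum, sum_fiberwise_of_maps_to hmaps
      (fun z => PE Q (fun q => ZF F ln p u PB gam dd t q = z))]
    refine add_le_add (mul_le_mul_of_nonneg_left ?_ (by positivity)) ?_
    · -- the mass
      refine sum_PE_le hQ.probQ T (fun z q => ZF F ln p u PB gam dd t q = z) _ ?_
        fun x _ y _ hne q h h' => hne (h.symm.trans h')
      intro z hz q hqz
      obtain ⟨q', hq', rfl⟩ := hmemT z hz
      exact covL_congr (by omega) (by omega) hqz.symm hq'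
    · -- the errors
      have hnn : ∀ c, ∀ r ∈ GBs F ln p Q u PB a lm1 ps v c,
          0 ≤ errB F ln p μ Q u PB PC PY gam dd a g P0 κ e' ps lm v c r := by
        intro c r hr
        have hG := (mem_GBs.mp hr).2
        unfold errB
        refine mul_nonneg hG.pos.le ?_
        have h1 := SXF_nonneg (PC := PC) (PY := PY) (dX := dd + gam - lm) (lm := lm) hQ.prob
          hQ.probQ hQ.ac u hG.pos (hQ.lab u PB a _ c r (by omega) hG.pos)
        have h2 := CQ'_nonneg (κ := κ) hps he'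
        have h3 := eL_nonneg hκ.le a P0 g
        positivity
      rw [← sum_fiberwise_of_maps_to (s := T.image f) (t := univ) (g := Prod.fst)
        (fun b _ => mem_univ _)]
      refine sum_le_sum fun c _ => ?_
      have e3 : ∑ b ∈ (T.image f).filter (fun b => b.1 = c),
          errB F ln p μ Q u PB PC PY gam dd a g P0 κ e' ps lm v b.1 b.2 =
          ∑ r ∈ ((T.image f).filter (fun b => b.1 = c)).image Prod.snd,
          errB F ln p μ Q u PB PC PY gam dd a g P0 κ e' ps lm v c r := by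
        rw [sum_image]
        · exact sum_congr rfl fun b hb => by rw [(mem_filter.mp hb).2]
        · intro b hb b' hb' e
          exact Prod.ext ((mem_filter.mp hb).2.trans (mem_filter.mp hb').2.symm) e
      rw [e3]
      refine sum_le_sum_of_subset_of_nonneg ?_ fun r hr _ => hnn c r hr
      intro r hr
      obtain ⟨b, hb, rfl⟩ := mem_image.mp hr
      obtain ⟨hb1, hb2⟩ := mem_filter.mp hb
      obtain ⟨z, hz, rfl⟩ := mem_image.mp hb1
      obtain ⟨q, hq, rfl⟩ := hmemT z hz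
      rw [hfz q hq] at hb2 ⊢
      rw [mem_GBs]
      simp only at hb2
      subst hb2
      exact ⟨⟨q.2, rfl⟩, hq.2⟩
  · rw [if_neg hg]
    have h0 : T = ∅ := by
      rw [hT, image_eq_empty, filter_eq_empty_iff]
      intro q _ hq
      exact hg hq.1.1
    rw [h0, sum_empty, add_zero]
    exact mul_nonneg (by positivity) (PE_nonneg hQ.probQ _)

end Vale.Agent.P065.H819
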