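import Vale.Agent.P065.H819.RowBox2
import Vale.Agent.P065.H700.KL

/-!
# P065, package ROWS, part 3: the box inequality for a law `q` close to `μ (· | R)`

No hypothesis on the law `μ` in the line cell: if the two halves of the time cell have mass at least
`ps` under `q` (inside the box, away from its boundary), then the rows are fair under `q`, up to an
error which is linear in the informations.
-/

set_option autoImplicit false
set_option linter.unusedSectionVars false

open Finset Real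

noncomputable section

namespace Vale.Agent.P065.H819

open Vale.Agent.P065.Ent
open Vale.Agent.P065.H700 (KL AC)

variable {Ω : Type*} [Fintype Ω] {μ q : Ω → ℝ} {T f c : Ω → ℝ} {G : Ω → Prop}
  {E : Ω → Option Bool} {γ : Type*}

/-- total variation of the laws of `Y` -/
theorem tv_KL [DecidableEq γ] (hq : IsProb q) (hν : IsProb μ) (hac : AC q μ) (Y : Ω → γ)
    (A : Finset γ) :
    ∑ y ∈ A, |Pr q Y y - Pr μ Y y| ≤ 2 * √ (KL q μ Y) := by
  classical
  have h1 : ∑ y ∈ univ.image Y, |Pr q Y y - Pr μ Y y| ≤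
      2 * √ (∑ y ∈ univ.image Y, Pr q Y y * log (Pr q Y y / Pr μ Y y)) := by
    refine tv_le _ _ _ (fun y _ => Pr_nonneg hq Y y) (fun y _ => Pr_nonneg hν Y y) ?_
      (sum_Pr hq Y) (sum_Pr hν Y).le
    intro y _ hy
    by_contra hcon
    have h0 : Pr μ Y y = 0 := le_antisymm (not_lt.mp hcon) (Pr_nonneg hν Y y)
    have : Pr q Y y = 0 := by
      unfold Pr
      refine sum_eq_zero fun ω _ => ?_
      split_ifs with h
      · by_contra hne
        have h2 : 0 < q ω := lt_of_le_of_ne (hq.nonneg ω) (Ne.symm hne)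
        have h3 := hac ω h2
        have h4 := le_Pr hν Y ω
        rw [h, h0] at h4
        linarith
      · rfl
    rw [this] at hy
    exact lt_irrefl _ hy
  have h2 : ∑ y ∈ univ.image Y, Pr q Y y * log (Pr q Y y / Pr μ Y y) = KL q μ Y := by
    unfold KL
    exact (sum_fiber q Y (fun y => log (Pr q Y y / Pr μ Y y))).symm
  rw [h2] at h1
  refine le_trans ?_ h1
  rw [← sum_filter_add_sum_filter_not A (fun y => y ∈ univ.image Y)]
  have h3 : ∑ y ∈ A.filter (fun y => y ∉ univ.image Y), |Pr q Y y - Pr μ Y y| = 0 := by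
    refine sum_eq_zero fun y hy => ?_
    have h4 := (mem_filter.mp hy).2
    have h5 : ∀ ω, Y ω ≠ y := fun ω h => h4 (h ▸ mem_image_of_mem Y (mem_univ ω))
    rw [Pr_eq_zero Y h5, Pr_eq_zero Y h5]; simp
  rw [h3, add_zero]
  exact sum_le_sum_of_subset_of_nonneg (fun y hy => (mem_filter.mp hy).2) fun _ _ _ => abs_nonneg _

lemma two_sqrt_le {K e : ℝ} (hK : 0 ≤ K) (he : 0 < e) : 2 * √ K ≤ e + K / e := by
  have h1 := sq_sqrt hK
  have h2 : 0 ≤ (√ K - e) ^ 2 := sq_nonneg _
  have h3 : 2 * √ K * e ≤ e * e + K := by nlinarith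
  have h4 : (e + K / e) * e = e * e + K := by field_simp
  exact le_of_mul_le_mul_right (by linarith) he

/-- interior of the row `j` -/
def inn (T f c : Ω → ℝ) (a lam : ℕ) (j : ℤ) (ω : Ω) : Prop :=
  j * 2 ^ (a - lam) + 4 ≤ ⌊yy T f c ω / 2 ^ lam⌋ ∧
    ⌊yy T f c ω / 2 ^ lam⌋ < (j + 1) * 2 ^ (a - lam) - 4

/-- the lower half (`b = false`) or the upper half (`b = true`) of the time cell -/
def inh (T : Ω → ℝ) (d : ℤ) (b : Bool) (ω : Ω) : Prop := ⌊2 * T ω⌋ = 2 * d + (if b then 1 else 0)

lemma inh_iff (dX : ℕ) (hdX : 1 ≤ dX) (d : ℤ) (b : Bool) (ω : Ω) :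
    inh T d b ω ↔ dg dX T ω ∈ half dX T d b := by
  unfold half
  rw [mem_filter]
  have hmem : dg dX T ω ∈ univ.image (dg dX T) := mem_image_of_mem _ (mem_univ ω)
  have h0 := dg_Ico dX T ω d
  have h1 := dg_Ico dX T ω (d + 1)
  -- the middle
  obtain ⟨k, rfl⟩ : ∃ k, dX = k + 1 := ⟨dX - 1, by omega⟩
  have hp : (0 : ℝ) < 2 ^ k := by positivity
  have hmid : (d : ℝ) + 1 / 2 ≤ (dg (k + 1) T ω : ℝ) / 2 ^ (k + 1) ↔ (d : ℝ) + 1 / 2 ≤ T ω := by
    constructor
    · intro h
      exact h.trans (dg_bounds (k + 1) T ω).1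
    · intro h
      rw [le_div_iff₀ (by positivity)]
      have h2 : (((2 * d + 1) * 2 ^ k : ℤ) : ℝ) ≤ 2 ^ (k + 1) * T ω := by
        push_cast
        have : (2 : ℝ) ^ (k + 1) = 2 ^ k * 2 := pow_succ 2 k
        rw [this]
        nlinarith
      have h3 : (2 * d + 1) * 2 ^ k ≤ dg (k + 1) T ω := Int.le_floor.mpr h2
      have h4 : (((2 * d + 1) * 2 ^ k : ℤ) : ℝ) ≤ (dg (k + 1) T ω : ℝ) := by exact_mod_cast h3
      push_cast at h4
      have : (2 : ℝ) ^ (k + 1) = 2 ^ k * 2 := pow_succ 2 k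
      rw [this]
      nlinarith
  push_cast at h1
  unfold inh xhh
  cases b
  · simp only [Bool.false_eq_true, if_false, add_zero, hmem, true_and]
    rw [Int.floor_eq_iff]
    push_cast
    constructor
    · rintro ⟨g1, g2⟩
      refine ⟨by linarith [h0.mpr (by linarith)], ?_⟩
      by_contra hcon
      push Not at hcon
      have := hmid.mp (by linarith)
      linarith
    · rintro ⟨g1, g2⟩
      refine ⟨by linarith [h0.mp (by linarith)], ?_⟩
      by_contra hcon
      push Not at hcon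
      have := hmid.mpr (by linarith)
      linarith
  · simp only [if_true, hmem, true_and]
    rw [Int.floor_eq_iff]
    push_cast
    constructor
    · rintro ⟨g1, g2⟩
      refine ⟨by linarith [hmid.mpr (by linarith)], ?_⟩
      by_contra hcon
      push Not at hcon
      have := h1.mp (by linarith)
      linarith
    · rintro ⟨g1, g2⟩
      refine ⟨by linarith [hmid.mp (by linarith)], ?_⟩
      by_contra hcon
      push Not at hcon
      have := h1.mpr (by linarith)
      linarith

/-- the fine variable of the box: time digit and row -/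
def YY (T f c : Ω → ℝ) (dX lam : ℕ) (ω : Ω) : ℤ × ℤ := (dg dX T ω, ⌊yy T f c ω / 2 ^ lam⌋)

/-- the cell sum for the law `q` -/
def cq (q : Ω → ℝ) (T f c : Ω → ℝ) (dX lam : ℕ) (x i : ℤ) : ℝ :=
  |Pr q (YY T f c dX lam) (x, 2 * i) - Pr q (YY T f c dX lam) (x, 2 * i + 1)|

end Vale.Agent.P065.H819
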