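import Vale.Agent.P065.H819.RowQ3

/-!
# P065, package ROWS, part 6: the entropy of one row digit under the law `Q`
-/

set_option autoImplicit false
set_option linter.unusedSectionVars false

open Finset Real

noncomputable section

namespace Vale.Agent.P065.H819

open Vale.Agent.P065.Ent
open Vale.Agent.P065.H700 (KL AC)

lemma sum_biUnion_le' {ι β : Type*} [DecidableEq ι] [DecidableEq β] (s : Finset ι)
    (t : ι → Finset β) (g : β → ℝ) (hg : ∀ b, 0 ≤ g b) :
    ∑ b ∈ s.biUnion t, g b ≤ ∑ i ∈ s, ∑ b ∈ t i, g b := by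
  induction s using Finset.induction_on with
  | empty => simp
  | insert i s hi ih =>
    rw [biUnion_insert, sum_insert hi]
    have h1 := sum_union_inter (s₁ := t i) (s₂ := s.biUnion t) (f := g)
    have h2 : 0 ≤ ∑ b ∈ t i ∩ s.biUnion t, g b := sum_nonneg fun b _ => hg b
    linarith

variable {Ω : Type*} [Fintype Ω] {κ : Type*} [Fintype κ] {σ : Type*}

/-- normalised time at the level `v` -/
def Tv (x : Ω → ℝ) (v : ℕ) (ω : Ω) : ℝ := 2 ^ v * x ω

/-- normalised line height at the level `v` -/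
def cv (x h f : Ω → ℝ) (v : ℕ) (ω : Ω) : ℝ := 2 ^ v * h ω - f ω * Int.fract (Tv x v ω)

lemma yy_eq (x h f : Ω → ℝ) (v : ℕ) (ω : Ω) :
    yy (Tv x v) f (cv x h f v) ω = 2 ^ v * h ω := by
  unfold yy cv; ring

/-- the time digit at the level `t` -/
def Dt (x : Ω → ℝ) (t : ℕ) (ω : Ω) : ℤ := ⌊2 ^ t * x ω⌋

/-- the row at the level `t`, unit `2 ^ gam` -/
def Nt (h : Ω → ℝ) (gam t : ℕ) (ω : Ω) : ℤ := ⌊2 ^ t * h ω / 2 ^ gam⌋

lemma YY_eq (x h f : Ω → ℝ) (v dX lam t gam : ℕ) (h1 : v + dX = t) (h2 : dX + lam = gam) (ω : Ω) :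
    YY (Tv x v) f (cv x h f v) dX lam ω = (Dt x t ω, Nt h gam t ω) := by
  unfold YY
  rw [yy_eq]
  unfold dg Tv Dt Nt
  subst h1 h2
  congr 2
  · rw [pow_add]; ring
  · rw [pow_add, pow_add]; field_simp

lemma Nt_succ (h : Ω → ℝ) (gam t : ℕ) (ω : Ω) :
    Nt h gam (t + 1) ω = 2 * Nt h gam t ω ∨ Nt h gam (t + 1) ω = 2 * Nt h gam t ω + 1 := by
  unfold Nt
  have e : (2 : ℝ) ^ (t + 1) * h ω / 2 ^ gam = 2 * (2 ^ t * h ω / 2 ^ gam) := by
    rw [pow_succ]; ring
  rw [e]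
  set u := (2 : ℝ) ^ t * h ω / 2 ^ gam
  have h1 := Int.floor_le u
  have h2 := Int.lt_floor_add_one u
  have h3 : 2 * ⌊u⌋ ≤ ⌊2 * u⌋ := by
    apply Int.le_floor.mpr; push_cast; linarith
  have h4 : ⌊2 * u⌋ < 2 * ⌊u⌋ + 2 := by
    apply Int.floor_lt.mpr; push_cast; linarith
  omega

/-- the event of a box of the column `k` -/
def Bx (S : κ → Ω → σ) (x : Ω → ℝ) (h f : κ → Ω → ℝ) (a v : ℕ) (k : κ) (r : σ × ℤ × ℤ)
    (ω : Ω) : Prop :=
  RR (fun ω => S k ω = r.1) (Tv x v) (f k) (cv x (h k) (f k) v) a r.2.1 r.2.2 ω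

/-- the mass of a box -/
def mB (Q : κ × Ω → ℝ) (S : κ → Ω → σ) (x : Ω → ℝ) (h f : κ → Ω → ℝ) (a v : ℕ) (k : κ)
    (r : σ × ℤ × ℤ) : ℝ := ∑ ω, by classical exact if Bx S x h f a v k r ω then Q (k, ω) else 0

/-- the conditional law on a box -/
def qB (Q : κ × Ω → ℝ) (S : κ → Ω → σ) (x : Ω → ℝ) (h f : κ → Ω → ℝ) (a v : ℕ) (k : κ)
    (r : σ × ℤ × ℤ) (ω : Ω) : ℝ := by
  classical exact if Bx S x h f a v k r ω then Q (k, ω) / mB Q S x h f a v k r else 0

section
variable {Q : κ × Ω → ℝ} {μ : Ω → ℝ} {S : κ → Ω → σ} {x : Ω → ℝ} {h f : κ → Ω → ℝ} {a v : ℕ}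

lemma mB_nonneg (hQ : IsProb Q) (k : κ) (r : σ × ℤ × ℤ) : 0 ≤ mB Q S x h f a v k r := by
  classical
  unfold mB
  refine sum_nonneg fun ω _ => ?_
  split_ifs
  · exact hQ.nonneg _
  · exact le_rfl

lemma qB_prob (hQ : IsProb Q) (k : κ) (r : σ × ℤ × ℤ) (hr : 0 < mB Q S x h f a v k r) :
    IsProb (qB Q S x h f a v k r) := by
  classical
  constructor
  · intro ω
    unfold qB
    split_ifs
    · exact div_nonneg (hQ.nonneg _) hr.le
    · exact le_rfl
  · have : ∀ ω, qB Q S x h f a v k r ω =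
        (if Bx S x h f a v k r ω then Q (k, ω) else 0) / mB Q S x h f a v k r := by
      intro ω
      unfold qB
      split_ifs <;> simp
    rw [sum_congr rfl fun ω _ => this ω, ← sum_div]
    exact div_self hr.ne'

lemma qB_ac (hμ : IsProb μ) (hac : ∀ k ω, 0 < Q (k, ω) → 0 < μ ω) (hQ : IsProb Q) (k : κ)
    (r : σ × ℤ × ℤ) :
    AC (qB Q S x h f a v k r) (cE μ (Bx S x h f a v k r)) := by
  classical
  intro ω hω
  unfold qB at hω
  split_ifs at hω with hB
  · have h1 : 0 < Q (k, ω) := by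
      rcases (hQ.nonneg (k, ω)).eq_or_lt with h0 | h0
      · rw [← h0, zero_div] at hω
        exact absurd hω (lt_irrefl _)
      · exact h0
    have h2 := hac k ω h1
    have h3 : 0 < PE μ (Bx S x h f a v k r) := by
      rw [PE_def]
      refine lt_of_lt_of_le h2 ?_
      have := single_le_sum (f := fun ω => if Bx S x h f a v k r ω then μ ω else 0)
        (fun ω _ => by
          show 0 ≤ if Bx S x h f a v k r ω then μ ω else 0
          split_ifs
          · exact hμ.nonneg ω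
          · exact le_rfl) (mem_univ ω)
      simpa [hB] using this
    unfold cE cnd
    rw [if_pos (eq_true hB)]
    exact div_pos h2 h3
  · exact absurd hω (lt_irrefl _)

open Classical in
/-- probabilities of a variable which determines the box -/
lemma mB_mul_Pr {γ : Type*} (k : κ) (r : σ × ℤ × ℤ) (hr : 0 < mB Q S x h f a v k r) (Y : Ω → γ)
    (y : γ) (G : Ω → Prop) (hG : ∀ ω, Bx S x h f a v k r ω ∧ Y ω = y ↔ G ω) :
    mB Q S x h f a v k r * Pr (qB Q S x h f a v k r) Y y = ∑ ω, if G ω then Q (k, ω) else 0 := by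
  unfold Pr
  rw [mul_sum]
  refine sum_congr rfl fun ω _ => ?_
  unfold qB
  have h1 := hG ω
  by_cases hB : Bx S x h f a v k r ω
  · by_cases hY : Y ω = y
    · rw [if_pos hY, if_pos hB, if_pos (h1.mp ⟨hB, hY⟩), mul_div_cancel₀ _ hr.ne']
    · rw [if_neg hY, if_neg fun hg => hY (h1.mpr hg).2, mul_zero]
  · have : ¬ G ω := fun hg => hB (h1.mpr hg).1
    rw [if_neg this, if_neg hB]
    simp

end

end Vale.Agent.P065.H819
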