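import Vale.Agent.P065.H819.RowSum2

/-!
# P065, package ROWS, part 8: the entropy of one row digit under the law `Q`, main theorem

`rows_t`: with `R_t = (column, slope cell, D_{t+1}, N_t)`, the entropy of the digit
`N_t → N_{t+1}` under any law `Q` is at least `log 2` times the mass covered by good boxes, up to
the errors of the boxes.
-/

set_option autoImplicit false
set_option linter.unusedSectionVars false
set_option linter.unusedVariables false

open Finset Real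

noncomputable section

namespace Vale.Agent.P065.H819

open Vale.Agent.P065.Ent
open Vale.Agent.P065.H700 (KL AC)

variable {Ω : Type*} [Fintype Ω] {κ : Type*} [Fintype κ] {σ : Type*}
variable {p : Par} {Q : κ × Ω → ℝ} {μ : Ω → ℝ} {S : κ → Ω → σ} {x : Ω → ℝ} {h f : κ → Ω → ℝ}
  {E : κ → Ω → Option Bool} {s₀ s₁ : κ → ℕ}

/-- one cell of one box -/
lemma cell_eq (hQ : IsProb Q) {v dX lam gam t a : ℕ} (h1 : v + dX = t + 1) (h2 : dX + lam = gam)
    (hla : lam + 5 ≤ a) (k : κ) (r : σ × ℤ × ℤ) {dx i : ℤ}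
    (hr : 0 < mB Q S x h f a v k r)
    (hdx : 0 ≤ xhh dX r.2.1 dx ∧ xhh dX r.2.1 dx < 1) (hi : i ∈ In a lam r.2.2) :
    |PE Q (fun q => Zt S x h gam t q = (k, r.1, dx, i) ∧ Dg h gam t q) -
      PE Q (fun q => Zt S x h gam t q = (k, r.1, dx, i) ∧ ¬ Dg h gam t q)| =
    mB Q S x h f a v k r *
      cq (qB Q S x h f a v k r) (Tv x v) (f k) (cv x (h k) (f k) v) dX lam dx i := by
  classical
  obtain ⟨e1, e2⟩ := PE_Zt (S := S) (x := x) (h := h) hQ gam t k r.1 dx i
  rw [e1, e2]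
  unfold cq
  rw [show ∀ A B : ℝ, mB Q S x h f a v k r * |A - B| =
      |mB Q S x h f a v k r * A - mB Q S x h f a v k r * B| from fun A B => by
    rw [← mul_sub, abs_mul, abs_of_pos hr]]
  rw [mB_mul_Pr k r hr _ _ _ (box_iff h1 h2 hla k r hdx hi (2 * i) (Or.inl rfl)),
    mB_mul_Pr k r hr _ _ _ (box_iff h1 h2 hla k r hdx hi (2 * i + 1) (Or.inr rfl))]
  refine congrArg abs (congrArg₂ (· - ·) ?_ ?_)
  · exact sum_congr rfl fun ω _ => by split_ifs <;> rfl
  · exact sum_congr rfl fun ω _ => by split_ifs <;> rfl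

/-- the covered part: `Gd lam k` is the set of boxes of the column `k` at the level
`t + 1 + lam - gam` -/
def cov (p : Par) (S : κ → Ω → σ) (x : Ω → ℝ) (h : κ → Ω → ℝ) (t : ℕ)
    (Gd : ℕ → κ → Finset (σ × ℤ × ℤ)) (q : κ × Ω) : Prop :=
  ∃ lam ∈ Finset.Ico p.lam0 (p.a - 4), ∃ r ∈ Gd lam q.1, S q.1 q.2 = r.1 ∧
    Dt x (t + 1) q.2 ∈ Xn (p.gam - lam) (Tv x (t + 1 + lam - p.gam)) p.g r.2.1 ∧
    Nt (h q.1) p.gam t q.2 ∈ In p.a lam r.2.2

open Classical in
/-- **ROWS, one level**: the entropy of a row digit -/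
theorem rows_t (H : ColH p Q μ f E s₀ s₁) {ps : ℝ} (hps : 0 < ps) (hps1 : ps ≤ 1)
    {κ' e' : ℝ} (hκ : 0 < κ') (hκ1 : κ' < 1) (he' : 0 < e') {t : ℕ}
    (hgam : p.gam ≤ t + 1 + p.lam0) (Gd : ℕ → κ → Finset (σ × ℤ × ℤ))
    (hGd : ∀ lam ∈ Finset.Ico p.lam0 (p.a - 4), ∀ k, ∀ r ∈ Gd lam k,
      GB p Q μ S x h f E ps (t + 1 + lam - p.gam) k r) :
    log 2 * (PE Q (cov p S x h t Gd) -
      ∑ lam ∈ Finset.Ico p.lam0 (p.a - 4), ∑ k, ∑ r ∈ Gd lam k,
        mB Q S x h f p.a (t + 1 + lam - p.gam) k r *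
          (2 * eB κ' p.a lam p.P0 p.g + e' +
            CQ κ' ps e' * Info p Q μ S x h f E s₀ s₁ (t + 1 + lam - p.gam) lam k r)) ≤
      Hc Q (Dg h p.gam t) (Zt S x h p.gam t) := by
  have hlog2 : 0 ≤ log 2 := log_nonneg (by norm_num)
  -- the values
  set cell : ℕ → κ → (σ × ℤ × ℤ) → Finset (κ × σ × ℤ × ℤ) := fun lam k r =>
    ((Xn (p.gam - lam) (Tv x (t + 1 + lam - p.gam)) p.g r.2.1) ×ˢ (In p.a lam r.2.2)).image
      (fun y => (k, r.1, y.1, y.2)) with hcell
  set T : Finset (κ × σ × ℤ × ℤ) :=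
    (Finset.Ico p.lam0 (p.a - 4)).biUnion fun lam => univ.biUnion fun k =>
      (Gd lam k).biUnion fun r => cell lam k r with hT
  have h0 := Hc_digit_ge H.probQ (Dg h p.gam t) (Zt S x h p.gam t) T
  refine le_trans (mul_le_mul_of_nonneg_left ?_ hlog2) h0
  rw [sum_sub_distrib]
  -- the covered mass
  have hcov : PE Q (cov p S x h t Gd) ≤ ∑ z ∈ T, PE Q (fun q => Zt S x h p.gam t q = z) := by
    have e1 : ∀ z, PE Q (fun q => Zt S x h p.gam t q = z) =
        ∑ q, if Zt S x h p.gam t q = z then Q q else 0 := fun z => by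
      rw [PE_def]
      exact sum_congr rfl fun q _ => by split_ifs <;> rfl
    rw [sum_congr rfl fun z _ => e1 z, sum_comm, PE_def]
    refine sum_le_sum fun q _ => ?_
    rw [sum_ite_eq]
    by_cases hq : cov p S x h t Gd q
    · rw [if_pos hq, if_pos]
      obtain ⟨lam, hlam, r, hr, g1, g2, g3⟩ := hq
      rw [hT]
      refine mem_biUnion.mpr ⟨lam, hlam, mem_biUnion.mpr ⟨q.1, mem_univ _, mem_biUnion.mpr
        ⟨r, hr, ?_⟩⟩⟩
      rw [hcell]
      refine mem_image.mpr ⟨(Dt x (t + 1) q.2, Nt (h q.1) p.gam t q.2), ?_, ?_⟩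
      · exact mem_product.mpr ⟨g2, g3⟩
      · show (q.1, r.1, Dt x (t + 1) q.2, Nt (h q.1) p.gam t q.2) = Zt S x h p.gam t q
        unfold Zt
        rw [g1]
    · rw [if_neg hq]
      split_ifs
      · exact H.probQ.nonneg q
      · exact le_rfl
  -- the differences
  have hdiff : ∑ z ∈ T, |PE Q (fun q => Zt S x h p.gam t q = z ∧ Dg h p.gam t q) -
      PE Q (fun q => Zt S x h p.gam t q = z ∧ ¬ Dg h p.gam t q)| ≤
      ∑ lam ∈ Finset.Ico p.lam0 (p.a - 4), ∑ k, ∑ r ∈ Gd lam k,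
        mB Q S x h f p.a (t + 1 + lam - p.gam) k r *
          (2 * eB κ' p.a lam p.P0 p.g + e' +
            CQ κ' ps e' * Info p Q μ S x h f E s₀ s₁ (t + 1 + lam - p.gam) lam k r) := by
    rw [hT]
    refine (sum_biUnion_le' _ _ _ fun _ => abs_nonneg _).trans ?_
    refine sum_le_sum fun lam hlam => ?_
    refine (sum_biUnion_le' _ _ _ fun _ => abs_nonneg _).trans ?_
    refine sum_le_sum fun k _ => ?_
    refine (sum_biUnion_le' _ _ _ fun _ => abs_nonneg _).trans ?_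
    refine sum_le_sum fun r hr => ?_
    have hG := hGd lam hlam k r hr
    obtain ⟨l1, l2⟩ := Finset.mem_Ico.mp hlam
    have h3 := p.h3
    have h2 := p.h2
    rw [hcell, sum_image (by
      rintro ⟨a1, a2⟩ _ ⟨b1, b2⟩ _ hab
      simp only [Prod.mk.injEq, true_and] at hab
      exact Prod.ext hab.1 hab.2), sum_product]
    have hb := box_le H hps hps1 hκ hκ1 he' l1 (by omega) hG
    refine le_trans (le_of_eq ?_) (mul_le_mul_of_nonneg_left hb hG.pos.le)
    rw [mul_sum]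
    refine sum_congr rfl fun dx hdx => ?_
    rw [mul_sum]
    refine sum_congr rfl fun i hi => ?_
    refine cell_eq H.probQ (by omega) (by omega) (by omega) k r hG.pos ?_ hi
    unfold Xn at hdx
    exact (mem_filter.mp (mem_filter.mp hdx).1).2
  linarith

end Vale.Agent.P065.H819
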